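import Mathlib

/-!
The law of a Markov chain on a finite set, from a general starting law.
-/

namespace Vale.Agent.Lib.P328U

open Finset

variable {α : Type*}

/-- The law at time `t` of the chain with kernel `K` on `Ω`, started from the law `μ`. -/
noncomputable def flow (Ω : Finset α) (K : α → α → ℝ) (μ : α → ℝ) : ℕ → α → ℝ
  | 0, y => μ y
  | t + 1, y => ∑ z ∈ Ω, flow Ω K μ t z * K z y

end Vale.Agent.Lib.P328U
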