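import Vale.Agent.Lib.P328Q.MixAbstract
import Vale.Agent.Lib.P328U.MixDefs

/-!
A lazy symmetric chain on a finite set, started from a general law: warm start decay of the
variance of the density under a weak Poincare inequality, total variation bound, and the
contraction of the chain in total variation.
-/

namespace Vale.Agent.Lib.P328U

open Finset Vale.Agent.Lib.P328Q

noncomputable section

variable {α : Type*}

section

variable {Ω : Finset α} {K : α → α → ℝ} {μ ν : α → ℝ}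

theorem flow_zero (y : α) : flow Ω K μ 0 y = μ y := rfl

theorem flow_succ (t : ℕ) (y : α) : flow Ω K μ (t + 1) y = ∑ z ∈ Ω, flow Ω K μ t z * K z y := rfl

/-- The chain preserves nonnegativity. -/
theorem flow_nonneg (hK0 : ∀ x ∈ Ω, ∀ y ∈ Ω, 0 ≤ K x y) (hμ : ∀ x ∈ Ω, 0 ≤ μ x) (t : ℕ) :
    ∀ y ∈ Ω, 0 ≤ flow Ω K μ t y := by
  induction t with
  | zero => exact hμ
  | succ t ih =>
    intro y hy
    exact sum_nonneg fun z hz => mul_nonneg (ih z hz) (hK0 z hz y hy)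

/-- The chain preserves the mass. -/
theorem flow_mass (hKsum : ∀ x ∈ Ω, ∑ y ∈ Ω, K x y = 1) (t : ℕ) :
    ∑ y ∈ Ω, flow Ω K μ t y = ∑ y ∈ Ω, μ y := by
  induction t with
  | zero => rfl
  | succ t ih =>
    rw [← ih]
    simp only [flow_succ]
    rw [sum_comm]
    refine sum_congr rfl fun z hz => ?_
    rw [← mul_sum, hKsum z hz, mul_one]

/-- The chain preserves an upper bound, when it is doubly stochastic. -/
theorem flow_le (hK0 : ∀ x ∈ Ω, ∀ y ∈ Ω, 0 ≤ K x y) (hKcol : ∀ y ∈ Ω, ∑ z ∈ Ω, K z y = 1)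
    {b : ℝ} (hμ : ∀ x ∈ Ω, μ x ≤ b) (t : ℕ) : ∀ y ∈ Ω, flow Ω K μ t y ≤ b := by
  induction t with
  | zero => exact hμ
  | succ t ih =>
    intro y hy
    calc flow Ω K μ (t + 1) y ≤ ∑ z ∈ Ω, b * K z y :=
          sum_le_sum fun z hz => mul_le_mul_of_nonneg_right (ih z hz) (hK0 z hz y hy)
      _ = b := by rw [← mul_sum, hKcol y hy, mul_one]

/-- The chain is linear: difference of two flows at one step. -/
theorem flow_sub_succ (t : ℕ) (y : α) :
    flow Ω K μ (t + 1) y - flow Ω K ν (t + 1) y =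
      ∑ z ∈ Ω, (flow Ω K μ t z - flow Ω K ν t z) * K z y := by
  simp only [flow_succ, sub_mul, sum_sub_distrib]

/-- The chain is a contraction in the `ℓ¹` norm. -/
theorem flow_l1 (hK0 : ∀ x ∈ Ω, ∀ y ∈ Ω, 0 ≤ K x y) (hKsum : ∀ x ∈ Ω, ∑ y ∈ Ω, K x y = 1)
    (t : ℕ) :
    ∑ y ∈ Ω, |flow Ω K μ t y - flow Ω K ν t y| ≤ ∑ y ∈ Ω, |μ y - ν y| := by
  induction t with
  | zero => exact le_rfl
  | succ t ih =>
    refine le_trans ?_ ih
    calc ∑ y ∈ Ω, |flow Ω K μ (t + 1) y - flow Ω K ν (t + 1) y|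
        ≤ ∑ y ∈ Ω, ∑ z ∈ Ω, |flow Ω K μ t z - flow Ω K ν t z| * K z y := by
          refine sum_le_sum fun y hy => ?_
          rw [flow_sub_succ]
          refine le_trans (abs_sum_le_sum_abs _ _) (sum_le_sum fun z hz => ?_)
          rw [abs_mul, abs_of_nonneg (hK0 z hz y hy)]
      _ = ∑ z ∈ Ω, |flow Ω K μ t z - flow Ω K ν t z| := by
          rw [sum_comm]
          refine sum_congr rfl fun z hz => ?_
          rw [← mul_sum, hKsum z hz, mul_one]

end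

section Lazy

variable [DecidableEq α] {Ω : Finset α} {K S : α → α → ℝ}

/-- Warm start decay of the variance of the density under a weak Poincare inequality. -/
theorem flow_var_decay
    (hK : ∀ x ∈ Ω, ∀ y ∈ Ω, K x y = 1 / 2 * (if y = x then 1 else 0) + 1 / 2 * S x y)
    (hS0 : ∀ x ∈ Ω, ∀ y ∈ Ω, 0 ≤ S x y) (hSsym : ∀ x ∈ Ω, ∀ y ∈ Ω, S x y = S y x)
    (hS1 : ∀ x ∈ Ω, ∑ y ∈ Ω, S x y = 1) {C e B : ℝ} (hC : 0 < C) (he : 0 ≤ e)
    (hW : ∀ g : α → ℝ, (∀ x ∈ Ω, g x ^ 2 ≤ B ^ 2) →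
      (∑ x ∈ Ω, g x ^ 2) / (Ω.card : ℝ) - ((∑ x ∈ Ω, g x) / (Ω.card : ℝ)) ^ 2 ≤
        C * ((∑ x ∈ Ω, ∑ y ∈ Ω, K x y * (g x - g y) ^ 2) / (2 * (Ω.card : ℝ))) + e * B ^ 2)
    (hne : Ω.Nonempty) {μ : α → ℝ} (hμ0 : ∀ x ∈ Ω, 0 ≤ μ x) (hμ1 : ∑ x ∈ Ω, μ x = 1)
    (hμB : ∀ x ∈ Ω, (Ω.card : ℝ) * μ x ≤ B) (t : ℕ) :
    (∑ y ∈ Ω, ((Ω.card : ℝ) * flow Ω K μ t y - 1) ^ 2) / (Ω.card : ℝ) ≤
      B ^ 2 * (e + Real.exp (-((t : ℝ) / C))) := by
  have hN : (0 : ℝ) < Ω.card := by exact_mod_cast card_pos.2 hne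
  set N : ℝ := (Ω.card : ℝ) with hNdef
  have hKsym : ∀ x ∈ Ω, ∀ y ∈ Ω, K x y = K y x := fun x hx y hy => mix_K_symm hK hSsym hx hy
  have hKsum : ∀ x ∈ Ω, ∑ y ∈ Ω, K x y = 1 := fun x hx => mix_K_sum hK hS1 hx
  have hKcol : ∀ y ∈ Ω, ∑ z ∈ Ω, K z y = 1 := fun y hy => by
    rw [← hKsum y hy]
    exact sum_congr rfl fun z hz => hKsym z hz y hy
  have hK0 : ∀ x ∈ Ω, ∀ y ∈ Ω, 0 ≤ K x y := by
    intro x hx y hy
    rw [hK x hx y hy]
    have := hS0 x hx y hy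
    split_ifs <;> linarith
  have hB0 : 0 ≤ B := by
    obtain ⟨x, hx⟩ := hne
    exact le_trans (mul_nonneg hN.le (hμ0 x hx)) (hμB x hx)
  set f : ℕ → α → ℝ := fun t => flow Ω K μ t with hf
  set g : ℕ → α → ℝ := fun t y => N * f t y with hg
  set h : ℕ → α → ℝ := fun t y => N * f t y - 1 with hh
  set A : ℕ → ℝ := fun t => ∑ y ∈ Ω, h t y ^ 2 with hA
  have hf0 : ∀ t, ∀ y ∈ Ω, 0 ≤ f t y := fun t => flow_nonneg hK0 hμ0 t
  have hfle : ∀ t, ∀ y ∈ Ω, N * f t y ≤ B := by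
    intro t y hy
    have hb : ∀ x ∈ Ω, μ x ≤ B / N := fun x hx => by
      rw [le_div_iff₀ hN]
      linarith [hμB x hx]
    have := flow_le hK0 hKcol hb t y hy
    rw [le_div_iff₀ hN] at this
    simpa [hf, mul_comm] using this
  have hmass : ∀ t, ∑ y ∈ Ω, f t y = 1 := fun t => by
    simpa [hf, hμ1] using flow_mass (μ := μ) hKsum t
  have hhmean : ∀ t, ∑ y ∈ Ω, h t y = 0 := by
    intro t
    simp only [hh, sum_sub_distrib, ← mul_sum, hmass t, sum_const, nsmul_eq_mul, mul_one, hNdef]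
    ring
  have hgsq : ∀ t, ∑ y ∈ Ω, g t y ^ 2 = A t + N := by
    intro t
    have e1 : ∀ y, g t y ^ 2 = h t y ^ 2 + 2 * h t y + 1 := by
      intro y
      simp only [hg, hh]
      ring
    simp only [e1, sum_add_distrib, ← mul_sum, hhmean t, mul_zero, add_zero, sum_const,
      nsmul_eq_mul, mul_one, hA, hNdef]
  have hgsum : ∀ t, ∑ y ∈ Ω, g t y = N := by
    intro t
    simp only [hg, ← mul_sum, hmass t, mul_one]
  have hnext : ∀ t, ∀ y ∈ Ω, h (t + 1) y = ∑ z ∈ Ω, h t z * K z y := by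
    intro t y hy
    have e1 : ∑ z ∈ Ω, h t z * K z y = N * ∑ z ∈ Ω, f t z * K z y - ∑ z ∈ Ω, K z y := by
      rw [mul_sum, ← sum_sub_distrib]
      refine sum_congr rfl fun z _ => ?_
      simp only [hh]
      ring
    rw [e1, hKcol y hy]
    rfl
  -- the one step energy bound
  set E : ℕ → ℝ := fun t => ∑ x ∈ Ω, ∑ y ∈ Ω, K x y * (h t x - h t y) ^ 2 with hE
  have hE0 : ∀ t, 0 ≤ E t := fun t =>
    sum_nonneg fun x hx => sum_nonneg fun y hy => mul_nonneg (hK0 x hx y hy) (sq_nonneg _)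
  have hstep : ∀ t, A (t + 1) ≤ A t - E t / 2 := by
    intro t
    have e1 : A (t + 1) = ∑ y ∈ Ω, (∑ z ∈ Ω, h t z * K z y) ^ 2 :=
      sum_congr rfl fun y hy => by rw [hnext t y hy]
    have h2 := mix_contraction hK hS0 hSsym hS1 (h t)
    have h3 := mix_dirichlet hKsym hKsum (h t)
    rw [e1]
    exact le_trans h2 (le_of_eq h3)
  have hweak : ∀ t, A t / N ≤ C * (E t / (2 * N)) + e * B ^ 2 := by
    intro t
    have hbd : ∀ x ∈ Ω, g t x ^ 2 ≤ B ^ 2 := by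
      intro x hx
      have h1 : 0 ≤ g t x := mul_nonneg hN.le (hf0 t x hx)
      exact pow_le_pow_left₀ h1 (hfle t x hx) 2
    have := hW (g t) hbd
    rw [hgsq t, hgsum t] at this
    have e1 : (A t + N) / N - (N / N) ^ 2 = A t / N := by
      field_simp
      ring
    rw [e1] at this
    have e2 : ∑ x ∈ Ω, ∑ y ∈ Ω, K x y * (g t x - g t y) ^ 2 = E t := by
      refine sum_congr rfl fun x _ => sum_congr rfl fun y _ => ?_
      simp only [hg, hh]
      ring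
    rw [e2] at this
    exact this
  have hA0 : A 0 / N ≤ B ^ 2 := by
    have h1 : ∑ y ∈ Ω, g 0 y ^ 2 ≤ N * B ^ 2 := by
      calc ∑ y ∈ Ω, g 0 y ^ 2 ≤ ∑ _y ∈ Ω, B ^ 2 := by
            refine sum_le_sum fun x hx => ?_
            exact pow_le_pow_left₀ (mul_nonneg hN.le (hf0 0 x hx)) (hfle 0 x hx) 2
        _ = N * B ^ 2 := by simp [hNdef]
    rw [hgsq 0] at h1
    rw [div_le_iff₀ hN]
    linarith
  have hB2 : 0 ≤ B ^ 2 := sq_nonneg B
  have hind : ∀ t : ℕ, A t / N ≤ e * B ^ 2 + Real.exp (-((t : ℝ) / C)) * B ^ 2 := by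
    intro t
    induction t with
    | zero =>
      simp only [Nat.cast_zero, zero_div, neg_zero, Real.exp_zero, one_mul]
      have := mul_nonneg he hB2
      linarith
    | succ t ih =>
      have h1 : A (t + 1) / N ≤ A t / N - E t / (2 * N) := by
        have e1 : A t / N - E t / (2 * N) = (A t - E t / 2) / N := by
          field_simp
        rw [e1]
        exact div_le_div_of_nonneg_right (hstep t) hN.le
      have hD : 0 ≤ E t / (2 * N) := div_nonneg (hE0 t) (by positivity)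
      have h2 := hweak t
      have hexp : Real.exp (-(((t + 1 : ℕ) : ℝ) / C)) =
          Real.exp (-(1 / C)) * Real.exp (-((t : ℝ) / C)) := by
        rw [← Real.exp_add]
        congr 1
        push_cast
        field_simp
        ring
      rw [hexp]
      set X := Real.exp (-((t : ℝ) / C)) with hX
      set y := Real.exp (-(1 / C)) with hy
      have hX0 : 0 ≤ X := (Real.exp_pos _).le
      have hy0 : 0 < y := Real.exp_pos _
      have hy1 : 1 - 1 / C ≤ y := by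
        have := Real.add_one_le_exp (-(1 / C))
        simp only [hy]
        linarith
      set V := A t / N with hV
      set D := E t / (2 * N) with hDdef
      set eB := e * B ^ 2 with heB
      have hDlow : (V - eB) / C ≤ D := by
        rw [div_le_iff₀ hC]
        linarith
      by_cases hcase : V ≤ eB
      · have : 0 ≤ y * X * B ^ 2 := by positivity
        linarith
      · have hcase := not_le.1 hcase
        have hpos : 0 < V - eB := by linarith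
        have h3 : A (t + 1) / N - eB ≤ (1 - 1 / C) * (V - eB) := by
          have e2 : (1 - 1 / C) * (V - eB) = (V - eB) - (V - eB) / C := by
            ring
          rw [e2]
          linarith
        have h4 : (1 - 1 / C) * (V - eB) ≤ y * (V - eB) :=
          mul_le_mul_of_nonneg_right hy1 hpos.le
        have h5 : y * (V - eB) ≤ y * (X * B ^ 2) :=
          mul_le_mul_of_nonneg_left (by linarith) hy0.le
        have e3 : y * (X * B ^ 2) = y * X * B ^ 2 := by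
          ring
        linarith
  have := hind t
  simp only [hA] at this
  calc _ ≤ _ := this
    _ = _ := by ring

/-- Warm start: total variation bound under a weak Poincare inequality. -/
theorem flow_tv
    (hK : ∀ x ∈ Ω, ∀ y ∈ Ω, K x y = 1 / 2 * (if y = x then 1 else 0) + 1 / 2 * S x y)
    (hS0 : ∀ x ∈ Ω, ∀ y ∈ Ω, 0 ≤ S x y) (hSsym : ∀ x ∈ Ω, ∀ y ∈ Ω, S x y = S y x)
    (hS1 : ∀ x ∈ Ω, ∑ y ∈ Ω, S x y = 1) {C e B : ℝ} (hC : 0 < C) (he : 0 ≤ e)
    (hW : ∀ g : α → ℝ, (∀ x ∈ Ω, g x ^ 2 ≤ B ^ 2) →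
      (∑ x ∈ Ω, g x ^ 2) / (Ω.card : ℝ) - ((∑ x ∈ Ω, g x) / (Ω.card : ℝ)) ^ 2 ≤
        C * ((∑ x ∈ Ω, ∑ y ∈ Ω, K x y * (g x - g y) ^ 2) / (2 * (Ω.card : ℝ))) + e * B ^ 2)
    (hne : Ω.Nonempty) {μ : α → ℝ} (hμ0 : ∀ x ∈ Ω, 0 ≤ μ x) (hμ1 : ∑ x ∈ Ω, μ x = 1)
    (hμB : ∀ x ∈ Ω, (Ω.card : ℝ) * μ x ≤ B) (t : ℕ) :
    (1 / 2) * ∑ y ∈ Ω, |flow Ω K μ t y - 1 / (Ω.card : ℝ)| ≤
      (B / 2) * Real.sqrt (e + Real.exp (-((t : ℝ) / C))) := by
  have hN : (0 : ℝ) < Ω.card := by exact_mod_cast card_pos.2 hne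
  have hB0 : 0 ≤ B := by
    obtain ⟨x, hx⟩ := hne
    exact le_trans (mul_nonneg hN.le (hμ0 x hx)) (hμB x hx)
  have hdec := flow_var_decay hK hS0 hSsym hS1 hC he hW hne hμ0 hμ1 hμB t
  set N : ℝ := (Ω.card : ℝ) with hNdef
  set h : α → ℝ := fun y => N * flow Ω K μ t y - 1 with hh
  have e1 : ∑ y ∈ Ω, |flow Ω K μ t y - 1 / N| = (∑ y ∈ Ω, |h y|) / N := by
    rw [sum_div]
    refine sum_congr rfl fun y _ => ?_
    have : flow Ω K μ t y - 1 / N = h y / N := by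
      simp only [hh]
      field_simp
    rw [this, abs_div, abs_of_pos hN]
  have hcs : (∑ y ∈ Ω, |h y|) ^ 2 ≤ N * ∑ y ∈ Ω, h y ^ 2 := by
    have := sq_sum_le_card_mul_sum_sq (s := Ω) (f := fun y => |h y|)
    simpa [sq_abs] using this
  have hS0' : 0 ≤ ∑ y ∈ Ω, |h y| := sum_nonneg fun _ _ => abs_nonneg _
  have hrad : 0 ≤ e + Real.exp (-((t : ℝ) / C)) := add_nonneg he (Real.exp_pos _).le
  have hsq : ((∑ y ∈ Ω, |h y|) / N) ^ 2 ≤ B ^ 2 * (e + Real.exp (-((t : ℝ) / C))) := by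
    refine le_trans ?_ hdec
    rw [div_pow, div_le_div_iff₀ (by positivity) hN]
    nlinarith
  have hroot : (∑ y ∈ Ω, |h y|) / N ≤ B * Real.sqrt (e + Real.exp (-((t : ℝ) / C))) := by
    have h1 : 0 ≤ B * Real.sqrt (e + Real.exp (-((t : ℝ) / C))) :=
      mul_nonneg hB0 (Real.sqrt_nonneg _)
    refine abs_le_of_sq_le_sq' ?_ h1 |>.2
    rw [mul_pow, Real.sq_sqrt hrad]
    exact hsq
  rw [e1]
  linarith

end Lazy

end

end Vale.Agent.Lib.P328U
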