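import Vale.Agent.Lib.P328U.MixFlow
import Vale.Agent.Lib.P328Q.Mixing

/-!
The lazy Diaconis-Gangolli chain started from a general law: warm start total variation bound from
a weak Poincare inequality on the tables, and contraction of the chain in total variation.
-/

namespace Vale.Agent.Lib.P328U

open Finset Vale.Agent.Lib.P328Q Vale.Agent.Lib.P328

noncomputable section

variable {m n : ℕ}

open Classical in
theorem dg_kernel_eq_on (x y : Tb m (Fin n)) :
    dgKernel x y = 1 / 2 * (if y = x then 1 else 0) + 1 / 2 * dgS m n x y :=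
  mix_kernel_eq x y

/-- The kernel is nonnegative. -/
theorem dg_kernel_nonneg (x y : Tb m (Fin n)) : 0 ≤ dgKernel x y := by
  classical
  rw [mix_kernel_eq]
  have := mix_S_nonneg x y
  split_ifs <;> linarith

/-- The kernel is symmetric. -/
theorem dg_kernel_symm (x y : Tb m (Fin n)) : dgKernel x y = dgKernel y x := by
  classical
  rw [mix_kernel_eq, mix_kernel_eq, mix_S_symm x y]
  by_cases h : x = y
  · rw [h]
  · rw [if_neg h, if_neg (Ne.symm h)]

/-- The kernel is stochastic on the tables. -/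
theorem dg_kernel_sum {r : Fin m → ℕ} {c : Fin n → ℕ} (hm : 1 ≤ m) (hn : 1 ≤ n)
    {x : Tb m (Fin n)} (hx : x ∈ Tab r c) : ∑ y ∈ Tab r c, dgKernel x y = 1 := by
  classical
  have := @mix_K_sum _ (Classical.decEq _) (Tab r c) dgKernel (dgS m n)
    (fun x _ y _ => by
      rw [mix_kernel_eq]
      by_cases h : y = x
      · rw [if_pos h, if_pos h]
      · rw [if_neg h, if_neg h])
    (fun x hx => mix_S_sum hm hn hx) x hx
  exact this

/-- The chain on the tables started from `μ` has nonnegative weights. -/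
theorem dg_flow_nonneg {r : Fin m → ℕ} {c : Fin n → ℕ} {μ : Tb m (Fin n) → ℝ}
    (hμ : ∀ x ∈ Tab r c, 0 ≤ μ x) (t : ℕ) :
    ∀ y ∈ Tab r c, 0 ≤ flow (Tab r c) dgKernel μ t y :=
  flow_nonneg (fun x _ y _ => dg_kernel_nonneg x y) hμ t

/-- The chain on the tables preserves the mass. -/
theorem dg_flow_mass {r : Fin m → ℕ} {c : Fin n → ℕ} (hm : 1 ≤ m) (hn : 1 ≤ n)
    (μ : Tb m (Fin n) → ℝ) (t : ℕ) :
    ∑ y ∈ Tab r c, flow (Tab r c) dgKernel μ t y = ∑ y ∈ Tab r c, μ y :=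
  flow_mass (fun _ hx => dg_kernel_sum hm hn hx) t

/-- The chain on the tables is a contraction in the `ℓ¹` norm. -/
theorem dg_flow_l1 {r : Fin m → ℕ} {c : Fin n → ℕ} (hm : 1 ≤ m) (hn : 1 ≤ n)
    (μ ν : Tb m (Fin n) → ℝ) (t : ℕ) :
    ∑ y ∈ Tab r c, |flow (Tab r c) dgKernel μ t y - flow (Tab r c) dgKernel ν t y| ≤
      ∑ y ∈ Tab r c, |μ y - ν y| :=
  flow_l1 (fun x _ y _ => dg_kernel_nonneg x y) (fun _ hx => dg_kernel_sum hm hn hx) t

open Classical in
/-- The law from a point is the flow from the point mass. -/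
theorem dgLaw_eq_flow (r : Fin m → ℕ) (c : Fin n → ℕ) (x : Tb m (Fin n)) (t : ℕ)
    (y : Tb m (Fin n)) :
    dgLaw r c x t y = flow (Tab r c) dgKernel (fun y => if y = x then 1 else 0) t y := by
  induction t generalizing y with
  | zero =>
    simp only [dgLaw, flow]
  | succ t ih =>
    simp only [dgLaw, flow]
    refine sum_congr rfl fun z _ => ?_
    rw [ih z]

/-- Warm start on the tables: a law on the tables with density at most `B` with respect to
the uniform law is close to uniform after `t` steps, under a weak Poincare inequality. -/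
theorem dg_warm_tv {r : Fin m → ℕ} {c : Fin n → ℕ} (hm : 1 ≤ m) (hn : 1 ≤ n) {C e B : ℝ}
    (hC : 0 < C) (he : 0 ≤ e)
    (hW : ∀ g : Tb m (Fin n) → ℝ, (∀ x ∈ Tab r c, g x ^ 2 ≤ B ^ 2) →
      tabVar r c g ≤ C * tabDir r c g + e * B ^ 2)
    (hne : (Tab r c).Nonempty) {μ : Tb m (Fin n) → ℝ} (hμ0 : ∀ x ∈ Tab r c, 0 ≤ μ x)
    (hμ1 : ∑ x ∈ Tab r c, μ x = 1) (hμB : ∀ x ∈ Tab r c, ((Tab r c).card : ℝ) * μ x ≤ B)
    (t : ℕ) :
    tvUnif r c (flow (Tab r c) dgKernel μ t) ≤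
      (B / 2) * Real.sqrt (e + Real.exp (-((t : ℝ) / (4 * (m : ℝ) ^ 2 * (n : ℝ) ^ 2 * C)))) := by
  classical
  have hm' : (0 : ℝ) < m := by exact_mod_cast hm
  have hn' : (0 : ℝ) < n := by exact_mod_cast hn
  have hN : (0 : ℝ) < ((Tab r c).card : ℝ) := by exact_mod_cast card_pos.2 hne
  have hC' : 0 < 4 * (m : ℝ) ^ 2 * (n : ℝ) ^ 2 * C := by positivity
  have key := @flow_tv _ (Classical.decEq _) (Tab r c) dgKernel (dgS m n)
    (fun x _ y _ => by
      rw [mix_kernel_eq]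
      by_cases h : y = x
      · rw [if_pos h, if_pos h]
      · rw [if_neg h, if_neg h])
    (fun x _ y _ => mix_S_nonneg x y)
    (fun x _ y _ => mix_S_symm x y) (fun x hx => mix_S_sum hm hn hx)
    (4 * (m : ℝ) ^ 2 * (n : ℝ) ^ 2 * C) e B hC' he ?_ hne μ hμ0 hμ1 hμB t
  · exact key
  · intro g hg
    have h1 := hW g hg
    unfold tabVar tabDir at h1
    refine le_trans h1 (le_of_eq ?_)
    rw [sum_congr rfl fun x hx => mix_kernel_dir hx g, ← mul_sum]
    congr 1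
    field_simp
    ring

/-- The same with a simpler bound. -/
theorem dg_warm_tv_le {r : Fin m → ℕ} {c : Fin n → ℕ} (hm : 1 ≤ m) (hn : 1 ≤ n) {C e B : ℝ}
    (hC : 0 < C) (he : 0 < e)
    (hW : ∀ g : Tb m (Fin n) → ℝ, (∀ x ∈ Tab r c, g x ^ 2 ≤ B ^ 2) →
      tabVar r c g ≤ C * tabDir r c g + e * B ^ 2)
    (hne : (Tab r c).Nonempty) {μ : Tb m (Fin n) → ℝ} (hμ0 : ∀ x ∈ Tab r c, 0 ≤ μ x)
    (hμ1 : ∑ x ∈ Tab r c, μ x = 1) (hμB : ∀ x ∈ Tab r c, ((Tab r c).card : ℝ) * μ x ≤ B)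
    {t : ℕ} (ht : 4 * (m : ℝ) ^ 2 * (n : ℝ) ^ 2 * C * Real.log (1 / e) ≤ t) :
    tvUnif r c (flow (Tab r c) dgKernel μ t) ≤ B * Real.sqrt e := by
  have hm' : (0 : ℝ) < m := by exact_mod_cast hm
  have hn' : (0 : ℝ) < n := by exact_mod_cast hn
  have hC' : 0 < 4 * (m : ℝ) ^ 2 * (n : ℝ) ^ 2 * C := by positivity
  have hN : (0 : ℝ) < ((Tab r c).card : ℝ) := by exact_mod_cast card_pos.2 hne
  have hB0 : 0 ≤ B := by
    obtain ⟨x, hx⟩ := hne
    exact le_trans (mul_nonneg hN.le (hμ0 x hx)) (hμB x hx)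
  refine le_trans (dg_warm_tv hm hn hC he.le hW hne hμ0 hμ1 hμB t) ?_
  have hexp : Real.exp (-((t : ℝ) / (4 * (m : ℝ) ^ 2 * (n : ℝ) ^ 2 * C))) ≤ e := by
    have h1 : Real.log (1 / e) ≤ (t : ℝ) / (4 * (m : ℝ) ^ 2 * (n : ℝ) ^ 2 * C) := by
      rw [le_div_iff₀ hC']
      linarith
    have h2 : Real.exp (-((t : ℝ) / (4 * (m : ℝ) ^ 2 * (n : ℝ) ^ 2 * C))) ≤
        Real.exp (-Real.log (1 / e)) := Real.exp_le_exp.2 (by linarith)
    have h3 : Real.exp (-Real.log (1 / e)) = e := by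
      rw [one_div, Real.log_inv, neg_neg, Real.exp_log he]
    rwa [h3] at h2
  have h4 : Real.sqrt (e + Real.exp (-((t : ℝ) / (4 * (m : ℝ) ^ 2 * (n : ℝ) ^ 2 * C)))) ≤
      2 * Real.sqrt e := by
    have h5 : e + Real.exp (-((t : ℝ) / (4 * (m : ℝ) ^ 2 * (n : ℝ) ^ 2 * C))) ≤ 2 ^ 2 * e := by
      linarith
    calc _ ≤ Real.sqrt (2 ^ 2 * e) := Real.sqrt_le_sqrt h5
      _ = 2 * Real.sqrt e := by
        rw [Real.sqrt_mul (by norm_num), Real.sqrt_sq (by norm_num)]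
  calc (B / 2) * Real.sqrt (e + Real.exp (-((t : ℝ) / (4 * (m : ℝ) ^ 2 * (n : ℝ) ^ 2 * C))))
      ≤ (B / 2) * (2 * Real.sqrt e) := mul_le_mul_of_nonneg_left h4 (by positivity)
    _ = B * Real.sqrt e := by ring

/-- Triangle inequality for the distance to uniform, via the `ℓ¹` distance of two weight
functions on the tables. -/
theorem tvUnif_le_add (r : Fin m → ℕ) (c : Fin n → ℕ) (μ ν : Tb m (Fin n) → ℝ) :
    tvUnif r c μ ≤ tvUnif r c ν + (1 / 2) * ∑ y ∈ Tab r c, |μ y - ν y| := by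
  unfold tvUnif
  rw [← mul_add, ← sum_add_distrib]
  refine mul_le_mul_of_nonneg_left (sum_le_sum fun y _ => ?_) (by norm_num)
  have := abs_sub_le (μ y) (ν y) (1 / ((Tab r c).card : ℝ))
  linarith

end

end Vale.Agent.Lib.P328U
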