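import Vale.Agent.Lib.P328U.ColBal
import Vale.Agent.Lib.P328U.Mix

/-!
The annealed sampler for contingency tables: from the empty table, add one unit at a time at a cell
`(a, b)` with `a` the first nonzero row and `b` the first column of largest margin (taken in the
reverse order), and run `k` steps of the lazy Diaconis-Gangolli chain at each stage. The total
variation distance from the uniform law adds up over the stages.
-/

namespace Vale.Agent.Lib.P328U

open Finset Vale.Agent.Lib.P328 Vale.Agent.Lib.P328Q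

noncomputable section

variable {m n : ℕ}

/-! ### The lazy chain on a finite set -/

section Abstract

variable {α : Type*} {Ω : Finset α} {K : α → α → ℝ}

theorem flow_nonneg_all (hK0 : ∀ x y, 0 ≤ K x y) {μ : α → ℝ} (h0 : ∀ y, 0 ≤ μ y) (t : ℕ) (y : α) :
    0 ≤ flow Ω K μ t y := by
  induction t generalizing y with
  | zero => exact h0 y
  | succ t ih =>
    simp only [flow]
    exact sum_nonneg fun z _ => mul_nonneg (ih z) (hK0 z y)

theorem flow_support (hK : ∀ x ∈ Ω, ∀ y, y ∉ Ω → K x y = 0) {μ : α → ℝ} (h : ∀ y, y ∉ Ω → μ y = 0)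
    (t : ℕ) {y : α} (hy : y ∉ Ω) : flow Ω K μ t y = 0 := by
  cases t with
  | zero => exact h y hy
  | succ t =>
    simp only [flow]
    exact sum_eq_zero fun z hz => by rw [hK z hz y hy, mul_zero]

end Abstract

/-! ### The kernel on tables -/

theorem dgKernel_out {r : Fin m → ℕ} {c : Fin n → ℕ} {x y : Tb m (Fin n)} (hx : x ∈ Tab r c)
    (hy : y ∉ Tab r c) : dgKernel x y = 0 := by
  classical
  unfold dgKernel
  have hne : y ≠ x := fun h => hy (h ▸ hx)
  rw [if_neg hne]
  have : ∀ (i k : Fin m) (j l : Fin n), dgStep i k j l x ≠ y := fun i k j l h =>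
    hy (h ▸ mix_step_mem hx i k j l)
  simp [this]

/-! ### The margin schedule -/

/-- The first nonzero row. -/
def pickR [NeZero m] (r : Fin m → ℕ) : Fin m :=
  if h : (univ.filter fun i => r i ≠ 0).Nonempty then (univ.filter fun i => r i ≠ 0).min' h else 0

theorem pickR_pos [NeZero m] {r : Fin m → ℕ} (h : ∃ i, r i ≠ 0) : 1 ≤ r (pickR r) := by
  have hne : (univ.filter fun i => r i ≠ 0).Nonempty := by
    obtain ⟨i, hi⟩ := h
    exact ⟨i, mem_filter.2 ⟨mem_univ _, hi⟩⟩
  unfold pickR
  rw [dif_pos hne]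
  have := (mem_filter.1 (min'_mem _ hne)).2
  omega

/-- The first column of largest margin. -/
def pickC [NeZero n] (c : Fin n → ℕ) : Fin n :=
  if h : (univ.filter fun j => ∀ j', c j' ≤ c j).Nonempty then (univ.filter fun j => ∀ j', c j' ≤ c j).min' h
  else 0

theorem pickC_max [NeZero n] (c : Fin n → ℕ) (j : Fin n) : c j ≤ c (pickC c) := by
  have hne : (univ.filter fun j => ∀ j', c j' ≤ c j).Nonempty := by
    obtain ⟨i, _, hi⟩ := Finset.exists_max_image univ c ⟨0, mem_univ _⟩
    exact ⟨i, mem_filter.2 ⟨mem_univ _, fun j' => hi j' (mem_univ _)⟩⟩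
  unfold pickC
  rw [dif_pos hne]
  exact (mem_filter.1 (min'_mem _ hne)).2 j

theorem sum_decM {k : ℕ} (r : Fin k → ℕ) {a : Fin k} (h : 1 ≤ r a) : ∑ i, decM r a i + 1 = ∑ i, r i := by
  classical
  have e : ∀ i, r i = decM r a i + if i = a then 1 else 0 := by
    intro i
    unfold decM
    by_cases hi : i = a
    · subst hi; simp; omega
    · simp [hi]
  conv_rhs => rw [sum_congr rfl fun i _ => e i]
  rw [sum_add_distrib]
  simp

/-- Shift a law by the unit at `(a, b)`. -/
def shiftLaw (a : Fin m) (b : Fin n) (μ : Tb m (Fin n) → ℝ) : Tb m (Fin n) → ℝ := fun y =>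
  if 1 ≤ y a b then μ (subU a b y) else 0

/-- Sums over tables with a unit at the cell `(a, b)` as sums over near tables. -/
theorem sum_shift {r : Fin m → ℕ} {c : Fin n → ℕ} {a : Fin m} {b : Fin n} (hr : 1 ≤ r a) (hc : 1 ≤ c b)
    (φ : Tb m (Fin n) → ℝ) :
    ∑ y ∈ (Tab r c).filter (fun Y => 1 ≤ Y a b), φ (subU a b y) =
      ∑ x ∈ Tab (decM r a) (decM c b), φ x := by
  refine Finset.sum_bij' (fun X _ => subU a b X) (fun X _ => addU a b X) ?_ ?_ ?_ ?_ ?_
  · intro X hX
    rw [mem_filter] at hX
    exact subU_mem hX.1 hX.2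
  · intro X hX
    rw [mem_filter]
    refine ⟨addU_mem hr hc hX, ?_⟩
    simp [addU]
  · intro X hX
    rw [mem_filter] at hX
    exact addU_subU hX.2
  · intro X _
    exact subU_addU a b X
  · intro X _
    rfl

theorem sum_shiftLaw {r : Fin m → ℕ} {c : Fin n → ℕ} {a : Fin m} {b : Fin n} (hr : 1 ≤ r a) (hc : 1 ≤ c b)
    (μ : Tb m (Fin n) → ℝ) :
    ∑ y ∈ Tab r c, shiftLaw a b μ y = ∑ x ∈ Tab (decM r a) (decM c b), μ x := by
  rw [← sum_shift hr hc μ, sum_filter]
  rfl

theorem l1_shiftLaw {r : Fin m → ℕ} {c : Fin n → ℕ} {a : Fin m} {b : Fin n} (hr : 1 ≤ r a) (hc : 1 ≤ c b)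
    (μ ν : Tb m (Fin n) → ℝ) :
    ∑ y ∈ Tab r c, |shiftLaw a b μ y - shiftLaw a b ν y| =
      ∑ x ∈ Tab (decM r a) (decM c b), |μ x - ν x| := by
  rw [← sum_shift hr hc (fun x => |μ x - ν x|), sum_filter]
  refine sum_congr rfl fun y _ => ?_
  unfold shiftLaw
  split_ifs <;> simp

/-- Every pair of margins with the same total has a table. -/
theorem Tab_nonempty [NeZero m] [NeZero n] (N : ℕ) : ∀ (r : Fin m → ℕ) (c : Fin n → ℕ), ∑ i, r i = N → ∑ j, c j = N →
    (Tab r c).Nonempty := by
  induction N with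
  | zero =>
    intro r c hr hc
    refine ⟨fun _ _ => 0, ?_⟩
    rw [mem_Tab]
    refine ⟨fun i => ?_, fun j => ?_⟩
    · have := (sum_eq_zero_iff.1 hr) i (mem_univ _)
      simp [rowS, this]
    · have := (sum_eq_zero_iff.1 hc) j (mem_univ _)
      simp [colS, this]
  | succ N ih =>
    intro r c hr hc
    have h1 : ∃ i, r i ≠ 0 := by
      by_contra hcon
      have hcon : ∀ i, r i = 0 := fun i => not_ne_iff.1 fun h => hcon ⟨i, h⟩
      simp [hcon] at hr
    have h2 : ∃ j, c j ≠ 0 := by
      by_contra hcon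
      have hcon : ∀ i, c i = 0 := fun i => not_ne_iff.1 fun h => hcon ⟨i, h⟩
      simp [hcon] at hc
    have ha := pickR_pos h1
    have hb : 1 ≤ c (pickC c) := by
      obtain ⟨j, hj⟩ := h2
      have := pickC_max c j
      omega
    have h3 := sum_decM r ha
    have h4 := sum_decM c hb
    obtain ⟨X, hX⟩ := ih (decM r (pickR r)) (decM c (pickC c)) (by omega) (by omega)
    exact ⟨_, addU_mem ha hb hX⟩

open Classical in
/-- THE ANNEALED LAW: `anneal k N r c` is the law of the output of the sampler for the margins `(r, c)` of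
total `N`. For `N = 0` the output is the empty table. For `N + 1`: run the sampler for the margins with a unit
removed at the first nonzero row `a` and the first column `b` of largest margin, add the unit at `(a, b)`,
and run `k` steps of the lazy Diaconis-Gangolli chain. -/
def anneal [NeZero m] [NeZero n] (k : ℕ) : ℕ → (Fin m → ℕ) → (Fin n → ℕ) → Tb m (Fin n) → ℝ
  | 0, _, _ => fun y => if y = fun _ _ => 0 then 1 else 0
  | N + 1, r, c => flow (Tab r c) dgKernel
      (shiftLaw (pickR r) (pickC c) (anneal k N (decM r (pickR r)) (decM c (pickC c)))) k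

/-- The facts proved by induction along the schedule. -/
theorem anneal_spec [NeZero m] [NeZero n] {C δ : ℝ} (hC : 0 < C) (hδ : 0 ≤ δ) (Nmax : ℕ)
    (hP : ∀ (r : Fin m → ℕ) (c : Fin n → ℕ), ∑ i, r i = ∑ j, c j → ∑ i, r i ≤ Nmax →
      ∀ (g : Tb m (Fin n) → ℝ) (M : ℝ), 0 ≤ M → (∀ x ∈ Tab r c, g x ^ 2 ≤ M) →
      tabVar r c g ≤ C * tabDir r c g + δ * M) (k : ℕ) (N : ℕ) (hN : N ≤ Nmax) :
    ∀ (r : Fin m → ℕ) (c : Fin n → ℕ), ∑ i, r i = N → ∑ j, c j = N →
      (∀ y, 0 ≤ anneal k N r c y) ∧ (∀ y, y ∉ Tab r c → anneal k N r c y = 0) ∧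
      ∑ y ∈ Tab r c, anneal k N r c y = 1 ∧
      tvUnif r c (anneal k N r c) ≤ (N : ℝ) * (((n : ℝ) / 2) * Real.sqrt
        (δ + Real.exp (-((k : ℝ) / (4 * (m : ℝ) ^ 2 * (n : ℝ) ^ 2 * C))))) := by
  classical
  have hm : 1 ≤ m := Nat.one_le_iff_ne_zero.2 (NeZero.ne m)
  have hn : 1 ≤ n := Nat.one_le_iff_ne_zero.2 (NeZero.ne n)
  induction N with
  | zero =>
    intro r c hr hc
    have hr0 : ∀ i, r i = 0 := fun i => (sum_eq_zero_iff.1 hr) i (mem_univ _)
    have hc0 : ∀ j, c j = 0 := fun j => (sum_eq_zero_iff.1 hc) j (mem_univ _)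
    have hTab : Tab r c = {fun _ _ => 0} := by
      ext X
      rw [mem_Tab, mem_singleton]
      constructor
      · rintro ⟨h1, _⟩
        funext i j
        have h2 := h1 i
        rw [hr0 i] at h2
        exact (sum_eq_zero_iff.1 h2) j (mem_univ _)
      · rintro rfl
        exact ⟨fun i => by simp [rowS, hr0], fun j => by simp [colS, hc0]⟩
    refine ⟨fun y => ?_, fun y hy => ?_, ?_, ?_⟩
    · simp only [anneal]
      split_ifs <;> norm_num
    · simp only [anneal]
      rw [if_neg]
      rw [hTab, mem_singleton] at hy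
      exact hy
    · simp [hTab, anneal]
    · simp [tvUnif, hTab, anneal]
  | succ N ih =>
    intro r c hr hc
    have hN' : N ≤ Nmax := by omega
    have ih := ih hN'
    have h1 : ∃ i, r i ≠ 0 := by
      by_contra hcon
      have hcon : ∀ i, r i = 0 := fun i => not_ne_iff.1 fun h => hcon ⟨i, h⟩
      simp [hcon] at hr
    have h2 : ∃ j, c j ≠ 0 := by
      by_contra hcon
      have hcon : ∀ i, c i = 0 := fun i => not_ne_iff.1 fun h => hcon ⟨i, h⟩
      simp [hcon] at hc
    have ha := pickR_pos h1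
    have hcmax := pickC_max c
    have hb : 1 ≤ c (pickC c) := by
      obtain ⟨j, hj⟩ := h2
      have := hcmax j
      omega
    set a := pickR r with hadef
    set b := pickC c with hbdef
    have h3 := sum_decM r ha
    have h4 := sum_decM c hb
    obtain ⟨iha, ihb, ihc, ihd⟩ := ih (decM r a) (decM c b) (by omega) (by omega)
    set r' := decM r a with hr'
    set c' := decM c b with hc'
    set μp := anneal k N r' c' with hμp
    have hanneal : anneal k (N + 1) r c = flow (Tab r c) dgKernel (shiftLaw a b μp) k := by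
      simp only [anneal]
      rfl
    -- the nonempty sets and the uniform laws
    have hne : (Tab r c).Nonempty := Tab_nonempty (N + 1) r c hr hc
    have hne' : (Tab r' c').Nonempty := Tab_nonempty N r' c' (by omega) (by omega)
    have hcard : (0 : ℝ) < ((Tab r c).card : ℝ) := by exact_mod_cast card_pos.2 hne
    have hcard' : (0 : ℝ) < ((Tab r' c').card : ℝ) := by exact_mod_cast card_pos.2 hne'
    have hratio : ((Tab r c).card : ℝ) ≤ (n : ℝ) * ((Tab r' c').card : ℝ) := by
      have := card_Tab_le_mul (r := r) (c := c) (a := a) (b := b) ha hcmax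
      exact_mod_cast this
    have hnpos : (0 : ℝ) < n := by exact_mod_cast hn
    -- start law
    set μ0 := shiftLaw a b μp with hμ0
    set u' : Tb m (Fin n) → ℝ := fun _ => 1 / ((Tab r' c').card : ℝ) with hu'
    set ν := shiftLaw a b u' with hν
    have hμ0n : ∀ y, 0 ≤ μ0 y := by
      intro y
      simp only [hμ0, shiftLaw]
      split_ifs
      · exact iha _
      · exact le_rfl
    have hνn : ∀ y, 0 ≤ ν y := by
      intro y
      simp only [hν, shiftLaw, hu']
      split_ifs <;> positivity
    have hμ1 : ∑ y ∈ Tab r c, μ0 y = 1 := by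
      rw [hμ0, sum_shiftLaw ha hb]
      exact ihc
    have hν1 : ∑ y ∈ Tab r c, ν y = 1 := by
      rw [hν, sum_shiftLaw ha hb]
      simp only [hu', sum_const, nsmul_eq_mul]
      exact mul_one_div_cancel (ne_of_gt hcard')
    have hνB : ∀ y ∈ Tab r c, ν y ≤ (n : ℝ) / ((Tab r c).card : ℝ) := by
      intro y _
      have h5 : 1 / ((Tab r' c').card : ℝ) ≤ (n : ℝ) / ((Tab r c).card : ℝ) := by
        rw [div_le_div_iff₀ hcard' hcard]
        linarith
      simp only [hν, shiftLaw, hu']
      split_ifs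
      · exact h5
      · positivity
    have hK0 : ∀ x y : Tb m (Fin n), 0 ≤ dgKernel x y := dg_kernel_nonneg
    refine ⟨fun y => ?_, fun y hy => ?_, ?_, ?_⟩
    · rw [hanneal]
      exact flow_nonneg_all hK0 hμ0n k y
    · rw [hanneal]
      refine flow_support (fun x hx y hy => dgKernel_out hx hy) ?_ k hy
      intro y hy
      simp only [hμ0, shiftLaw]
      split_ifs with h6
      · refine ihb _ fun hmem => hy ?_
        have := addU_mem ha hb hmem
        rwa [addU_subU h6] at this
      · rfl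
    · rw [hanneal, dg_flow_mass hm hn]
      exact hμ1
    · rw [hanneal]
      -- triangle inequality
      have hW := hP r c (by rw [hr, hc]) (by rw [hr]; exact hN)
      have hwarm := dg_warm_tv (B := (n : ℝ)) hm hn hC hδ
        (fun g hg => hW g ((n : ℝ) ^ 2) (by positivity) hg) hne (fun x _ => hνn x) hν1
        (fun x hx => by
          have := hνB x hx
          rwa [le_div_iff₀ hcard, mul_comm] at this) k
      have hl1 := dg_flow_l1 (r := r) (c := c) hm hn μ0 ν k
      have hl2 : ∑ y ∈ Tab r c, |μ0 y - ν y| = 2 * tvUnif r' c' μp := by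
        rw [hμ0, hν, l1_shiftLaw ha hb]
        simp only [tvUnif, hu']
        ring
      have htri := tvUnif_le_add r c (flow (Tab r c) dgKernel μ0 k) (flow (Tab r c) dgKernel ν k)
      push_cast
      rw [add_mul, one_mul]
      rw [hl2] at hl1
      linarith

end

end Vale.Agent.Lib.P328U
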