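import Vale.Agent.Lib.P328U.FprasDefs

/-!
Chebyshev analysis of the product estimator.
-/

namespace Vale.Agent.Lib.P328U

open Finset

noncomputable section

variable {X : Type*}

section Block

variable {S : Finset X} {q : X → ℝ} {w : ℕ}

/-- Product formula on one block. -/
theorem block_prod (f : Fin w → X → ℝ) :
    ∑ x ∈ Fintype.piFinset (fun _ : Fin w => S), ∏ i, f i (x i) = ∏ i, ∑ y ∈ S, f i y :=
  (Finset.prod_univ_sum (fun _ : Fin w => S) f).symm

/-- The law of a block has total mass one. -/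
theorem block_mass (hq1 : ∑ y ∈ S, q y = 1) :
    ∑ x ∈ Fintype.piFinset (fun _ : Fin w => S), ∏ i, q (x i) = 1 := by
  rw [block_prod (fun _ y => q y)]
  simp [hq1]

theorem block_nonneg (hq0 : ∀ y ∈ S, 0 ≤ q y) {x : Fin w → X}
    (hx : x ∈ Fintype.piFinset (fun _ : Fin w => S)) : 0 ≤ ∏ i, q (x i) :=
  prod_nonneg fun i _ => hq0 _ (Fintype.mem_piFinset.1 hx i)

variable (A : X → Prop) [DecidablePred A]

/-- The indicator of `A`. -/
def indA (y : X) : ℝ := if A y then 1 else 0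

/-- The mass of `A`. -/
def massA (S : Finset X) (q : X → ℝ) : ℝ := ∑ y ∈ S, q y * indA A y

theorem massA_eq (S : Finset X) (q : X → ℝ) :
    massA A S q = ∑ y ∈ S.filter A, q y := by
  unfold massA indA
  rw [sum_filter]
  refine sum_congr rfl fun y _ => ?_
  split_ifs <;> simp

theorem hitCount_eq {w : ℕ} (x : Fin w → X) : (hitCount A x : ℝ) = ∑ i, indA A (x i) := by
  unfold hitCount indA
  rw [card_filter]
  push_cast
  rfl

theorem indA_sq (y : X) : indA A y * indA A y = indA A y := by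
  unfold indA
  split_ifs <;> simp

/-- One coordinate. -/
theorem block_one (hq1 : ∑ y ∈ S, q y = 1) (i₀ : Fin w) :
    ∑ x ∈ Fintype.piFinset (fun _ : Fin w => S), (∏ i, q (x i)) * indA A (x i₀) = massA A S q := by
  have e : ∀ x : Fin w → X, (∏ i, q (x i)) * indA A (x i₀) =
      ∏ i, (q (x i) * (if i = i₀ then indA A (x i) else 1)) := by
    intro x
    rw [prod_mul_distrib, prod_ite_eq' univ i₀]
    simp
  simp only [e]
  rw [block_prod (fun i y => q y * (if i = i₀ then indA A y else 1))]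
  rw [prod_eq_single i₀]
  · simp [massA]
  · intro b _ hb
    simp [hb, hq1]
  · simp

/-- Two distinct coordinates. -/
theorem block_two (hq1 : ∑ y ∈ S, q y = 1) {i₀ i₁ : Fin w} (hne : i₀ ≠ i₁) :
    ∑ x ∈ Fintype.piFinset (fun _ : Fin w => S),
      (∏ i, q (x i)) * (indA A (x i₀) * indA A (x i₁)) = massA A S q ^ 2 := by
  have e : ∀ x : Fin w → X, (∏ i, q (x i)) * (indA A (x i₀) * indA A (x i₁)) =
      ∏ i, (q (x i) * ((if i = i₀ then indA A (x i) else 1) * (if i = i₁ then indA A (x i) else 1))) := by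
    intro x
    rw [prod_mul_distrib, prod_mul_distrib, prod_ite_eq' univ i₀, prod_ite_eq' univ i₁]
    simp
  simp only [e]
  rw [block_prod (fun i y => q y * ((if i = i₀ then indA A y else 1) * (if i = i₁ then indA A y else 1)))]
  have hval : ∀ i, ∑ y ∈ S, q y * ((if i = i₀ then indA A y else 1) * (if i = i₁ then indA A y else 1))
      = (if i = i₀ then massA A S q else 1) * (if i = i₁ then massA A S q else 1) := by
    intro i
    by_cases h0 : i = i₀
    · have h1 : i ≠ i₁ := by rw [h0]; exact hne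
      simp [h0, hne, massA]
    · by_cases h1 : i = i₁
      · simp [h1, Ne.symm hne, massA]
      · simp [h0, h1, hq1]
  simp only [hval]
  rw [prod_mul_distrib, prod_ite_eq' univ i₀, prod_ite_eq' univ i₁]
  simp [sq]

/-- The mean of the hit count. -/
theorem block_mean (hq1 : ∑ y ∈ S, q y = 1) :
    ∑ x ∈ Fintype.piFinset (fun _ : Fin w => S), (∏ i, q (x i)) * (hitCount A x : ℝ) =
      (w : ℝ) * massA A S q := by
  simp only [hitCount_eq, mul_sum]
  rw [sum_comm]
  simp only [block_one A hq1]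
  simp

/-- The second moment of the hit count. -/
theorem block_second (hq1 : ∑ y ∈ S, q y = 1) :
    ∑ x ∈ Fintype.piFinset (fun _ : Fin w => S), (∏ i, q (x i)) * (hitCount A x : ℝ) ^ 2 =
      (w : ℝ) * massA A S q + ((w : ℝ) ^ 2 - w) * massA A S q ^ 2 := by
  have e : ∀ x : Fin w → X, (∏ i, q (x i)) * (hitCount A x : ℝ) ^ 2 =
      ∑ i₀, ∑ i₁, (∏ i, q (x i)) * (indA A (x i₀) * indA A (x i₁)) := by
    intro x
    rw [hitCount_eq, sq, sum_mul_sum, mul_sum]
    refine sum_congr rfl fun i₀ _ => ?_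
    rw [mul_sum]
  simp only [e]
  rw [sum_comm]
  have e2 : ∀ i₀ : Fin w, ∑ x ∈ Fintype.piFinset (fun _ : Fin w => S), ∑ i₁,
      (∏ i, q (x i)) * (indA A (x i₀) * indA A (x i₁)) =
      massA A S q + ((w : ℝ) - 1) * massA A S q ^ 2 := by
    intro i₀
    rw [sum_comm]
    have e3 : ∀ i₁ : Fin w, ∑ x ∈ Fintype.piFinset (fun _ : Fin w => S),
        (∏ i, q (x i)) * (indA A (x i₀) * indA A (x i₁)) =
        if i₁ = i₀ then massA A S q else massA A S q ^ 2 := by
      intro i₁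
      by_cases h : i₁ = i₀
      · rw [if_pos h, h]
        simp only [indA_sq]
        exact block_one A hq1 i₀
      · rw [if_neg h]
        exact block_two A hq1 (Ne.symm h)
    simp only [e3]
    rw [← sum_erase_add univ _ (mem_univ i₀)]
    simp only [if_true]
    have e4 : ∑ x ∈ univ.erase i₀, (if x = i₀ then massA A S q else massA A S q ^ 2) =
        ((w : ℝ) - 1) * massA A S q ^ 2 := by
      rw [sum_congr rfl (g := fun _ => massA A S q ^ 2)]
      · simp only [sum_const, card_erase_of_mem (mem_univ i₀), card_univ, Fintype.card_fin,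
          nsmul_eq_mul]
        have hw : 1 ≤ w := by
          have := i₀.2
          omega
        rw [Nat.cast_sub hw]
        simp
      · intro x hx
        rw [if_neg (ne_of_mem_erase hx)]
    rw [e4]
    ring
  simp only [e2]
  simp
  ring

end Block

section Draws

variable {N w : ℕ} {S : Fin N → Finset X} {q : Fin N → X → ℝ}

/-- Product formula over the stages. -/
theorem draw_prod (φ : Fin N → (Fin w → X) → ℝ) :
    ∑ ω ∈ drawSpace S w, drawWeight q ω * ∏ j, φ j (ω j) =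
      ∏ j, ∑ x ∈ Fintype.piFinset (fun _ : Fin w => S j), (∏ i, q j (x i)) * φ j x := by
  rw [Finset.prod_univ_sum]
  refine sum_congr rfl fun ω _ => ?_
  rw [prod_mul_distrib]
  rfl

theorem draw_nonneg (hq0 : ∀ j, ∀ y ∈ S j, 0 ≤ q j y) {ω : Fin N → Fin w → X}
    (hω : ω ∈ drawSpace S w) : 0 ≤ drawWeight q ω := by
  refine prod_nonneg fun j _ => ?_
  exact block_nonneg (hq0 j) (Fintype.mem_piFinset.1 hω j)

theorem draw_mass (hq1 : ∀ j, ∑ y ∈ S j, q j y = 1) :
    ∑ ω ∈ drawSpace S w, drawWeight q ω = 1 := by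
  have := draw_prod (S := S) (q := q) (w := w) (fun _ _ => 1)
  simp only [prod_const_one, mul_one] at this
  rw [this]
  simp only [block_mass (hq1 _), prod_const_one]

/-- Chebyshev's inequality in the form of a weighted sum. -/
theorem draw_chebyshev (hq0 : ∀ j, ∀ y ∈ S j, 0 ≤ q j y) (F : (Fin N → Fin w → X) → ℝ) {μ η : ℝ}
    (hη : 0 < η) :
    (∑ ω ∈ drawSpace S w, if η < |F ω - μ| then drawWeight q ω else 0) * η ^ 2 ≤
      ∑ ω ∈ drawSpace S w, drawWeight q ω * (F ω - μ) ^ 2 := by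
  rw [sum_mul]
  refine sum_le_sum fun ω hω => ?_
  have h0 := draw_nonneg hq0 hω
  split_ifs with h
  · refine mul_le_mul_of_nonneg_left ?_ h0
    have := abs_nonneg (F ω - μ)
    rw [← sq_abs (F ω - μ)]
    exact pow_le_pow_left₀ hη.le h.le 2
  · rw [zero_mul]
    positivity

end Draws

section Main

variable {N w : ℕ} {S : Fin N → Finset X} {q : Fin N → X → ℝ}
  (A : Fin N → X → Prop) [∀ j, DecidablePred (A j)]

/-- The product of the fractions. -/
def eHat (ω : Fin N → Fin w → X) : ℝ := ∏ j, (hitCount (A j) (ω j) : ℝ) / (w : ℝ)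

theorem zHat_eq (ω : Fin N → Fin w → X) : zHat A ω = (eHat A ω)⁻¹ := by
  unfold zHat eHat
  rw [← prod_inv_distrib]
  refine prod_congr rfl fun j _ => ?_
  rw [inv_div]

/-- The masses at all stages. -/
def massAll (S : Fin N → Finset X) (q : Fin N → X → ℝ) (j : Fin N) : ℝ := massA (A j) (S j) (q j)

/-- Mean of the product of the fractions. -/
theorem eHat_mean (hw : 0 < w) (hq1 : ∀ j, ∑ y ∈ S j, q j y = 1) :
    ∑ ω ∈ drawSpace S w, drawWeight q ω * eHat A ω = ∏ j, massAll A S q j := by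
  have hw' : (w : ℝ) ≠ 0 := by exact_mod_cast hw.ne'
  unfold eHat
  rw [draw_prod (fun j x => (hitCount (A j) x : ℝ) / (w : ℝ))]
  refine prod_congr rfl fun j _ => ?_
  have := block_mean (A j) (hq1 j) (w := w)
  have e : ∀ x : Fin w → X, (∏ i, q j (x i)) * ((hitCount (A j) x : ℝ) / (w : ℝ)) =
      ((∏ i, q j (x i)) * (hitCount (A j) x : ℝ)) / (w : ℝ) := fun x => by ring
  simp only [e]
  rw [← sum_div, this]
  unfold massAll
  field_simp

/-- Second moment of the product of the fractions. -/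
theorem eHat_second (hw : 0 < w) (hq1 : ∀ j, ∑ y ∈ S j, q j y = 1) :
    ∑ ω ∈ drawSpace S w, drawWeight q ω * eHat A ω ^ 2 =
      ∏ j, (massAll A S q j ^ 2 + massAll A S q j * (1 - massAll A S q j) / (w : ℝ)) := by
  have hw' : (w : ℝ) ≠ 0 := by exact_mod_cast hw.ne'
  have e0 : ∀ ω : Fin N → Fin w → X, eHat A ω ^ 2 = ∏ j, ((hitCount (A j) (ω j) : ℝ) / (w : ℝ)) ^ 2 := by
    intro ω
    unfold eHat
    rw [prod_pow]
  simp only [e0]
  rw [draw_prod (fun j x => ((hitCount (A j) x : ℝ) / (w : ℝ)) ^ 2)]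
  refine prod_congr rfl fun j _ => ?_
  have := block_second (A j) (hq1 j) (w := w)
  have e : ∀ x : Fin w → X, (∏ i, q j (x i)) * ((hitCount (A j) x : ℝ) / (w : ℝ)) ^ 2 =
      ((∏ i, q j (x i)) * (hitCount (A j) x : ℝ) ^ 2) / (w : ℝ) ^ 2 := fun x => by
    rw [div_pow]
    ring
  simp only [e]
  rw [← sum_div, this]
  unfold massAll
  field_simp
  ring

end Main

/-- Elementary bound on `exp`. -/
theorem exp_le_one_add_two_mul {y : ℝ} (h0 : 0 ≤ y) (h1 : y ≤ 1 / 2) : Real.exp y ≤ 1 + 2 * y := by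
  have h2 : 1 - y ≤ Real.exp (-y) := by
    have := Real.add_one_le_exp (-y)
    linarith
  have h3 : Real.exp y * Real.exp (-y) = 1 := by
    rw [← Real.exp_add]
    simp
  have h4 : 0 < 1 - y := by linarith
  have h5 : Real.exp y * (1 - y) ≤ 1 := by
    calc Real.exp y * (1 - y) ≤ Real.exp y * Real.exp (-y) :=
          mul_le_mul_of_nonneg_left h2 (Real.exp_pos _).le
      _ = 1 := h3
  have h6 : 1 ≤ (1 + 2 * y) * (1 - y) := by nlinarith
  have h7 : Real.exp y * (1 - y) ≤ (1 + 2 * y) * (1 - y) := le_trans h5 h6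
  exact le_of_mul_le_mul_right h7 h4

/-- Products of close numbers are close. -/
theorem prod_close {N : ℕ} {a p : Fin N → ℝ} {x ε : ℝ} (hx0 : 0 < x) (hNx : (N : ℝ) * x ≤ ε / 8)
    (hx8 : x ≤ 1 / 8) (hε1 : ε < 1) (hppos : ∀ j, 0 < p j) (hapos : ∀ j, 0 < a j)
    (halow : ∀ j, (1 - x) * p j ≤ a j) (hahigh : ∀ j, a j ≤ (1 + x) * p j) :
    (1 - ε / 8) * ∏ j, p j ≤ ∏ j, a j ∧ ∏ j, a j ≤ (1 + ε / 4) * ∏ j, p j := by
  have hPpos : 0 < ∏ j, p j := prod_pos fun j _ => hppos j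
  constructor
  · have h1 : (1 - x) ^ N * ∏ j, p j ≤ ∏ j, a j := by
      have h2 : (1 - x) ^ N * ∏ j, p j = ∏ j, ((1 - x) * p j) := by
        rw [prod_mul_distrib]
        simp
      rw [h2]
      exact prod_le_prod (fun j _ => mul_nonneg (by linarith) (hppos j).le) fun j _ => halow j
    have h3 : 1 + (N : ℝ) * (-x) ≤ (1 + -x) ^ N := one_add_mul_le_pow (by linarith) N
    have h4 : 1 - ε / 8 ≤ (1 - x) ^ N := by
      have e : (1 + -x) = 1 - x := by ring
      rw [e] at h3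
      nlinarith
    exact le_trans (mul_le_mul_of_nonneg_right h4 hPpos.le) h1
  · have h1 : ∏ j, a j ≤ (1 + x) ^ N * ∏ j, p j := by
      have h2 : (1 + x) ^ N * ∏ j, p j = ∏ j, ((1 + x) * p j) := by
        rw [prod_mul_distrib]
        simp
      rw [h2]
      exact prod_le_prod (fun j _ => (hapos j).le) fun j _ => hahigh j
    have h3 : (1 + x) ^ N ≤ 1 + ε / 4 := by
      have h4 : 1 + x ≤ Real.exp x := by
        have := Real.add_one_le_exp x
        linarith
      have h5 : (1 + x) ^ N ≤ Real.exp x ^ N := pow_le_pow_left₀ (by linarith) h4 N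
      have h6 : Real.exp x ^ N = Real.exp ((N : ℝ) * x) := by
        rw [← Real.exp_nat_mul]
      have h7 : Real.exp ((N : ℝ) * x) ≤ 1 + 2 * ((N : ℝ) * x) :=
        exp_le_one_add_two_mul (by positivity) (by linarith)
      rw [h6] at h5
      linarith
    exact le_trans h1 (mul_le_mul_of_nonneg_right h3 hPpos.le)

/-- The estimate is good when the product of the fractions is close to its mean. -/
theorem good_of_close {E M P ε : ℝ} (hε0 : 0 < ε) (hε1 : ε < 1) (hP : 0 < P) (hM : 0 < M)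
    (hMlow : (1 - ε / 8) * P ≤ M) (hMhigh : M ≤ (1 + ε / 4) * P)
    (hE1 : E ≤ (1 + ε / 4) * M) (hE2 : (1 - ε / 4) * M ≤ E) :
    (1 - ε) * P⁻¹ ≤ E⁻¹ ∧ E⁻¹ ≤ (1 + ε) * P⁻¹ := by
  have hEpos : 0 < E := lt_of_lt_of_le (mul_pos (by linarith) hM) hE2
  constructor
  · have h3 : (1 - ε) * E ≤ P := by
      have h4 : E ≤ (1 + ε / 4) * ((1 + ε / 4) * P) :=
        le_trans hE1 (mul_le_mul_of_nonneg_left hMhigh (by linarith))
      have h5 : (1 - ε) * E ≤ (1 - ε) * ((1 + ε / 4) * ((1 + ε / 4) * P)) :=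
        mul_le_mul_of_nonneg_left h4 (by linarith)
      have h6 : (1 - ε) * ((1 + ε / 4) * (1 + ε / 4)) ≤ 1 := by
        nlinarith [mul_pos hε0 hε0, mul_pos (mul_pos hε0 hε0) hε0]
      nlinarith
    rw [inv_eq_one_div, inv_eq_one_div, mul_one_div, div_le_div_iff₀ hP hEpos]
    linarith
  · have h3 : P ≤ (1 + ε) * E := by
      have h4 : (1 - ε / 4) * ((1 - ε / 8) * P) ≤ E :=
        le_trans (mul_le_mul_of_nonneg_left hMlow (by linarith)) hE2
      have h5 : (1 + ε) * ((1 - ε / 4) * ((1 - ε / 8) * P)) ≤ (1 + ε) * E :=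
        mul_le_mul_of_nonneg_left h4 (by linarith)
      have h6 : 1 ≤ (1 + ε) * ((1 - ε / 4) * (1 - ε / 8)) := by
        nlinarith [mul_pos hε0 hε0, mul_pos (mul_pos hε0 hε0) hε0]
      nlinarith
    rw [inv_eq_one_div, inv_eq_one_div, mul_one_div, div_le_div_iff₀ hEpos hP]
    linarith

/-- One factor of the second moment. -/
theorem factor_second {a n w : ℝ} (hw : 0 < w) (hn : 0 < n) (ha : 1 / (2 * n) ≤ a) :
    a ^ 2 + a * (1 - a) / w ≤ a ^ 2 * (1 + 2 * n / w) := by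
  have h1 : 0 < a := lt_of_lt_of_le (by positivity) ha
  have h2 : 1 ≤ a * (2 * n) := by
    rw [div_le_iff₀ (by positivity)] at ha
    linarith
  have h3 : a * (1 - a) / w ≤ a ^ 2 * (2 * n / w) := by
    rw [div_le_iff₀ hw]
    have e : a ^ 2 * (2 * n / w) * w = a ^ 2 * (2 * n) := by
      field_simp
    rw [e]
    nlinarith
  nlinarith

/-- Chebyshev for the product of the fractions. -/
theorem eHat_bad {N w : ℕ} {S : Fin N → Finset X} {q : Fin N → X → ℝ}
    (A : Fin N → X → Prop) [∀ j, DecidablePred (A j)]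
    (hq0 : ∀ j, ∀ y ∈ S j, 0 ≤ q j y) (hq1 : ∀ j, ∑ y ∈ S j, q j y = 1)
    {n ε δ : ℝ} (hn : 1 ≤ n) (hε0 : 0 < ε) (hε1 : ε < 1) (hδ0 : 0 < δ) (hδ1 : δ < 1)
    (hapos : ∀ j, 1 / (2 * n) ≤ massAll A S q j)
    (hw0 : 0 < w) (hw : 64 * n * (N : ℝ) / (ε ^ 2 * δ) ≤ w) :
    (∑ ω ∈ drawSpace S w, if ε / 4 * (∏ j, massAll A S q j) < |eHat A ω - ∏ j, massAll A S q j| then
      drawWeight q ω else 0) ≤ δ := by
  have hnpos : 0 < n := by linarith
  have hwpos : (0 : ℝ) < w := by exact_mod_cast hw0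
  set a : Fin N → ℝ := massAll A S q with ha
  have haeq : ∀ j, a j = ∑ y ∈ (S j).filter (A j), q j y := fun j => massA_eq (A j) (S j) (q j)
  have hapos' : ∀ j, 0 < a j := fun j => lt_of_lt_of_le (by positivity) (hapos j)
  set M : ℝ := ∏ j, a j with hM
  have hMpos : 0 < M := prod_pos fun j _ => hapos' j
  have hmean := eHat_mean (S := S) (q := q) A hw0 hq1
  have hsecond := eHat_second (S := S) (q := q) A hw0 hq1
  have hmass := draw_mass (S := S) (q := q) (w := w) hq1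
  set κ : ℝ := 2 * n / (w : ℝ) with hκ
  have hκ0 : 0 < κ := by positivity
  have hsecond' : ∑ ω ∈ drawSpace S w, drawWeight q ω * eHat A ω ^ 2 ≤ M ^ 2 * (1 + κ) ^ N := by
    rw [hsecond]
    have e : M ^ 2 * (1 + κ) ^ N = ∏ j, (a j ^ 2 * (1 + κ)) := by
      rw [prod_mul_distrib, hM, ← prod_pow]
      simp
    rw [e]
    refine prod_le_prod (fun j _ => ?_) fun j _ => factor_second hwpos hnpos (hapos j)
    have h1 := hapos' j
    have h2 : a j ≤ 1 := by
      rw [haeq j]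
      rw [← hq1 j]
      exact sum_le_sum_of_subset_of_nonneg (filter_subset _ _) fun y hy _ => hq0 j y hy
    have h3 : 0 ≤ a j * (1 - a j) / (w : ℝ) :=
      div_nonneg (mul_nonneg h1.le (by linarith)) hwpos.le
    positivity
  have hδ2 : 0 < ε ^ 2 * δ := by positivity
  have hwbig : 64 * n * (N : ℝ) ≤ w * (ε ^ 2 * δ) := by
    rwa [div_le_iff₀ hδ2] at hw
  have hNκ : (N : ℝ) * κ ≤ 1 / 32 := by
    rw [hκ, show (N : ℝ) * (2 * n / (w : ℝ)) = (2 * n * (N : ℝ)) / (w : ℝ) by ring,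
      div_le_iff₀ hwpos]
    have h1 : ε ^ 2 * δ ≤ 1 := by
      have h2 : ε ^ 2 ≤ 1 := by nlinarith
      nlinarith [sq_nonneg ε]
    nlinarith
  have hpow : (1 + κ) ^ N ≤ 1 + 2 * ((N : ℝ) * κ) := by
    have h4 : 1 + κ ≤ Real.exp κ := by
      have := Real.add_one_le_exp κ
      linarith
    have h5 : (1 + κ) ^ N ≤ Real.exp κ ^ N := pow_le_pow_left₀ (by linarith) h4 N
    have h6 : Real.exp κ ^ N = Real.exp ((N : ℝ) * κ) := by
      rw [← Real.exp_nat_mul]
    rw [h6] at h5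
    exact le_trans h5 (exp_le_one_add_two_mul (by positivity) (by linarith))
  set η : ℝ := ε / 4 * M with hη
  have hηpos : 0 < η := by positivity
  have hvar : ∑ ω ∈ drawSpace S w, drawWeight q ω * (eHat A ω - M) ^ 2 ≤
      M ^ 2 * (2 * ((N : ℝ) * κ)) := by
    have e : ∀ ω : Fin N → Fin w → X, drawWeight q ω * (eHat A ω - M) ^ 2 =
        drawWeight q ω * eHat A ω ^ 2 - 2 * M * (drawWeight q ω * eHat A ω) +
          M ^ 2 * drawWeight q ω := by
      intro ω
      ring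
    simp only [e, sum_add_distrib, sum_sub_distrib, ← mul_sum]
    rw [hmean, hmass]
    have h1 : M ^ 2 * (1 + κ) ^ N ≤ M ^ 2 * (1 + 2 * ((N : ℝ) * κ)) :=
      mul_le_mul_of_nonneg_left hpow (by positivity)
    change ∑ ω ∈ drawSpace S w, drawWeight q ω * eHat A ω ^ 2 - 2 * M * M + M ^ 2 * 1 ≤ _
    nlinarith
  have hcheb := draw_chebyshev (S := S) (q := q) (w := w) hq0 (eHat A) (μ := M) hηpos
  have h1 := le_trans hcheb hvar
  have h2 : η ^ 2 = ε ^ 2 / 16 * M ^ 2 := by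
    rw [hη]
    ring
  rw [h2] at h1
  have hM2 : 0 < M ^ 2 := by positivity
  set B := ∑ ω ∈ drawSpace S w, if η < |eHat A ω - M| then drawWeight q ω else 0 with hB
  have h3 : B * (ε ^ 2 / 16) ≤ 2 * ((N : ℝ) * κ) := by
    have : B * (ε ^ 2 / 16) * M ^ 2 ≤ 2 * ((N : ℝ) * κ) * M ^ 2 := by
      linarith
    exact le_of_mul_le_mul_right this hM2
  have h4 : 2 * ((N : ℝ) * κ) ≤ δ * (ε ^ 2 / 16) := by
    rw [hκ, show 2 * ((N : ℝ) * (2 * n / (w : ℝ))) = (4 * n * (N : ℝ)) / (w : ℝ) by ring,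
      div_le_iff₀ hwpos]
    nlinarith
  have h5 : 0 < ε ^ 2 / 16 := by positivity
  exact le_of_mul_le_mul_right (le_trans h3 h4) h5

/-- The main estimate for the product estimator. -/
theorem fpras_core {N w : ℕ} {S : Fin N → Finset X} {q : Fin N → X → ℝ}
    (A : Fin N → X → Prop) [∀ j, DecidablePred (A j)]
    (hq0 : ∀ j, ∀ y ∈ S j, 0 ≤ q j y) (hq1 : ∀ j, ∑ y ∈ S j, q j y = 1)
    (p : Fin N → ℝ) {n ε δ : ℝ} (hn : 1 ≤ n) (hp : ∀ j, 1 / n ≤ p j)
    (hε0 : 0 < ε) (hε1 : ε < 1) (hδ0 : 0 < δ) (hδ1 : δ < 1)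
    (hclose : ∀ j, |∑ y ∈ (S j).filter (A j), q j y - p j| ≤ ε / (8 * n * ((N : ℝ) + 1)))
    (hw0 : 0 < w) (hw : 64 * n * (N : ℝ) / (ε ^ 2 * δ) ≤ w) :
    1 - δ ≤ ∑ ω ∈ drawSpace S w,
      if (1 - ε) * ∏ j, (p j)⁻¹ ≤ zHat A ω ∧ zHat A ω ≤ (1 + ε) * ∏ j, (p j)⁻¹ then
        drawWeight q ω else 0 := by
  have hnpos : 0 < n := by linarith
  have hN1 : (0 : ℝ) < (N : ℝ) + 1 := by positivity
  set a : Fin N → ℝ := massAll A S q with ha
  have haeq : ∀ j, a j = ∑ y ∈ (S j).filter (A j), q j y := fun j => massA_eq (A j) (S j) (q j)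
  set x : ℝ := ε / (8 * ((N : ℝ) + 1)) with hx
  have hx0 : 0 < x := by positivity
  have hNx : (N : ℝ) * x ≤ ε / 8 := by
    rw [hx]
    have : (N : ℝ) * (ε / (8 * ((N : ℝ) + 1))) = (ε / 8) * ((N : ℝ) / ((N : ℝ) + 1)) := by
      field_simp
    rw [this]
    have h2 : (N : ℝ) / ((N : ℝ) + 1) ≤ 1 := by
      rw [div_le_one hN1]
      linarith
    have h3 : 0 < ε / 8 := by positivity
    nlinarith
  have hx8 : x ≤ 1 / 8 := by
    rw [hx, div_le_iff₀ (by positivity)]
    nlinarith [show (0 : ℝ) ≤ (N : ℝ) from Nat.cast_nonneg N]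
  have hppos : ∀ j, 0 < p j := fun j => lt_of_lt_of_le (by positivity) (hp j)
  have hclose' : ∀ j, |a j - p j| ≤ x * p j := by
    intro j
    rw [haeq j]
    refine le_trans (hclose j) ?_
    have h1 : ε / (8 * n * ((N : ℝ) + 1)) = x * (1 / n) := by
      rw [hx]
      field_simp
    rw [h1]
    exact mul_le_mul_of_nonneg_left (hp j) hx0.le
  have halow : ∀ j, (1 - x) * p j ≤ a j := by
    intro j
    have := (abs_le.1 (hclose' j)).1
    nlinarith
  have hahigh : ∀ j, a j ≤ (1 + x) * p j := by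
    intro j
    have := (abs_le.1 (hclose' j)).2
    nlinarith
  have hapos : ∀ j, 1 / (2 * n) ≤ a j := by
    intro j
    have h1 := halow j
    have h2 := hp j
    have h3 : 1 / (2 * n) = (1 / 2) * (1 / n) := by
      field_simp
    rw [h3]
    have h4 : 0 < 1 / n := by positivity
    nlinarith
  have hapos' : ∀ j, 0 < a j := fun j => lt_of_lt_of_le (by positivity) (hapos j)
  obtain ⟨hMlow, hMhigh⟩ := prod_close hx0 hNx hx8 hε1 hppos hapos' halow hahigh
  have hbad := eHat_bad (S := S) (q := q) A hq0 hq1 hn hε0 hε1 hδ0 hδ1 hapos hw0 hw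
  have hmass := draw_mass (S := S) (q := q) (w := w) hq1
  set P : ℝ := ∏ j, p j with hP
  set M : ℝ := ∏ j, a j with hM
  have hPpos : 0 < P := prod_pos fun j _ => hppos j
  have hMpos : 0 < M := prod_pos fun j _ => hapos' j
  have hgood : ∀ ω : Fin N → Fin w → X, ¬ ε / 4 * M < |eHat A ω - M| →
      (1 - ε) * ∏ j, (p j)⁻¹ ≤ zHat A ω ∧ zHat A ω ≤ (1 + ε) * ∏ j, (p j)⁻¹ := by
    intro ω hω
    have hω' := abs_le.1 (not_lt.1 hω)
    have hprod : ∏ j, (p j)⁻¹ = P⁻¹ := by
      rw [prod_inv_distrib]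
    rw [zHat_eq A ω, hprod]
    refine good_of_close hε0 hε1 hPpos hMpos hMlow hMhigh ?_ ?_
    · linarith [hω'.2]
    · linarith [hω'.1]
  have hsplit : ∑ ω ∈ drawSpace S w, drawWeight q ω ≤ (∑ ω ∈ drawSpace S w,
      if (1 - ε) * ∏ j, (p j)⁻¹ ≤ zHat A ω ∧ zHat A ω ≤ (1 + ε) * ∏ j, (p j)⁻¹ then
        drawWeight q ω else 0) +
      ∑ ω ∈ drawSpace S w, if ε / 4 * M < |eHat A ω - M| then drawWeight q ω else 0 := by
    rw [← sum_add_distrib]
    refine sum_le_sum fun ω hω => ?_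
    have h0 := draw_nonneg hq0 hω
    by_cases hb : ε / 4 * M < |eHat A ω - M|
    · rw [if_pos hb]
      split_ifs <;> linarith
    · rw [if_neg hb, if_pos (hgood ω hb)]
      linarith
  rw [hmass] at hsplit
  linarith

/-- The mass of an event under two laws on the same set, with the `ℓ¹` distance. -/
theorem mass_close {S : Finset X} (A : X → Prop) [DecidablePred A] {q u : X → ℝ}
    (hq : ∑ y ∈ S, q y = 1) (hu : ∑ y ∈ S, u y = 1) :
    |∑ y ∈ S.filter A, q y - ∑ y ∈ S.filter A, u y| ≤ (1 / 2) * ∑ y ∈ S, |q y - u y| := by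
  have e0 : ∑ y ∈ S, (q y - u y) = 0 := by
    rw [sum_sub_distrib, hq, hu, sub_self]
  have e1 := sum_filter_add_sum_filter_not S A (fun y => q y - u y)
  rw [e0] at e1
  have e2 := sum_filter_add_sum_filter_not S A (fun y => |q y - u y|)
  have h1 : |∑ y ∈ S.filter A, (q y - u y)| ≤ ∑ y ∈ S.filter A, |q y - u y| :=
    abs_sum_le_sum_abs _ _
  have h2 : |∑ y ∈ S.filter (fun y => ¬ A y), (q y - u y)| ≤
      ∑ y ∈ S.filter (fun y => ¬ A y), |q y - u y| := abs_sum_le_sum_abs _ _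
  have e3 : ∑ y ∈ S.filter (fun y => ¬ A y), (q y - u y) = -∑ y ∈ S.filter A, (q y - u y) := by
    linarith
  rw [e3, abs_neg] at h2
  rw [← sum_sub_distrib]
  linarith

end

end Vale.Agent.Lib.P328U
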