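import Vale.Agent.Lib.P328U.FprasMedianDefs

/-!
The median trick: the median of independent repetitions of an estimate is in a given interval, except
with probability exponentially small in the number of repetitions, if one repetition misses the
interval with probability at most `1 / 8`.
-/

namespace Vale.Agent.Lib.P328U

open Finset

noncomputable section

/-- If more than half of the values lie in `[L, U]`, then so does the median. -/
theorem medianOf_mem {T : ℕ} {v : Fin T → ℝ} {L U : ℝ}
    (h : T < 2 * (univ.filter fun i => L ≤ v i ∧ v i ≤ U).card) :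
    L ≤ medianOf v ∧ medianOf v ≤ U := by
  classical
  set G := univ.filter fun i => L ≤ v i ∧ v i ≤ U with hG
  have hGne : G.Nonempty := by
    rw [← card_pos]
    omega
  obtain ⟨i₀, hi₀, hmax⟩ := exists_max_image G v hGne
  have hi₀' := (mem_filter.1 hi₀).2
  set X : Set ℝ := {x | ∃ i, x = v i ∧ T < 2 * (univ.filter fun i' => v i' ≤ v i).card} with hX
  have hmem : v i₀ ∈ X := by
    refine ⟨i₀, rfl, lt_of_lt_of_le h ?_⟩
    refine Nat.mul_le_mul_left 2 (card_le_card ?_)
    intro i hi
    exact mem_filter.2 ⟨mem_univ _, hmax i hi⟩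
  have hfin : X.Finite := by
    refine (Set.finite_range v).subset ?_
    rintro x ⟨i, rfl, _⟩
    exact ⟨i, rfl⟩
  constructor
  · unfold medianOf
    refine le_csInf ⟨_, hmem⟩ ?_
    rintro x ⟨i, rfl, hi⟩
    by_contra hlt
    have hlt : v i < L := not_le.1 hlt
    have hdisj : Disjoint (univ.filter fun i' => v i' ≤ v i) G := by
      rw [disjoint_left]
      intro i' h1 h2
      have h3 := (mem_filter.1 h1).2
      have h4 := (mem_filter.1 h2).2.1
      linarith
    have hcard : (univ.filter fun i' => v i' ≤ v i).card + G.card ≤ T := by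
      rw [← card_union_of_disjoint hdisj]
      calc _ ≤ (univ : Finset (Fin T)).card := card_le_card (subset_univ _)
        _ = T := by simp
    omega
  · unfold medianOf
    exact le_trans (csInf_le hfin.bddBelow hmem) hi₀'.2

/-- The median trick on a finite sample space, in the form of weighted sums. -/
theorem median_boost {Y : Type*} {S : Finset Y} {W : Y → ℝ} (hW0 : ∀ y ∈ S, 0 ≤ W y)
    (hW1 : ∑ y ∈ S, W y = 1) (est : Y → ℝ) {L U : ℝ}
    (hbad : (∑ y ∈ S, if L ≤ est y ∧ est y ≤ U then 0 else W y) ≤ 1 / 8) (T : ℕ) :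
    1 - (2 / 3 : ℝ) ^ T ≤ ∑ ω ∈ Fintype.piFinset (fun _ : Fin T => S),
      if L ≤ medianOf (fun t => est (ω t)) ∧ medianOf (fun t => est (ω t)) ≤ U then
        ∏ t, W (ω t) else 0 := by
  classical
  -- the weight of a repetition pattern
  set b : Y → ℝ := fun y => if L ≤ est y ∧ est y ≤ U then 1 else 9 with hb
  have hmass : ∑ ω ∈ Fintype.piFinset (fun _ : Fin T => S), ∏ t, W (ω t) = 1 := by
    rw [← Finset.prod_univ_sum]
    simp [hW1]
  have hbexp : ∑ y ∈ S, W y * b y ≤ 2 := by
    have e : ∀ y, W y * b y = W y + 8 * (if L ≤ est y ∧ est y ≤ U then 0 else W y) := by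
      intro y
      simp only [hb]
      split_ifs <;> ring
    simp only [e, sum_add_distrib, ← mul_sum]
    rw [hW1]
    linarith
  have hprod : ∑ ω ∈ Fintype.piFinset (fun _ : Fin T => S), ∏ t, (W (ω t) * b (ω t)) ≤ 2 ^ T := by
    have e0 := Finset.prod_univ_sum (fun _ : Fin T => S) (fun _ y => W y * b y)
    rw [← e0]
    calc ∏ _t : Fin T, ∑ y ∈ S, W y * b y ≤ ∏ _t : Fin T, (2 : ℝ) := by
          refine prod_le_prod (fun _ _ => sum_nonneg fun y hy => ?_) fun _ _ => hbexp
          refine mul_nonneg (hW0 y hy) ?_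
          simp only [hb]
          split_ifs <;> norm_num
      _ = 2 ^ T := by simp
  -- a pattern where the median misses has large weight
  have hmiss : ∀ ω : Fin T → Y,
      ¬ (L ≤ medianOf (fun t => est (ω t)) ∧ medianOf (fun t => est (ω t)) ≤ U) →
      (3 : ℝ) ^ T ≤ ∏ t, b (ω t) := by
    intro ω hω
    have hcard : ¬ T < 2 * (univ.filter fun t => L ≤ est (ω t) ∧ est (ω t) ≤ U).card :=
      fun h => hω (medianOf_mem h)
    set Gd := univ.filter fun t : Fin T => L ≤ est (ω t) ∧ est (ω t) ≤ U with hGd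
    have hprod2 : ∏ t, b (ω t) = 9 ^ (T - Gd.card) := by
      have e1 : ∀ t, b (ω t) = if t ∈ Gd then 1 else 9 := by
        intro t
        simp only [hb, hGd, mem_filter, mem_univ, true_and]
      simp only [e1]
      rw [prod_ite]
      simp only [prod_const_one, one_mul, prod_const]
      congr 1
      have := card_filter_add_card_filter_not (s := (univ : Finset (Fin T))) (fun t => t ∈ Gd)
      have h2 : (univ.filter fun t => t ∈ Gd) = Gd := by
        ext t
        simp
      rw [h2] at this
      simp only [card_univ, Fintype.card_fin] at this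
      omega
    rw [hprod2]
    have h3 : T ≤ 2 * (T - Gd.card) := by omega
    calc (3 : ℝ) ^ T ≤ 3 ^ (2 * (T - Gd.card)) := pow_le_pow_right₀ (by norm_num) h3
      _ = 9 ^ (T - Gd.card) := by
        rw [pow_mul]
        norm_num
  -- Markov
  set Pmiss : ℝ := ∑ ω ∈ Fintype.piFinset (fun _ : Fin T => S),
      if L ≤ medianOf (fun t => est (ω t)) ∧ medianOf (fun t => est (ω t)) ≤ U then
        0 else ∏ t, W (ω t) with hPmiss
  have hPle : Pmiss * 3 ^ T ≤ 2 ^ T := by
    refine le_trans ?_ hprod
    rw [hPmiss, sum_mul]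
    refine sum_le_sum fun ω hω => ?_
    have hω' := Fintype.mem_piFinset.1 hω
    have h0 : 0 ≤ ∏ t, W (ω t) := prod_nonneg fun t _ => hW0 _ (hω' t)
    rw [prod_mul_distrib]
    split_ifs with h
    · rw [zero_mul]
      refine mul_nonneg h0 (prod_nonneg fun t _ => ?_)
      simp only [hb]
      split_ifs <;> norm_num
    · exact mul_le_mul_of_nonneg_left (hmiss ω h) h0
  have hP23 : Pmiss ≤ (2 / 3 : ℝ) ^ T := by
    rw [div_pow, le_div_iff₀ (by positivity)]
    exact hPle
  have hsplit : ∑ ω ∈ Fintype.piFinset (fun _ : Fin T => S), ∏ t, W (ω t) =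
      (∑ ω ∈ Fintype.piFinset (fun _ : Fin T => S),
        if L ≤ medianOf (fun t => est (ω t)) ∧ medianOf (fun t => est (ω t)) ≤ U then
          ∏ t, W (ω t) else 0) + Pmiss := by
    rw [hPmiss, ← sum_add_distrib]
    refine sum_congr rfl fun ω _ => ?_
    split_ifs <;> simp
  rw [hmass] at hsplit
  linarith

/-- The number of repetitions. -/
theorem two_thirds_pow_le {δ : ℝ} (hδ0 : 0 < δ) {T : ℕ} (hT : 3 * Real.log (1 / δ) ≤ T) :
    (2 / 3 : ℝ) ^ T ≤ δ := by
  have h1 : (2 / 3 : ℝ) ≤ Real.exp (-(1 / 3)) := by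
    -- `exp (1 / 3) ≤ 3 / 2`, from the elementary bound by a geometric series
    have h2 : Real.exp (1 / 3) ≤ 3 / 2 := by
      have h3 := Real.exp_bound_div_one_sub_of_interval (x := 1 / 3) (by norm_num) (by norm_num)
      linarith
    rw [Real.exp_neg]
    rw [le_inv_comm₀ (by norm_num) (Real.exp_pos _)]
    norm_num at h2 ⊢
    linarith
  have h2 : (2 / 3 : ℝ) ^ T ≤ Real.exp (-(1 / 3)) ^ T :=
    pow_le_pow_left₀ (by norm_num) h1 T
  refine le_trans h2 ?_
  rw [← Real.exp_nat_mul]
  have h3 : (T : ℝ) * (-(1 / 3)) ≤ Real.log δ := by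
    have h4 : Real.log (1 / δ) = -Real.log δ := by
      rw [one_div, Real.log_inv]
    rw [h4] at hT
    linarith
  calc Real.exp ((T : ℝ) * (-(1 / 3))) ≤ Real.exp (Real.log δ) := Real.exp_le_exp.2 h3
    _ = δ := Real.exp_log hδ0

end

end Vale.Agent.Lib.P328U
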