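import Vale.Agent.Lib.P328Q.Mixing
import Vale.Agent.Lib.P328_helper60.Tables

/-!
Column balance for numbers of contingency tables, from the transfer inequality and the symmetry
under permutations of the columns, and the ratio bound for the margin schedule: removing one unit
from a nonzero row and from a column of largest margin loses a factor of at most `n`.
-/

namespace Vale.Agent.Lib.P328U

open Finset Vale.Agent.Lib.P328 Vale.Agent.Lib.P328Q
open Vale.Agent.Lib.P328_helper60.Tables (W transfer)

noncomputable section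

variable {m n : ℕ}

theorem mem_Tab {r : Fin m → ℕ} {c : Fin n → ℕ} {X : Tb m (Fin n)} :
    X ∈ Tab r c ↔ (∀ i, rowS X i = r i) ∧ ∀ j, colS X j = c j := mix_mem_Tab

theorem W_eq_card (r : Fin m → ℕ) (c : Fin n → ℕ) : W r c = (Tab r c).card := by
  unfold W
  congr 1
  ext X
  rw [Vale.Agent.Lib.P328_helper60.Tables.mem_tables, mem_Tab]
  rfl

/-- Numbers of tables do not change when the columns are permuted. -/
theorem card_Tab_comp (σ : Equiv.Perm (Fin n)) (r : Fin m → ℕ) (c : Fin n → ℕ) :
    (Tab r (c ∘ σ)).card = (Tab r c).card := by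
  refine Finset.card_bij' (fun X _ => fun a j => X a (σ.symm j)) (fun X _ => fun a j => X a (σ j))
    ?_ ?_ ?_ ?_
  · intro X hX
    rw [mem_Tab] at hX ⊢
    refine ⟨fun i => ?_, fun j => ?_⟩
    · rw [← hX.1 i]
      unfold rowS
      exact Equiv.sum_comp σ.symm (fun j => X i j)
    · have := hX.2 (σ.symm j)
      simp only [Function.comp, Equiv.apply_symm_apply] at this
      rw [← this]
      rfl
  · intro X hX
    rw [mem_Tab] at hX ⊢
    refine ⟨fun i => ?_, fun j => ?_⟩
    · rw [← hX.1 i]
      unfold rowS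
      exact Equiv.sum_comp σ (fun j => X i j)
    · rw [Function.comp, ← hX.2 (σ j)]
      rfl
  · intro X _
    funext a j
    simp
  · intro X _
    funext a j
    simp

theorem single_comp_swap (b b' : Fin n) :
    (Pi.single b 1 : Fin n → ℕ) ∘ (Equiv.swap b b') = Pi.single b' 1 := by
  funext j
  simp only [Function.comp, Pi.single_apply]
  by_cases h1 : j = b'
  · subst h1; simp
  · by_cases h2 : j = b
    · subst h2; simp [h1, Ne.symm h1]
    · rw [Equiv.swap_apply_of_ne_of_ne h2 h1]
      simp [h1, h2]

/-- Column balance: moving a unit towards the smaller column does not decrease the number of tables. -/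
theorem col_balance (r : Fin m → ℕ) (y : Fin n → ℕ) {b b' : Fin n} (h : y b' ≤ y b) :
    (Tab r (y + Pi.single b 1)).card ≤ (Tab r (y + Pi.single b' 1)).card := by
  by_cases hbb : b = b'
  · subst hbb; exact le_rfl
  set σ := Equiv.swap b b' with hσ
  have ht := transfer r y (y ∘ σ) b b' (by
    intro j hj
    by_cases hjb : j = b
    · subst hjb
      simp only [Function.comp, hσ, Equiv.swap_apply_left]
      exact h
    · simp only [Function.comp, hσ]
      rw [Equiv.swap_apply_of_ne_of_ne hjb hj])
  have e1 : y ∘ σ + Pi.single b' 1 = (y + Pi.single b 1) ∘ σ := by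
    have := single_comp_swap b b'
    funext j
    simp only [Pi.add_apply, Function.comp]
    congr 1
    exact (congrFun this j).symm
  have e2 : y ∘ σ + Pi.single b 1 = (y + Pi.single b' 1) ∘ σ := by
    have := single_comp_swap b' b
    rw [Equiv.swap_comm] at this
    funext j
    simp only [Pi.add_apply, Function.comp]
    congr 1
    exact (congrFun this j).symm
  rw [e1, e2] at ht
  simp only [W_eq_card] at ht
  rw [card_Tab_comp, card_Tab_comp] at ht
  exact Nat.mul_self_le_mul_self_iff.1 ht

/-- Add one to the cell `(a, b)`. -/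
def addU (a : Fin m) (b : Fin n) (X : Tb m (Fin n)) : Tb m (Fin n) :=
  fun i j => X i j + if i = a ∧ j = b then 1 else 0

/-- Remove one from the cell `(a, b)`. -/
def subU (a : Fin m) (b : Fin n) (X : Tb m (Fin n)) : Tb m (Fin n) :=
  fun i j => X i j - if i = a ∧ j = b then 1 else 0

theorem subU_addU (a : Fin m) (b : Fin n) (X : Tb m (Fin n)) : subU a b (addU a b X) = X := by
  funext i j
  simp [subU, addU]

theorem addU_subU {a : Fin m} {b : Fin n} {X : Tb m (Fin n)} (h : 1 ≤ X a b) :
    addU a b (subU a b X) = X := by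
  funext i j
  simp only [subU, addU]
  by_cases hh : i = a ∧ j = b
  · obtain ⟨rfl, rfl⟩ := hh
    simp
    omega
  · simp [hh]

theorem rowS_addU (a : Fin m) (b : Fin n) (X : Tb m (Fin n)) (i : Fin m) :
    rowS (addU a b X) i = rowS X i + if i = a then 1 else 0 := by
  unfold rowS addU
  rw [sum_add_distrib]
  congr 1
  by_cases h : i = a
  · simp [h]
  · simp [h]

theorem colS_addU (a : Fin m) (b : Fin n) (X : Tb m (Fin n)) (j : Fin n) :
    colS (addU a b X) j = colS X j + if j = b then 1 else 0 := by
  unfold colS addU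
  rw [sum_add_distrib]
  congr 1
  by_cases h : j = b
  · simp [h]
  · simp [h]

/-- Margins with one unit removed. -/
def decM {k : ℕ} (r : Fin k → ℕ) (a : Fin k) : Fin k → ℕ := fun i => r i - if i = a then 1 else 0

theorem addU_mem {r : Fin m → ℕ} {c : Fin n → ℕ} {a : Fin m} {b : Fin n} (hr : 1 ≤ r a) (hc : 1 ≤ c b)
    {X : Tb m (Fin n)} (hX : X ∈ Tab (decM r a) (decM c b)) : addU a b X ∈ Tab r c := by
  rw [mem_Tab] at hX ⊢
  refine ⟨fun i => ?_, fun j => ?_⟩
  · rw [rowS_addU, hX.1 i]
    unfold decM
    by_cases h : i = a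
    · subst h; simp; omega
    · simp [h]
  · rw [colS_addU, hX.2 j]
    unfold decM
    by_cases h : j = b
    · subst h; simp; omega
    · simp [h]

theorem subU_mem {r : Fin m → ℕ} {c : Fin n → ℕ} {a : Fin m} {b : Fin n}
    {Y : Tb m (Fin n)} (hY : Y ∈ Tab r c) (h1 : 1 ≤ Y a b) :
    subU a b Y ∈ Tab (decM r a) (decM c b) := by
  have e := addU_subU h1
  rw [mem_Tab] at hY ⊢
  refine ⟨fun i => ?_, fun j => ?_⟩
  · have := rowS_addU a b (subU a b Y) i
    rw [e, hY.1 i] at this
    unfold decM
    rw [this]
    simp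
  · have := colS_addU a b (subU a b Y) j
    rw [e, hY.2 j] at this
    unfold decM
    rw [this]
    simp

theorem one_le_col_of_cell {r : Fin m → ℕ} {c : Fin n → ℕ} {a : Fin m} {b : Fin n}
    {Y : Tb m (Fin n)} (hY : Y ∈ Tab r c) (h1 : 1 ≤ Y a b) : 1 ≤ c b := by
  rw [mem_Tab] at hY
  rw [← hY.2 b]
  unfold colS
  exact le_trans h1 (single_le_sum (f := fun i => Y i b) (fun _ _ => Nat.zero_le _) (mem_univ a))

theorem one_le_row_of_cell {r : Fin m → ℕ} {c : Fin n → ℕ} {a : Fin m} {b : Fin n}
    {Y : Tb m (Fin n)} (hY : Y ∈ Tab r c) (h1 : 1 ≤ Y a b) : 1 ≤ r a := by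
  rw [mem_Tab] at hY
  rw [← hY.1 a]
  unfold rowS
  exact le_trans h1 (single_le_sum (f := fun j => Y a j) (fun _ _ => Nat.zero_le _) (mem_univ b))

/-- The tables with a unit at the cell `(a, b)` are in bijection with the near tables. -/
theorem card_filter_cell {r : Fin m → ℕ} {c : Fin n → ℕ} {a : Fin m} {b : Fin n}
    (hr : 1 ≤ r a) (hc : 1 ≤ c b) :
    ((Tab r c).filter fun Y => 1 ≤ Y a b).card = (Tab (decM r a) (decM c b)).card := by
  refine Finset.card_bij' (fun X _ => subU a b X) (fun X _ => addU a b X) ?_ ?_ ?_ ?_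
  · intro X hX
    rw [mem_filter] at hX
    exact subU_mem hX.1 hX.2
  · intro X hX
    rw [mem_filter]
    refine ⟨addU_mem hr hc hX, ?_⟩
    simp [addU]
  · intro X hX
    rw [mem_filter] at hX
    exact addU_subU hX.2
  · intro X _
    exact subU_addU a b X

theorem decM_eq_add {c : Fin n → ℕ} {b b' : Fin n} (hne : b ≠ b') (hb : 1 ≤ c b) (hb' : 1 ≤ c b') :
    decM c b' = decM (decM c b) b' + Pi.single b 1 := by
  funext j
  simp only [decM, Pi.add_apply, Pi.single_apply]
  by_cases h1 : j = b
  · subst h1
    simp [hne]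
    omega
  · by_cases h2 : j = b'
    · subst h2
      simp [h1]
    · simp [h1, h2]

theorem decM_eq_add' {c : Fin n → ℕ} {b b' : Fin n} (hne : b ≠ b') (hb : 1 ≤ c b) (hb' : 1 ≤ c b') :
    decM c b = decM (decM c b) b' + Pi.single b' 1 := by
  funext j
  simp only [decM, Pi.add_apply, Pi.single_apply]
  by_cases h1 : j = b
  · subst h1
    simp [hne]
  · by_cases h2 : j = b'
    · subst h2
      simp [h1]
      omega
    · simp [h1, h2]

/-- Removing a unit from a larger column keeps at least as many tables as from a smaller one. -/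
theorem card_decM_le (r : Fin m → ℕ) {c : Fin n → ℕ} {b b' : Fin n} (hb' : 1 ≤ c b')
    (h : c b' ≤ c b) : (Tab r (decM c b')).card ≤ (Tab r (decM c b)).card := by
  by_cases hne : b = b'
  · subst hne; exact le_rfl
  have hb : 1 ≤ c b := le_trans hb' h
  have e1 := decM_eq_add hne hb hb'
  have e2 := decM_eq_add' hne hb hb'
  obtain ⟨y, hy⟩ : ∃ y, y = decM (decM c b) b' := ⟨_, rfl⟩
  rw [← hy] at e1 e2
  rw [e1, e2]
  refine col_balance r y ?_
  rw [hy]
  simp only [decM, if_neg (Ne.symm hne), if_neg hne]
  simp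
  omega

/-- THE RATIO BOUND. For a nonzero row `a` and a column `b` of largest margin, the number of tables
with margins `(r, c)` is at most `n` times the number of tables with a unit removed at `(a, b)`. -/
theorem card_Tab_le_mul {r : Fin m → ℕ} {c : Fin n → ℕ} {a : Fin m} {b : Fin n} (hr : 1 ≤ r a)
    (hb : ∀ j, c j ≤ c b) : (Tab r c).card ≤ n * (Tab (decM r a) (decM c b)).card := by
  classical
  have hsub : Tab r c ⊆ univ.biUnion fun j : Fin n => (Tab r c).filter fun Y => 1 ≤ Y a j := by
    intro Y hY
    rw [mem_biUnion]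
    have hY' := hY
    rw [mem_Tab] at hY'
    have h1 : 1 ≤ ∑ j, Y a j := by
      have := hY'.1 a
      unfold rowS at this
      omega
    have : ∃ j, 1 ≤ Y a j := by
      by_contra hcon
      have hcon : ∀ j, Y a j < 1 := fun j => not_le.1 fun h => hcon ⟨j, h⟩
      have : ∑ j, Y a j = 0 := sum_eq_zero fun j _ => by have := hcon j; omega
      omega
    obtain ⟨j, hj⟩ := this
    exact ⟨j, mem_univ _, mem_filter.2 ⟨hY, hj⟩⟩
  calc (Tab r c).card ≤ (univ.biUnion fun j : Fin n => (Tab r c).filter fun Y => 1 ≤ Y a j).card :=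
        card_le_card hsub
    _ ≤ ∑ j : Fin n, ((Tab r c).filter fun Y => 1 ≤ Y a j).card := card_biUnion_le
    _ ≤ ∑ _j : Fin n, (Tab (decM r a) (decM c b)).card := by
        refine sum_le_sum fun j _ => ?_
        by_cases hcj : 1 ≤ c j
        · rw [card_filter_cell hr hcj]
          exact card_decM_le _ hcj (hb j)
        · have : ((Tab r c).filter fun Y => 1 ≤ Y a j) = ∅ := by
            rw [filter_eq_empty_iff]
            intro Y hY h1
            exact hcj (one_le_col_of_cell hY h1)
          rw [this]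
          simp
    _ = _ := by simp

end

end Vale.Agent.Lib.P328U
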