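import Vale.Agent.Lib.P328U.Basic
import Vale.Agent.Lib.P328W.Conf

/-! A zero-margin matrix contains a simple cycle conformal to it, and cells of a slice take
all intermediate values. -/

namespace Vale.Agent.Lib.P328U

open Finset Vale.Agent.Lib.P328Q

variable {m n : ℕ} {lo hi : Mat m n} {r : Fin m → ℤ} {c : Fin n → ℤ}

/-- a simple cycle conformal to a zero margin nonzero matrix -/
theorem exists_cycle {Δ : Mat m n} (hr : rowSum Δ = 0) (hc : colSum Δ = 0) (hne : Δ ≠ 0) :
    ∃ (l : ℕ) (_ : NeZero l) (ρ : Fin l → Fin m) (γ : Fin l → Fin n),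
      Function.Injective ρ ∧ Function.Injective γ ∧
      (∀ t, 0 < Δ (ρ t) (γ t)) ∧ (∀ t, Δ (ρ (t + 1)) (γ t) < 0) := by
  classical
  have hrow : ∀ i, ∑ j, Δ i j = 0 := fun i => congrFun hr i
  have hcol : ∀ j, ∑ i, Δ i j = 0 := fun j => congrFun hc j
  -- a positive entry
  obtain ⟨i1, j1, h1⟩ : ∃ i j, 0 < Δ i j := by
    obtain ⟨i, j, hij⟩ : ∃ i j, Δ i j ≠ 0 := by
      by_contra hh
      push Not at hh
      exact hne (funext fun i => funext fun j => hh i j)
    rcases lt_or_gt_of_ne hij with h | h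
    · obtain ⟨b, hb⟩ := P328W.exists_pos_of_sum_zero (hrow i) h
      exact ⟨i, b, hb⟩
    · exact ⟨i, j, h⟩
  have hp0 : ∀ i, ∃ j, (∃ j', 0 < Δ i j') → 0 < Δ i j := by
    intro i
    by_cases h : ∃ j', 0 < Δ i j'
    · obtain ⟨j', hj'⟩ := h
      exact ⟨j', fun _ => hj'⟩
    · exact ⟨j1, fun h' => absurd h' h⟩
  have hq0 : ∀ j, ∃ i, (∃ i', Δ i' j < 0) → Δ i j < 0 := by
    intro j
    by_cases h : ∃ i', Δ i' j < 0
    · obtain ⟨i', hi'⟩ := h
      exact ⟨i', fun _ => hi'⟩
    · exact ⟨i1, fun h' => absurd h' h⟩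
  choose p hp using hp0
  choose q hq using hq0
  let σ : Fin m → Fin m := fun i => q (p i)
  let Pos : Fin m → Prop := fun i => ∃ j, 0 < Δ i j
  have hpos : ∀ i, Pos i → 0 < Δ i (p i) := fun i h => hp i h
  have hneg : ∀ i, Pos i → Δ (σ i) (p i) < 0 := by
    intro i h
    exact hq (p i) (P328W.exists_neg_of_sum_zero (f := fun i' => Δ i' (p i)) (hcol (p i)) (hpos i h))
  have hinv : ∀ i, Pos i → Pos (σ i) := by
    intro i h
    exact P328W.exists_pos_of_sum_zero (f := fun j => Δ (σ i) j) (hrow (σ i)) (hneg i h)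
  have hinvk : ∀ k i, Pos i → Pos (σ^[k] i) := by
    intro k
    induction k with
    | zero => exact fun i h => h
    | succ k ih =>
      intro i h
      rw [Function.iterate_succ_apply']
      exact hinv _ (ih i h)
  -- a periodic point
  obtain ⟨a, b, hab, hf⟩ := Finite.exists_ne_map_eq_of_infinite (fun k : ℕ => σ^[k] i1)
  wlog hlt : a < b generalizing a b
  · exact this b a hab.symm hf.symm (by omega)
  let i0 := σ^[a] i1
  have hi0 : Pos i0 := hinvk a i1 ⟨j1, h1⟩
  have hper : Function.IsPeriodicPt σ (b - a) i0 := by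
    show σ^[b - a] (σ^[a] i1) = σ^[a] i1
    rw [← Function.iterate_add_apply, Nat.sub_add_cancel hlt.le]
    exact hf.symm
  have hlpos : 0 < Function.minimalPeriod σ i0 := hper.minimalPeriod_pos (by omega)
  set l := Function.minimalPeriod σ i0 with hl
  let ρ : ℕ → Fin m := fun k => σ^[k] i0
  have hρpos : ∀ k, Pos (ρ k) := fun k => hinvk k i0 hi0
  have hρsucc : ∀ k, ρ (k + 1) = σ (ρ k) := fun k => Function.iterate_succ_apply' σ k i0
  have hρl : ρ l = ρ 0 := Function.iterate_minimalPeriod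
  have hρinj : ∀ x y, x < l → y < l → ρ x = ρ y → x = y := by
    intro x y hx hy h
    exact Function.iterate_injOn_Iio_minimalPeriod hx hy h
  have hρinj' : ∀ x y, x < l → y < l → ρ (x + 1) = ρ (y + 1) → x = y := by
    intro x y hx hy h
    by_contra hne
    wlog hxy : x < y generalizing x y
    · exact this y x hy hx h.symm (Ne.symm hne) (by omega)
    have hρadd : ∀ a b, ρ (a + b) = σ^[b] (ρ a) := fun a b => by
      show σ^[a + b] i0 = σ^[b] (σ^[a] i0)
      rw [add_comm, Function.iterate_add_apply]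
    have e1 : ρ (x + 1 + (l - 1 - y)) = ρ (y + 1 + (l - 1 - y)) := by
      rw [hρadd (x + 1), hρadd (y + 1), h]
    have e2 : y + 1 + (l - 1 - y) = l := by omega
    rw [e2, hρl] at e1
    have := hρinj _ _ (by omega : x + 1 + (l - 1 - y) < l) (by omega : 0 < l) e1
    omega
  have : NeZero l := ⟨hlpos.ne'⟩
  have hsucc : ∀ t : Fin l, ρ ((t + 1 : Fin l) : ℕ) = ρ ((t : ℕ) + 1) := by
    intro t
    rw [Fin.val_add]
    have ht := t.isLt
    have h1' : ((1 : Fin l) : ℕ) = 1 % l := Fin.val_one' l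
    rw [h1', Nat.add_mod_mod]
    by_cases hlast : (t : ℕ) + 1 = l
    · rw [hlast, Nat.mod_self, hρl]
    · rw [Nat.mod_eq_of_lt (by omega)]
  refine ⟨l, inferInstance, fun t => ρ t, fun t => p (ρ t), ?_, ?_, ?_, ?_⟩
  · intro x y h
    exact Fin.ext (hρinj _ _ x.isLt y.isLt h)
  · intro x y h
    refine Fin.ext (hρinj' _ _ x.isLt y.isLt ?_)
    rw [hρsucc, hρsucc]
    show q (p (ρ x)) = q (p (ρ y))
    have h' : p (ρ x) = p (ρ y) := h
    rw [h']
  · intro t
    exact hpos _ (hρpos t)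
  · intro t
    show Δ (ρ ((t + 1 : Fin l) : ℕ)) (p (ρ t)) < 0
    rw [hsucc, hρsucc]
    exact hneg _ (hρpos t)

/-- intermediate values in a slice -/
theorem slc_ivt {X Y : Mat m n} (hX : X ∈ slc lo hi r c) (hY : Y ∈ slc lo hi r c)
    (i : Fin m) (j : Fin n) {v : ℤ} (h1 : min (X i j) (Y i j) ≤ v) (h2 : v ≤ max (X i j) (Y i j)) :
    ∃ W ∈ slc lo hi r c, W i j = v := by
  refine P328W.slc_ivt i j v _ X Y rfl hX hY ?_
  rcases le_total (X i j) (Y i j) with h | h
  · left
    rw [min_eq_left h] at h1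
    rw [max_eq_right h] at h2
    exact ⟨h1, h2⟩
  · right
    rw [min_eq_right h] at h1
    rw [max_eq_left h] at h2
    exact ⟨h1, h2⟩

end Vale.Agent.Lib.P328U
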