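import Vale.Agent.Lib.P328U.Basic
import Vale.Agent.Lib.P328W.Square

/-! Squaring lemma in the vocabulary of the weak Poincare route: the cell counts of slices are
log-concave and, on central slices, symmetric and nonincreasing away from the centre. -/

namespace Vale.Agent.Lib.P328U

open Finset Vale.Agent.Lib.P328Q
open scoped Pointwise

variable {m n : ℕ} {lo hi : Mat m n} {r : Fin m → ℤ} {c : Fin n → ℤ}

/-- Mirror symmetry of a central slice. -/
theorem sq_mirror (h : Central lo hi r c) {X : Mat m n} (hX : X ∈ slc lo hi r c) :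
    (lo + hi) - X ∈ slc lo hi r c := by
  obtain ⟨h1, h2, h3⟩ := P328W.mem_slc.1 hX
  refine P328W.mem_slc.2 ⟨fun i j => ?_, ?_, ?_⟩
  · have := h1 i j
    simp only [Pi.sub_apply, Pi.add_apply]
    constructor <;> omega
  · rw [P328W.rowSum_sub', h.1, h2]
    funext i
    simp only [Pi.sub_apply, Pi.smul_apply]
    ring
  · rw [P328W.colSum_sub', h.2, h3]
    funext i
    simp only [Pi.sub_apply, Pi.smul_apply]
    ring

theorem cnt_eq_cnt (F : Finset (Mat m n)) (i : Fin m) (j : Fin n) (v : ℤ) :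
    cnt F i j v = P328W.cnt (P328W.cellHom i j) F v := rfl

theorem cnt_center_ge (h : Central lo hi r c) (i : Fin m) (j : Fin n) {v : ℤ}
    (hv : (lo + hi) i j = 2 * v) :
    cnt (slc lo hi r c) i j (v + 1) ≤ cnt (slc lo hi r c) i j v :=
  P328W.center_mono (P328W.cellHom i j) (P328W.SliceFam r c) (P328W.sliceFam_fib r c)
    (P328W.sliceFam_ivt r c i j) _ _ rfl ⟨lo, hi, rfl⟩ (lo + hi) (fun _ hx => sq_mirror h hx) v hv

theorem cnt_logconcave (lo hi : Mat m n) (r : Fin m → ℤ) (c : Fin n → ℤ) (i : Fin m) (j : Fin n) (v : ℤ) :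
    cnt (slc lo hi r c) i j (v - 1) * cnt (slc lo hi r c) i j (v + 1) ≤ cnt (slc lo hi r c) i j v ^ 2 := by
  have := P328W.slc_log_concave lo hi r c i j v
  rw [sq, mul_comm]
  exact this

theorem cnt_symm (h : Central lo hi r c) (i : Fin m) (j : Fin n) (v : ℤ) :
    cnt (slc lo hi r c) i j ((lo + hi) i j - v) = cnt (slc lo hi r c) i j v :=
  P328W.cnt_mirror (P328W.cellHom i j) (fun _ hx => sq_mirror h hx) v

theorem cnt_antitone (h : Central lo hi r c) (i : Fin m) (j : Fin n) {v : ℤ}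
    (hv : (lo + hi) i j ≤ 2 * v) :
    cnt (slc lo hi r c) i j (v + 1) ≤ cnt (slc lo hi r c) i j v :=
  P328W.slc_unimodal lo hi r c i j (lo + hi) (fun _ hx => sq_mirror h hx) v hv

end Vale.Agent.Lib.P328U
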