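import Vale.Agent.Lib.P328U.Anneal

/-!
The explicit choice of parameters in the weak Poincare inequality and the final bound for the annealed
sampler: `k ≥ 2 ^ 15 * m ^ 10 * n ^ 21 * N ^ 28 / ε ^ 12` steps per stage give total variation at most `ε`.
-/

namespace Vale.Agent.Lib.P328U

open Finset Vale.Agent.Lib.P328 Vale.Agent.Lib.P328Q

noncomputable section

/-- A power of two above a positive real, and not much above it. -/
theorem exists_pow_two_between {X : ℝ} (hX : 1 ≤ X) : ∃ l : ℕ, X ≤ 2 ^ l ∧ (2 : ℝ) ^ l ≤ 2 * (X + 1) := by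
  set A : ℕ := ⌈X⌉₊ with hA
  have hA1 : X ≤ A := Nat.le_ceil X
  have hA2 : (A : ℝ) < X + 1 := Nat.ceil_lt_add_one (by linarith)
  have hApos : 1 ≤ A := by
    have : (0 : ℝ) < A := by linarith
    exact_mod_cast this
  refine ⟨Nat.clog 2 A, ?_, ?_⟩
  · have : A ≤ 2 ^ Nat.clog 2 A := Nat.le_pow_clog (by norm_num) A
    have h2 : (A : ℝ) ≤ (2 : ℝ) ^ Nat.clog 2 A := by exact_mod_cast this
    linarith
  · by_cases h : A = 1
    · rw [h]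
      simp
      linarith
    · have h3 : 1 < A := by omega
      have h4 := Nat.pow_pred_clog_lt_self (b := 2) (by norm_num) h3
      have h5 : Nat.clog 2 A ≠ 0 := (Nat.clog_pos (by norm_num) h3).ne'
      have h6 : 2 ^ Nat.clog 2 A = 2 * 2 ^ (Nat.clog 2 A).pred := by
        conv_lhs => rw [← Nat.succ_pred_eq_of_ne_zero h5]
        rw [pow_succ]
        ring
      have h7 : 2 ^ Nat.clog 2 A ≤ 2 * A := by omega
      have h8 : (2 : ℝ) ^ Nat.clog 2 A ≤ 2 * (A : ℝ) := by exact_mod_cast h7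
      linarith

variable {m n : ℕ}

/-- The form of the weak Poincare inequality used here. -/
def WeakTabForm (m n : ℕ) : Prop :=
  ∀ (r : Fin m → ℕ) (c : Fin n → ℕ) (g : Tb m (Fin n) → ℝ) (M : ℝ), 0 ≤ M →
    (∀ x ∈ Tab r c, g x ^ 2 ≤ M) → ∀ s t : ℕ,
    tabVar r c g ≤ 2 ^ (s + t + 1) * (m : ℝ) * ((m : ℝ) * n + 1) * tabDir r c g +
      M * (2 ^ (s + 1) * (3 / 4 * ((m : ℝ) * n) ^ 2 / 2 ^ t) +
        2 * (2 / 3) ^ s * ((1 / 3) * ((m : ℝ) * n * ((∑ i, r i : ℕ) : ℝ) ^ 4)))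

/-- The choice of the parameters `s, t`. -/
theorem exists_params (hm : 1 ≤ m) (hn : 1 ≤ n) {N : ℕ} (hN : 1 ≤ N) {ε : ℝ} (h0 : 0 < ε) (h1 : ε < 1) :
    ∃ s t : ℕ,
      (2 : ℝ) ^ (s + 1) * (3 / 4 * ((m : ℝ) * n) ^ 2 / 2 ^ t) +
        2 * (2 / 3) ^ s * ((1 / 3) * ((m : ℝ) * n * (N : ℝ) ^ 4)) ≤
          (2 / 3) * (4 * ε ^ 2 / ((n : ℝ) ^ 2 * (N : ℝ) ^ 2)) ∧
      4 * (m : ℝ) ^ 2 * (n : ℝ) ^ 2 * (2 ^ (s + t + 1) * (m : ℝ) * ((m : ℝ) * n + 1)) *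
          (3 / (4 * ε ^ 2 / ((n : ℝ) ^ 2 * (N : ℝ) ^ 2))) ≤
        2 ^ 15 * (m : ℝ) ^ 10 * (n : ℝ) ^ 21 * (N : ℝ) ^ 28 / ε ^ 12 := by
  have hm' : (1 : ℝ) ≤ m := by exact_mod_cast hm
  have hn' : (1 : ℝ) ≤ n := by exact_mod_cast hn
  have hN' : (1 : ℝ) ≤ N := by exact_mod_cast hN
  have hε2 : 0 < ε ^ 2 := by positivity
  have hε21 : ε ^ 2 ≤ 1 := by nlinarith
  have hmpos : (0 : ℝ) < m := by linarith
  have hnpos : (0 : ℝ) < n := by linarith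
  have hNpos : (0 : ℝ) < N := by linarith
  set P : ℝ := (m : ℝ) * (n : ℝ) ^ 3 * (N : ℝ) ^ 6 / ε ^ 2 with hP
  set R : ℝ := (m : ℝ) ^ 2 * (n : ℝ) ^ 4 * (N : ℝ) ^ 2 / ε ^ 2 with hR
  have hP1 : 1 ≤ P := by
    rw [hP, le_div_iff₀ hε2]
    have h2 : 1 ≤ (m : ℝ) * (n : ℝ) ^ 3 * (N : ℝ) ^ 6 := by
      have h3 : 1 ≤ (n : ℝ) ^ 3 := one_le_pow₀ hn'
      have h4 : 1 ≤ (N : ℝ) ^ 6 := one_le_pow₀ hN'
      nlinarith [mul_le_mul hm' h3 (by norm_num) (by linarith), one_le_mul_of_one_le_of_one_le (one_le_mul_of_one_le_of_one_le hm' h3) h4]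
    linarith
  have hR1 : 1 ≤ R := by
    rw [hR, le_div_iff₀ hε2]
    have h2 : 1 ≤ (m : ℝ) ^ 2 * (n : ℝ) ^ 4 * (N : ℝ) ^ 2 :=
      one_le_mul_of_one_le_of_one_le (one_le_mul_of_one_le_of_one_le (one_le_pow₀ hm') (one_le_pow₀ hn'))
        (one_le_pow₀ hN')
    linarith
  obtain ⟨l, hl1, hl2⟩ := exists_pow_two_between hP1
  obtain ⟨l', hl'1, hl'2⟩ := exists_pow_two_between hR1
  have hl3 : (2 : ℝ) ^ l ≤ 4 * P := by linarith
  have hl'3 : (2 : ℝ) ^ l' ≤ 4 * R := by linarith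
  set η : ℝ := 4 * ε ^ 2 / ((n : ℝ) ^ 2 * (N : ℝ) ^ 2) with hη
  have hηpos : 0 < η := by positivity
  refine ⟨2 * l, 2 * l + 1 + l', ?_, ?_⟩
  · -- the first term
    have e1 : (2 : ℝ) ^ (2 * l + 1) * (3 / 4 * ((m : ℝ) * n) ^ 2 / 2 ^ (2 * l + 1 + l')) =
        3 / 4 * ((m : ℝ) * n) ^ 2 / 2 ^ l' := by
      rw [pow_add (2 : ℝ) (2 * l + 1) l']
      have : (2 : ℝ) ^ (2 * l + 1) ≠ 0 := by positivity
      have : (2 : ℝ) ^ l' ≠ 0 := by positivity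
      field_simp
    rw [e1]
    have h1 : 3 / 4 * ((m : ℝ) * n) ^ 2 / 2 ^ l' ≤ η / 3 := by
      rw [div_le_iff₀ (by positivity)]
      have : η / 3 * R = (4 / 3) * ((m : ℝ) * n) ^ 2 := by
        rw [hη, hR]
        field_simp
      have h2 : 0 ≤ η / 3 := by positivity
      have h3 : η / 3 * R ≤ η / 3 * 2 ^ l' := mul_le_mul_of_nonneg_left hl'1 h2
      nlinarith [sq_nonneg ((m : ℝ) * n)]
    -- the second term
    have h2 : (2 / 3 : ℝ) ^ (2 * l) * P ≤ 1 := by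
      have e : (2 / 3 : ℝ) ^ (2 * l) = (4 / 9) ^ l := by
        rw [pow_mul]
        norm_num
      rw [e]
      have h3 : (4 / 9 : ℝ) ^ l * 2 ^ l ≤ 1 := by
        rw [← mul_pow]
        exact pow_le_one₀ (by norm_num) (by norm_num)
      have h4 : (4 / 9 : ℝ) ^ l * P ≤ (4 / 9 : ℝ) ^ l * 2 ^ l :=
        mul_le_mul_of_nonneg_left hl1 (by positivity)
      linarith
    have h3 : 2 * (2 / 3 : ℝ) ^ (2 * l) * ((1 / 3) * ((m : ℝ) * n * (N : ℝ) ^ 4)) ≤ η / 3 := by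
      have e : (m : ℝ) * n * (N : ℝ) ^ 4 = (4 / 1) * ε ^ 2 / ((n : ℝ) ^ 2 * (N : ℝ) ^ 2) * P / 4 := by
        rw [hP]
        field_simp
      have e2 : 2 * (2 / 3 : ℝ) ^ (2 * l) * ((1 / 3) * ((m : ℝ) * n * (N : ℝ) ^ 4)) =
          (2 / 3) * ((2 / 3 : ℝ) ^ (2 * l) * P) * (η / 4) := by
        rw [e, hη]
        ring
      rw [e2]
      have h5 : 0 ≤ η / 4 := by positivity
      have h6 := mul_le_mul_of_nonneg_right (mul_le_mul_of_nonneg_left h2 (by norm_num : (0 : ℝ) ≤ 2 / 3)) h5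
      linarith
    linarith
  · -- the constant
    have e1 : (2 : ℝ) ^ (2 * l + (2 * l + 1 + l') + 1) = 4 * ((2 : ℝ) ^ l) ^ 4 * 2 ^ l' := by
      rw [← pow_mul]
      have : 2 * l + (2 * l + 1 + l') + 1 = 2 + (l * 4 + l') := by ring
      rw [this, pow_add, pow_add]
      ring
    rw [e1]
    have h2 : ((2 : ℝ) ^ l) ^ 4 ≤ (4 * P) ^ 4 := pow_le_pow_left₀ (by positivity) hl3 4
    have h3 : 4 * ((2 : ℝ) ^ l) ^ 4 * 2 ^ l' ≤ 4 * (4 * P) ^ 4 * (4 * R) := by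
      have : (0:ℝ) ≤ 4 * (4 * P) ^ 4 := by positivity
      calc 4 * ((2 : ℝ) ^ l) ^ 4 * 2 ^ l' ≤ 4 * (4 * P) ^ 4 * 2 ^ l' :=
            mul_le_mul_of_nonneg_right (by linarith) (by positivity)
        _ ≤ _ := mul_le_mul_of_nonneg_left hl'3 this
    have hmn : (m : ℝ) * n + 1 ≤ 2 * ((m : ℝ) * n) := by nlinarith
    have hfac : 0 ≤ 4 * (m : ℝ) ^ 2 * (n : ℝ) ^ 2 * (3 / η) * (m : ℝ) := by positivity
    have e3 : 4 * (m : ℝ) ^ 2 * (n : ℝ) ^ 2 * (4 * (4 * P) ^ 4 * (4 * R) * (m : ℝ) * (2 * ((m : ℝ) * n))) * (3 / η) =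
        24576 * ((m : ℝ) ^ 10 * (n : ℝ) ^ 21 * (N : ℝ) ^ 28 / ε ^ 12) := by
      rw [hP, hR, hη]
      field_simp
      ring
    have h4 : 4 * (m : ℝ) ^ 2 * (n : ℝ) ^ 2 * (4 * ((2 : ℝ) ^ l) ^ 4 * 2 ^ l' * (m : ℝ) * ((m : ℝ) * n + 1)) * (3 / η) ≤
        4 * (m : ℝ) ^ 2 * (n : ℝ) ^ 2 * (4 * (4 * P) ^ 4 * (4 * R) * (m : ℝ) * (2 * ((m : ℝ) * n))) * (3 / η) := by
      have h5 : 0 ≤ 3 / η := by positivity
      refine mul_le_mul_of_nonneg_right (mul_le_mul_of_nonneg_left ?_ (by positivity)) h5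
      refine mul_le_mul ?_ hmn (by positivity) (by positivity)
      exact mul_le_mul_of_nonneg_right h3 hmpos.le
    have hZ : 0 ≤ (m : ℝ) ^ 10 * (n : ℝ) ^ 21 * (N : ℝ) ^ 28 / ε ^ 12 := by positivity
    have e4 : 2 ^ 15 * (m : ℝ) ^ 10 * (n : ℝ) ^ 21 * (N : ℝ) ^ 28 / ε ^ 12 =
        32768 * ((m : ℝ) ^ 10 * (n : ℝ) ^ 21 * (N : ℝ) ^ 28 / ε ^ 12) := by
      ring
    rw [e4]
    linarith

/-- The weak Poincare inequality with constants uniform over all margins of total at most `N`. -/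
theorem weak_unif (hW : WeakTabForm m n) (N s t : ℕ) (r : Fin m → ℕ) (c : Fin n → ℕ) (hN : ∑ i, r i ≤ N)
    (g : Tb m (Fin n) → ℝ) (M : ℝ) (hM0 : 0 ≤ M) (hM : ∀ x ∈ Tab r c, g x ^ 2 ≤ M) :
    tabVar r c g ≤ (2 ^ (s + t + 1) * (m : ℝ) * ((m : ℝ) * n + 1)) * tabDir r c g +
      ((2 : ℝ) ^ (s + 1) * (3 / 4 * ((m : ℝ) * n) ^ 2 / 2 ^ t) +
        2 * (2 / 3) ^ s * ((1 / 3) * ((m : ℝ) * n * (N : ℝ) ^ 4))) * M := by
  refine le_trans (hW r c g M hM0 hM s t) ?_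
  rw [mul_comm _ M]
  refine add_le_add le_rfl (mul_le_mul_of_nonneg_left ?_ hM0)
  refine add_le_add le_rfl (mul_le_mul_of_nonneg_left ?_ (by positivity))
  refine mul_le_mul_of_nonneg_left ?_ (by norm_num)
  refine mul_le_mul_of_nonneg_left ?_ (by positivity)
  have : ((∑ i, r i : ℕ) : ℝ) ≤ N := by exact_mod_cast hN
  exact pow_le_pow_left₀ (by positivity) this 4

/-- THE FINAL BOUND for the annealed sampler. -/
theorem anneal_tv_final [NeZero m] [NeZero n] (hW : WeakTabForm m n) {r : Fin m → ℕ} {c : Fin n → ℕ} {N : ℕ}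
    (hr : ∑ i, r i = N) (hc : ∑ j, c j = N) {ε : ℝ} (h0 : 0 < ε) (h1 : ε < 1) {k : ℕ}
    (hk : 2 ^ 15 * (m : ℝ) ^ 10 * (n : ℝ) ^ 21 * (N : ℝ) ^ 28 / ε ^ 12 ≤ k) :
    tvUnif r c (anneal k N r c) ≤ ε := by
  have hm : 1 ≤ m := Nat.one_le_iff_ne_zero.2 (NeZero.ne m)
  have hn : 1 ≤ n := Nat.one_le_iff_ne_zero.2 (NeZero.ne n)
  have hmpos : (0 : ℝ) < m := by exact_mod_cast hm
  have hnpos : (0 : ℝ) < n := by exact_mod_cast hn
  have hspec : ∀ s t : ℕ, tvUnif r c (anneal k N r c) ≤ (N : ℝ) * (((n : ℝ) / 2) * Real.sqrt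
        (((2 : ℝ) ^ (s + 1) * (3 / 4 * ((m : ℝ) * n) ^ 2 / 2 ^ t) +
        2 * (2 / 3) ^ s * ((1 / 3) * ((m : ℝ) * n * (N : ℝ) ^ 4))) + Real.exp (-((k : ℝ) / (4 * (m : ℝ) ^ 2 * (n : ℝ) ^ 2 *
          (2 ^ (s + t + 1) * (m : ℝ) * ((m : ℝ) * n + 1))))))) := by
    intro s t
    refine (anneal_spec (by positivity) (by positivity) N ?_ k N le_rfl r c hr hc).2.2.2
    intro r' c' _ hN' g M hM0 hM
    exact weak_unif hW N s t r' c' hN' g M hM0 hM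
  by_cases hN0 : N = 0
  · subst hN0
    have := hspec 0 0
    simp only [Nat.cast_zero, zero_mul] at this
    linarith
  have hN : 1 ≤ N := Nat.one_le_iff_ne_zero.2 hN0
  have hNpos : (0 : ℝ) < N := by exact_mod_cast hN
  obtain ⟨s, t, hδ, hK⟩ := exists_params hm hn hN h0 h1
  refine le_trans (hspec s t) ?_
  set η : ℝ := 4 * ε ^ 2 / ((n : ℝ) ^ 2 * (N : ℝ) ^ 2) with hη
  have hηpos : 0 < η := by positivity
  set C' : ℝ := 4 * (m : ℝ) ^ 2 * (n : ℝ) ^ 2 * (2 ^ (s + t + 1) * (m : ℝ) * ((m : ℝ) * n + 1)) with hC'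
  have hC'pos : 0 < C' := by positivity
  have hx : 3 / η ≤ (k : ℝ) / C' := by
    rw [le_div_iff₀ hC'pos]
    have e : 3 / η * C' = C' * (3 / η) := mul_comm _ _
    rw [e]
    exact le_trans hK hk
  have hxpos : 0 < 3 / η := by positivity
  have he : Real.exp (-((k : ℝ) / C')) ≤ η / 3 := by
    have h2 := Real.add_one_le_exp ((k : ℝ) / C')
    have h3 : 0 < (k : ℝ) / C' := lt_of_lt_of_le hxpos hx
    rw [Real.exp_neg, inv_le_comm₀ (Real.exp_pos _) (by positivity)]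
    have h4 : (η / 3)⁻¹ = 3 / η := by
      field_simp
    rw [h4]
    linarith
  have hsum : ((2 : ℝ) ^ (s + 1) * (3 / 4 * ((m : ℝ) * n) ^ 2 / 2 ^ t) +
        2 * (2 / 3) ^ s * ((1 / 3) * ((m : ℝ) * n * (N : ℝ) ^ 4))) + Real.exp (-((k : ℝ) / C')) ≤ η := by
    linarith
  have hsqrt : Real.sqrt (((2 : ℝ) ^ (s + 1) * (3 / 4 * ((m : ℝ) * n) ^ 2 / 2 ^ t) +
        2 * (2 / 3) ^ s * ((1 / 3) * ((m : ℝ) * n * (N : ℝ) ^ 4))) + Real.exp (-((k : ℝ) / C'))) ≤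
      2 * ε / ((n : ℝ) * N) := by
    rw [show 2 * ε / ((n : ℝ) * N) = Real.sqrt ((2 * ε / ((n : ℝ) * N)) ^ 2) from (Real.sqrt_sq (by positivity)).symm]
    apply Real.sqrt_le_sqrt
    have e : (2 * ε / ((n : ℝ) * N)) ^ 2 = η := by
      rw [hη]
      field_simp
      ring
    rw [e]
    exact hsum
  calc (N : ℝ) * (((n : ℝ) / 2) * _) ≤ (N : ℝ) * (((n : ℝ) / 2) * (2 * ε / ((n : ℝ) * N))) :=
        mul_le_mul_of_nonneg_left (mul_le_mul_of_nonneg_left hsqrt (by positivity)) hNpos.le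
    _ = ε := by
        field_simp

end

end Vale.Agent.Lib.P328U
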