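import Vale.Agent.Lib.P328U.Basic

/-!
Generic facts on the fibre average and the normalised variance.
-/


namespace Vale.Agent.Lib.P328U

open Finset Vale.Agent.Lib.P328Q
open scoped Pointwise

noncomputable section

section GenericTasks
variable {G : Type*} [AddCommGroup G] [DecidableEq G]

lemma avg_mem_fib {F : Finset G} {U X : G} : X ∈ fib F U ↔ X ∈ F ∧ U - X ∈ F := by
  simp [fib]

/-- Fibrewise form of a sum over pairs. -/
theorem avg_sum_pairs (F : Finset G) (w : G → G → ℝ) :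
    ∑ x ∈ F, ∑ y ∈ F, w (x + y) x = ∑ U ∈ F + F, ∑ X ∈ fib F U, w U X := by
  have h1 : ∑ U ∈ F + F, ∑ X ∈ fib F U, w U X
      = ∑ U ∈ F + F, ∑ X ∈ F, if U - X ∈ F then w U X else 0 := by
    refine Finset.sum_congr rfl fun U _ => ?_
    rw [fib, Finset.sum_filter]
  rw [h1]
  conv_rhs => rw [Finset.sum_comm]
  refine Finset.sum_congr rfl fun x hx => ?_
  rw [← Finset.sum_filter]
  refine Finset.sum_bij' (fun y _ => x + y) (fun U _ => U - x) ?_ ?_ ?_ ?_ ?_
  · intro y hy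
    simp only [Finset.mem_filter]
    exact ⟨Finset.add_mem_add hx hy, by simpa using hy⟩
  · intro U hU
    exact (Finset.mem_filter.1 hU).2
  · intro y _
    simp
  · intro U _
    simp
  · intro y _
    rfl

lemma avg_fib_nonempty {F : Finset G} {U : G} (hU : U ∈ F + F) : (fib F U).Nonempty := by
  obtain ⟨x, hx, y, hy, rfl⟩ := Finset.mem_add.1 hU
  exact ⟨x, avg_mem_fib.2 ⟨hx, by simpa using hy⟩⟩

/-- pair form of the average -/
theorem avg_eq_pairs (F : Finset G) (φ : G → ℝ) :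
    avg F φ = (∑ x ∈ F, ∑ y ∈ F, φ (x + y)) / (F.card : ℝ) ^ 2 := by
  unfold avg
  congr 1
  rw [avg_sum_pairs F (fun U _ => φ U)]
  refine Finset.sum_congr rfl fun U _ => ?_
  simp

theorem avg_mono {F : Finset G} {φ ψ : G → ℝ} (h : ∀ U ∈ F + F, φ U ≤ ψ U) :
    avg F φ ≤ avg F ψ := by
  unfold avg
  apply div_le_div_of_nonneg_right _ (by positivity)
  refine Finset.sum_le_sum fun U hU => ?_
  exact mul_le_mul_of_nonneg_left (h U hU) (by positivity)

theorem avg_add (F : Finset G) (φ ψ : G → ℝ) :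
    avg F (fun U => φ U + ψ U) = avg F φ + avg F ψ := by
  unfold avg
  rw [← add_div]
  congr 1
  simp only [mul_add, Finset.sum_add_distrib]

theorem avg_const_mul (F : Finset G) (k : ℝ) (φ : G → ℝ) :
    avg F (fun U => k * φ U) = k * avg F φ := by
  unfold avg
  rw [mul_div_assoc']
  congr 1
  rw [Finset.mul_sum]
  refine Finset.sum_congr rfl fun U _ => ?_
  ring

theorem avg_const_le (F : Finset G) (k : ℝ) (hk : 0 ≤ k) : avg F (fun _ => k) ≤ k := by
  rw [avg_eq_pairs]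
  by_cases h : F.card = 0
  · simp [h, hk]
  · have hc : (0 : ℝ) < (F.card : ℝ) := by exact_mod_cast Nat.pos_of_ne_zero h
    simp only [Finset.sum_const, nsmul_eq_mul]
    rw [div_le_iff₀ (by positivity)]
    apply le_of_eq
    ring

/-- reindexing: the average over fibres of a mean over the fibre -/
theorem avg_mean_fib (F : Finset G) (w : G → G → ℝ) :
    avg F (fun U => (∑ X ∈ fib F U, w U X) / ((fib F U).card : ℝ)) =
      (∑ x ∈ F, ∑ y ∈ F, w (x + y) x) / (F.card : ℝ) ^ 2 := by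
  unfold avg
  congr 1
  rw [avg_sum_pairs F w]
  refine Finset.sum_congr rfl fun U hU => ?_
  have hne := avg_fib_nonempty hU
  have hc : ((fib F U).card : ℝ) ≠ 0 := by
    exact_mod_cast (Finset.card_pos.2 hne).ne'
  field_simp

/-- The pair sum in terms of the moments. -/
lemma wv_eq_moments (F : Finset G) (g : G → ℝ) :
    wv F g = 2 * (F.card : ℝ) * (∑ x ∈ F, g x ^ 2) - 2 * (∑ x ∈ F, g x) ^ 2 := by
  unfold wv
  have e : ∀ x y, (g x - g y) ^ 2 = g x ^ 2 + g y ^ 2 - 2 * (g x * g y) := by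
    intro x y
    ring
  simp only [e, Finset.sum_sub_distrib, Finset.sum_add_distrib, Finset.sum_const, nsmul_eq_mul,
    ← Finset.mul_sum, ← Finset.sum_mul]
  ring

theorem wv_nonneg (F : Finset G) (g : G → ℝ) : 0 ≤ wv F g :=
  Finset.sum_nonneg fun _ _ => Finset.sum_nonneg fun _ _ => by positivity

theorem vr_nonneg (F : Finset G) (g : G → ℝ) : 0 ≤ vr F g := by
  unfold vr
  exact div_nonneg (wv_nonneg F g) (by positivity)

/-- The variance as a mean of squared deviations from the mean. -/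
lemma vr_eq_mean (F : Finset G) (g : G → ℝ) :
    vr F g = (∑ X ∈ F, (g X - (∑ Y ∈ F, g Y) / (F.card : ℝ)) ^ 2) / (F.card : ℝ) := by
  unfold vr
  rw [wv_eq_moments]
  by_cases h : F.card = 0
  · have : F = ∅ := Finset.card_eq_zero.1 h
    simp [this]
  have hc : (F.card : ℝ) ≠ 0 := by exact_mod_cast h
  have e : ∀ X, (g X - (∑ Y ∈ F, g Y) / (F.card : ℝ)) ^ 2
      = g X ^ 2 - 2 * ((∑ Y ∈ F, g Y) / (F.card : ℝ)) * g X
        + ((∑ Y ∈ F, g Y) / (F.card : ℝ)) ^ 2 := by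
    intro X
    ring
  simp only [e, Finset.sum_add_distrib, Finset.sum_sub_distrib, Finset.sum_const, nsmul_eq_mul,
    ← Finset.mul_sum]
  field_simp
  ring

/-- doubling in normalised form -/
theorem vr_le_two_avg (F : Finset G) (g : G → ℝ) :
    vr F g ≤ 2 * avg F (fun U => vr (fib F U) g) := by
  by_cases h : F.card = 0
  · have : F = ∅ := Finset.card_eq_zero.1 h
    simp [this, vr, avg, wv]
  have hc : (0 : ℝ) < (F.card : ℝ) := by exact_mod_cast Nat.pos_of_ne_zero h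
  set μ : G → ℝ := fun U => (∑ Y ∈ fib F U, g Y) / ((fib F U).card : ℝ) with hμ
  have e1 : avg F (fun U => vr (fib F U) g)
      = (∑ x ∈ F, ∑ y ∈ F, (g x - μ (x + y)) ^ 2) / (F.card : ℝ) ^ 2 := by
    have := avg_mean_fib F (fun U X => (g X - μ U) ^ 2)
    rw [← this]
    congr 1
    funext U
    rw [vr_eq_mean]
  have e2 : ∑ x ∈ F, ∑ y ∈ F, (g y - μ (x + y)) ^ 2 = ∑ x ∈ F, ∑ y ∈ F, (g x - μ (x + y)) ^ 2 := by
    rw [Finset.sum_comm]
    refine Finset.sum_congr rfl fun x _ => Finset.sum_congr rfl fun y _ => ?_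
    rw [add_comm]
  have e3 : wv F g
      ≤ ∑ x ∈ F, ∑ y ∈ F, (2 * (g x - μ (x + y)) ^ 2 + 2 * (g y - μ (x + y)) ^ 2) := by
    unfold wv
    refine Finset.sum_le_sum fun x _ => Finset.sum_le_sum fun y _ => ?_
    nlinarith [sq_nonneg ((g x - μ (x + y)) + (g y - μ (x + y)))]
  simp only [Finset.sum_add_distrib, ← Finset.mul_sum] at e3
  rw [e2] at e3
  rw [e1]
  unfold vr
  rw [mul_div_assoc', div_le_div_iff₀ (by positivity) (by positivity)]
  have hcc : (0 : ℝ) < (F.card : ℝ) ^ 2 := by positivity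
  nlinarith [mul_le_mul_of_nonneg_right e3 hcc.le]

/-- crude bound -/
theorem vr_le_of_sq_le {F : Finset G} {g : G → ℝ} {M : ℝ} (hM : ∀ X ∈ F, g X ^ 2 ≤ M)
    (h0 : 0 ≤ M) : vr F g ≤ M := by
  unfold vr
  rw [wv_eq_moments]
  by_cases h : F.card = 0
  · have : F = ∅ := Finset.card_eq_zero.1 h
    simpa [this] using h0
  have hc : (0 : ℝ) < (F.card : ℝ) := by exact_mod_cast Nat.pos_of_ne_zero h
  have h1 : ∑ x ∈ F, g x ^ 2 ≤ (F.card : ℝ) * M := by
    calc ∑ x ∈ F, g x ^ 2 ≤ ∑ _x ∈ F, M := Finset.sum_le_sum hM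
      _ = _ := by simp
  rw [div_le_iff₀ (by positivity)]
  nlinarith [sq_nonneg (∑ x ∈ F, g x), mul_le_mul_of_nonneg_left h1 hc.le]

/-- restriction to a subset -/
theorem vr_le_vr_sub {F I : Finset G} (hI : I ⊆ F) (hne : I.Nonempty) (g : G → ℝ) {M : ℝ}
    (hM : ∀ X ∈ F, g X ^ 2 ≤ M) (h0 : 0 ≤ M) :
    vr F g ≤ vr I g + 4 * M * (((F.card : ℝ) - I.card) / F.card) := by
  have hIpos : (0 : ℝ) < (I.card : ℝ) := by exact_mod_cast Finset.card_pos.2 hne
  have hFI : (I.card : ℝ) ≤ (F.card : ℝ) := by exact_mod_cast Finset.card_le_card hI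
  have hFpos : (0 : ℝ) < (F.card : ℝ) := lt_of_lt_of_le hIpos hFI
  have hpt : ∀ x ∈ F, ∀ y ∈ F, (g x - g y) ^ 2 ≤ 4 * M := by
    intro x hx y hy
    nlinarith [hM x hx, hM y hy, sq_nonneg (g x + g y)]
  -- split the pair sum
  have h1 : wv F g ≤ wv I g + 4 * M * ((F.card : ℝ) ^ 2 - (I.card : ℝ) ^ 2) := by
    have hP : (I ×ˢ I) ⊆ (F ×ˢ F) := Finset.product_subset_product hI hI
    have e1 : wv F g = ∑ p ∈ F ×ˢ F, (g p.1 - g p.2) ^ 2 := by
      unfold wv
      rw [Finset.sum_product]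
    have e2 : wv I g = ∑ p ∈ I ×ˢ I, (g p.1 - g p.2) ^ 2 := by
      unfold wv
      rw [Finset.sum_product]
    have e3 : ∑ p ∈ (F ×ˢ F) \ (I ×ˢ I), (g p.1 - g p.2) ^ 2 ≤
        (((F ×ˢ F) \ (I ×ˢ I)).card : ℝ) * (4 * M) := by
      calc _ ≤ ∑ _p ∈ (F ×ˢ F) \ (I ×ˢ I), (4 * M) := by
            refine Finset.sum_le_sum fun p hp => ?_
            have hp' := (Finset.mem_sdiff.1 hp).1
            rw [Finset.mem_product] at hp'
            exact hpt _ hp'.1 _ hp'.2
        _ = _ := by simp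
    have e4 : (((F ×ˢ F) \ (I ×ˢ I)).card : ℝ) = (F.card : ℝ) ^ 2 - (I.card : ℝ) ^ 2 := by
      rw [Finset.card_sdiff_of_subset hP, Nat.cast_sub (Finset.card_le_card hP)]
      simp only [Finset.card_product, Nat.cast_mul]
      ring
    have e5 := Finset.sum_sdiff (f := fun p : G × G => (g p.1 - g p.2) ^ 2) hP
    rw [e1, e2]
    rw [e4] at e3
    linarith
  have h2 : vr F g ≤ wv I g / (2 * (F.card : ℝ) ^ 2)
      + 2 * M * (((F.card : ℝ) ^ 2 - (I.card : ℝ) ^ 2) / (F.card : ℝ) ^ 2) := by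
    unfold vr
    rw [div_le_iff₀ (by positivity)]
    have e : (wv I g / (2 * (F.card : ℝ) ^ 2)
        + 2 * M * (((F.card : ℝ) ^ 2 - (I.card : ℝ) ^ 2) / (F.card : ℝ) ^ 2)) * (2 * (F.card : ℝ) ^ 2)
        = wv I g + 4 * M * ((F.card : ℝ) ^ 2 - (I.card : ℝ) ^ 2) := by
      field_simp
      ring
    rw [e]
    exact h1
  have h3 : wv I g / (2 * (F.card : ℝ) ^ 2) ≤ vr I g := by
    unfold vr
    apply div_le_div_of_nonneg_left (wv_nonneg I g) (by positivity)
    have : (I.card : ℝ) ^ 2 ≤ (F.card : ℝ) ^ 2 := by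
      exact pow_le_pow_left₀ hIpos.le hFI 2
    linarith
  have h4 : ((F.card : ℝ) ^ 2 - (I.card : ℝ) ^ 2) / (F.card : ℝ) ^ 2
      ≤ 2 * (((F.card : ℝ) - I.card) / F.card) := by
    rw [div_le_iff₀ (by positivity)]
    have e : 2 * (((F.card : ℝ) - I.card) / F.card) * (F.card : ℝ) ^ 2
        = 2 * ((F.card : ℝ) - I.card) * F.card := by
      field_simp
    rw [e]
    nlinarith
  have h5 := mul_le_mul_of_nonneg_left h4 (by positivity : 0 ≤ 2 * M)
  linarith

end GenericTasks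

end

end Vale.Agent.Lib.P328U
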