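import Vale.Agent.Lib.P328Q.Basic

/-!
Functionals on additive fibres used in the weak Poincare inequality for contingency tables
(see notes/P328_weak.md): the fibre average, the normalised variance, cell counts, the quartic
functional and the pair functional.
-/

namespace Vale.Agent.Lib.P328U

open Finset Vale.Agent.Lib.P328Q
open scoped Pointwise

noncomputable section

section Abstract

variable {G : Type*} [AddCommGroup G] [DecidableEq G]

/-- The average of `φ` over fibres: `φ (x + y)` averaged over pairs `x, y` of `F`. -/
def avg (F : Finset G) (φ : G → ℝ) : ℝ :=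
  (∑ U ∈ F + F, ((fib F U).card : ℝ) * φ U) / (F.card : ℝ) ^ 2

/-- The variance of `g` on `F` (zero on the empty set). -/
def vr (F : Finset G) (g : G → ℝ) : ℝ := wv F g / (2 * (F.card : ℝ) ^ 2)

end Abstract

variable {m n : ℕ}

/-- The number of points of `F` with value `v` at the cell `(i, j)`. -/
def cnt (F : Finset (Mat m n)) (i : Fin m) (j : Fin n) (v : ℤ) : ℕ :=
  (F.filter fun X => X i j = v).card

/-- The quartic polynomial `u ^ 4 - u ^ 2`: zero at `0, 1, -1`, and at least `12` at other integers. -/
def gg (u : ℤ) : ℝ := (u : ℝ) ^ 4 - (u : ℝ) ^ 2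

/-- The quartic functional at the cell `(i, j)` of a set centred at `U / 2`. -/
def Th (F : Finset (Mat m n)) (U : Mat m n) (i : Fin m) (j : Fin n) : ℝ :=
  (∑ X ∈ F, gg (2 * X i j - U i j)) / (F.card : ℝ)

/-- The pair functional of the cells `(i, j)`, `(i', j')` of a set centred at `U / 2`:
the product of the fractions of points where the two deviations have equal and opposite signs. -/
def pth (F : Finset (Mat m n)) (U : Mat m n) (i : Fin m) (j : Fin n) (i' : Fin m) (j' : Fin n) : ℝ :=
  (((F.filter fun X => 0 < (2 * X i j - U i j) * (2 * X i' j' - U i' j')).card : ℝ) *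
    ((F.filter fun X => (2 * X i j - U i j) * (2 * X i' j' - U i' j') < 0).card : ℝ)) /
      (F.card : ℝ) ^ 2

/-- Sum of the pair functional over all ordered pairs of cells. -/
def pthSum (F : Finset (Mat m n)) (U : Mat m n) : ℝ :=
  ∑ i, ∑ j, ∑ i', ∑ j', pth F U i j i' j'

/-- Sum of the quartic functional over all cells. -/
def ThSum (F : Finset (Mat m n)) (U : Mat m n) : ℝ := ∑ i, ∑ j, Th F U i j

/-- Lower corner of the inner box. -/
def inLo (U : Mat m n) : Mat m n := fun i j => U i j / 2

/-- Upper corner of the inner box. -/
def inHi (U : Mat m n) : Mat m n := fun i j => U i j - U i j / 2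

/-- All cells have width at most one. -/
def Bin (lo hi : Mat m n) : Prop := ∀ i j, hi i j - lo i j ≤ 1

/-- The load functional: all near table energy per point of the slice. -/
def QQ (g : Mat m n → ℝ) (lo hi : Mat m n) (r : Fin m → ℤ) (c : Fin n → ℤ) : ℝ :=
  DD g lo hi r c / ((slc lo hi r c).card : ℝ)

end

end Vale.Agent.Lib.P328U
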