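import Vale.Agent.Lib.P328U.Basic

namespace Vale.Agent.Lib.P328U

open Finset Vale.Agent.Lib.P328Q
open scoped Pointwise

noncomputable section

variable {m n : ℕ} {lo hi : Mat m n} {r : Fin m → ℤ} {c : Fin n → ℤ}

theorem bin_fib (hb : Bin lo hi) (U : Mat m n) : Bin (loF lo hi U) (hiF lo hi U) := by
  intro i j
  have h1 := hb i j
  have h2 : hiF lo hi U i j ≤ hi i j := min_le_left _ _
  have h3 : lo i j ≤ loF lo hi U i j := le_max_left _ _
  omega

theorem pth_nonneg (F : Finset (Mat m n)) (U : Mat m n) (i : Fin m) (j : Fin n) (i' : Fin m) (j' : Fin n) :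
    0 ≤ pth F U i j i' j' := by
  unfold pth
  positivity

theorem bin_card_add_le {α : Type*} (s : Finset α) (P Q : α → Prop) [DecidablePred P] [DecidablePred Q]
    (h : ∀ x, P x → ¬ Q x) : (s.filter P).card + (s.filter Q).card ≤ s.card := by
  classical
  rw [← Finset.card_union_of_disjoint]
  · exact card_le_card (union_subset (filter_subset _ _) (filter_subset _ _))
  · rw [Finset.disjoint_filter]
    intro x _ hP
    exact h x hP

theorem pth_le (F : Finset (Mat m n)) (U : Mat m n) (i : Fin m) (j : Fin n) (i' : Fin m) (j' : Fin n) :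
    pth F U i j i' j' ≤ 1 / 4 := by
  unfold pth
  set a := (F.filter fun X => 0 < (2 * X i j - U i j) * (2 * X i' j' - U i' j')).card with ha
  set b := (F.filter fun X => (2 * X i j - U i j) * (2 * X i' j' - U i' j') < 0).card with hb
  have hab : a + b ≤ F.card := bin_card_add_le F _ _ (fun x h1 h2 => by
    exact absurd h1 (not_lt.mpr h2.le))
  rcases Nat.eq_zero_or_pos F.card with h0 | hpos
  · rw [h0]; simp
  have hF : (0 : ℝ) < F.card := by exact_mod_cast hpos
  have hab' : (a : ℝ) + b ≤ F.card := by exact_mod_cast hab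
  rw [div_le_iff₀ (by positivity)]
  have h1 : (0 : ℝ) ≤ a := Nat.cast_nonneg a
  have h2 : (0 : ℝ) ≤ b := Nat.cast_nonneg b
  nlinarith [sq_nonneg ((a : ℝ) - b)]

/-- elementary inequality -/
theorem bin_ineq {x y f a b : ℝ} (hx : 0 ≤ x) (hy : 0 ≤ y) (hf : x + y ≤ f) (ha : 0 < a) (hb : 0 < b) :
    f * (x * y / f ^ 2) ≤ (b ^ 2 * x + a ^ 2 * y) / (a + b) ^ 2 := by
  rcases (add_nonneg hx hy).trans hf |>.eq_or_lt with h0 | hpos
  · rw [← h0]; simp; positivity
  · have h1 : f * (x * y / f ^ 2) = x * y / f := by field_simp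
    rw [h1, div_le_div_iff₀ hpos (by positivity)]
    have h2 : 0 ≤ b ^ 2 * x + a ^ 2 * y := by positivity
    have h3 : (x + y) * (b ^ 2 * x + a ^ 2 * y) ≤ f * (b ^ 2 * x + a ^ 2 * y) :=
      mul_le_mul_of_nonneg_right hf h2
    nlinarith [sq_nonneg (b * x - a * y)]

/-- The counting lemma: pairs moving both cells in the same direction. -/
theorem bin_count {G : Type*} [AddCommGroup G] [DecidableEq G] (F : Finset G) (φ ψ : G → ℤ)
    (hφ : ∀ U X, φ (U - X) = φ U - φ X) (hψ : ∀ U X, ψ (U - X) = ψ U - ψ X)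
    (l₁ h₁ l₂ h₂ : ℤ) (h1 : h₁ - l₁ ≤ 1) (h2 : h₂ - l₂ ≤ 1)
    (hF : ∀ X ∈ F, l₁ ≤ φ X ∧ φ X ≤ h₁ ∧ l₂ ≤ ψ X ∧ ψ X ≤ h₂) :
    ∑ U ∈ F + F, (((fib F U).filter fun X => 0 < (2 * φ X - φ U) * (2 * ψ X - ψ U)).card : ℝ) ≤
      ((F.filter fun X => 0 < (2 * φ X - (l₁ + h₁)) * (2 * ψ X - (l₂ + h₂))).card : ℝ) ^ 2 / 2 := by
  classical
  set W := (F ×ˢ F).filter fun p => 0 < (φ p.1 - φ p.2) * (ψ p.1 - ψ p.2) with hW
  have hfib : ∀ U ∈ F + F, ((fib F U).filter fun X => 0 < (2 * φ X - φ U) * (2 * ψ X - ψ U)).card ≤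
      (W.filter fun p => p.1 + p.2 = U).card := by
    intro U _
    refine Finset.card_le_card_of_injOn (fun X => (X, U - X)) ?_ ?_
    · intro X hX
      have hX' := mem_filter.mp (Finset.mem_coe.mp hX)
      have hX2 := mem_filter.mp hX'.1
      refine Finset.mem_coe.mpr (mem_filter.mpr ⟨mem_filter.mpr ⟨mem_product.mpr ⟨hX2.1, hX2.2⟩, ?_⟩, ?_⟩)
      · show 0 < (φ X - φ (U - X)) * (ψ X - ψ (U - X))
        rw [hφ, hψ]
        have := hX'.2
        convert this using 2 <;> ring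
      · simp
    · intro x _ y _ h
      exact congrArg Prod.fst h
  have hsum1 : ∑ U ∈ F + F, (((fib F U).filter fun X => 0 < (2 * φ X - φ U) * (2 * ψ X - ψ U)).card : ℝ) ≤
      (W.card : ℝ) := by
    have hmaps : (W : Set (G × G)).MapsTo (fun p => p.1 + p.2) (F + F : Finset G) := by
      intro p hp
      have hp' := mem_filter.mp (Finset.mem_coe.mp hp)
      have hp2 := mem_product.mp hp'.1
      exact Finset.mem_coe.mpr (Finset.add_mem_add hp2.1 hp2.2)
    rw [Finset.card_eq_sum_card_fiberwise hmaps]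
    push_cast
    refine Finset.sum_le_sum fun U hU => ?_
    exact_mod_cast hfib U hU
  -- the classes
  set App := F.filter fun X => l₁ + h₁ < 2 * φ X ∧ l₂ + h₂ < 2 * ψ X with hApp
  set Amm := F.filter fun X => 2 * φ X < l₁ + h₁ ∧ 2 * ψ X < l₂ + h₂ with hAmm
  have hWsub : W ⊆ (App ×ˢ Amm) ∪ (Amm ×ˢ App) := by
    intro p hp
    have hp' := mem_filter.mp hp
    have hp2 := mem_product.mp hp'.1
    obtain ⟨a1, a2, a3, a4⟩ := hF _ hp2.1
    obtain ⟨b1, b2, b3, b4⟩ := hF _ hp2.2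
    have hpos : 0 < (φ p.1 - φ p.2) * (ψ p.1 - ψ p.2) := hp'.2
    rw [mem_union, mem_product, mem_product]
    simp only [hApp, hAmm, mem_filter]
    rcases pos_and_pos_or_neg_and_neg_of_mul_pos hpos with ⟨h3, h4⟩ | ⟨h3, h4⟩
    · left
      exact ⟨⟨hp2.1, by omega, by omega⟩, ⟨hp2.2, by omega, by omega⟩⟩
    · right
      exact ⟨⟨hp2.1, by omega, by omega⟩, ⟨hp2.2, by omega, by omega⟩⟩
  have hWcard : (W.card : ℝ) ≤ 2 * ((App.card : ℝ) * Amm.card) := by
    have h3 : W.card ≤ App.card * Amm.card + Amm.card * App.card := by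
      calc W.card ≤ _ := card_le_card hWsub
        _ ≤ _ := card_union_le _ _
        _ = _ := by rw [card_product, card_product]
    have h4 : (W.card : ℝ) ≤ (App.card : ℝ) * Amm.card + Amm.card * App.card := by exact_mod_cast h3
    linarith
  have hadd : App.card + Amm.card ≤
      (F.filter fun X => 0 < (2 * φ X - (l₁ + h₁)) * (2 * ψ X - (l₂ + h₂))).card := by
    rw [← Finset.card_union_of_disjoint]
    · refine card_le_card (union_subset ?_ ?_)
      · intro X hX
        have hX' := mem_filter.mp hX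
        refine mem_filter.mpr ⟨hX'.1, mul_pos (by omega) (by omega)⟩
      · intro X hX
        have hX' := mem_filter.mp hX
        refine mem_filter.mpr ⟨hX'.1, mul_pos_of_neg_of_neg (by omega) (by omega)⟩
    · rw [Finset.disjoint_left]
      intro X h3 h4
      have h3' := (mem_filter.mp h3).2
      have h4' := (mem_filter.mp h4).2
      omega
  have hadd' : (App.card : ℝ) + Amm.card ≤
      ((F.filter fun X => 0 < (2 * φ X - (l₁ + h₁)) * (2 * ψ X - (l₂ + h₂))).card : ℝ) := by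
    exact_mod_cast hadd
  have h0 : (0 : ℝ) ≤ App.card := Nat.cast_nonneg _
  have h00 : (0 : ℝ) ≤ Amm.card := Nat.cast_nonneg _
  set a : ℝ := ((F.filter fun X => 0 < (2 * φ X - (l₁ + h₁)) * (2 * ψ X - (l₂ + h₂))).card : ℝ) with ha
  have h5 : (App.card : ℝ) ^ 2 + 2 * (App.card * Amm.card) + (Amm.card : ℝ) ^ 2 ≤ a ^ 2 := by
    have : ((App.card : ℝ) + Amm.card) ^ 2 ≤ a ^ 2 := by
      exact pow_le_pow_left₀ (by positivity) hadd' 2
    nlinarith
  have h6 := sq_nonneg ((App.card : ℝ) - Amm.card)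
  nlinarith

/-- Pairs moving the two cells in opposite directions. -/
theorem bin_count_neg {G : Type*} [AddCommGroup G] [DecidableEq G] (F : Finset G) (φ ψ : G → ℤ)
    (hφ : ∀ U X, φ (U - X) = φ U - φ X) (hψ : ∀ U X, ψ (U - X) = ψ U - ψ X)
    (l₁ h₁ l₂ h₂ : ℤ) (h1 : h₁ - l₁ ≤ 1) (h2 : h₂ - l₂ ≤ 1)
    (hF : ∀ X ∈ F, l₁ ≤ φ X ∧ φ X ≤ h₁ ∧ l₂ ≤ ψ X ∧ ψ X ≤ h₂) :
    ∑ U ∈ F + F, (((fib F U).filter fun X => (2 * φ X - φ U) * (2 * ψ X - ψ U) < 0).card : ℝ) ≤
      ((F.filter fun X => (2 * φ X - (l₁ + h₁)) * (2 * ψ X - (l₂ + h₂)) < 0).card : ℝ) ^ 2 / 2 := by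
  have := bin_count F φ (fun X => - ψ X) hφ (fun U X => by simp only [hψ]; ring) l₁ h₁ (-h₂) (-l₂)
    h1 (by omega) (fun X hX => by
      obtain ⟨a1, a2, a3, a4⟩ := hF X hX
      exact ⟨a1, a2, by omega, by omega⟩)
  have e1 : ∀ U, ((fib F U).filter fun X => 0 < (2 * φ X - φ U) * (2 * (-ψ X) - (-ψ U))) =
      ((fib F U).filter fun X => (2 * φ X - φ U) * (2 * ψ X - ψ U) < 0) := by
    intro U
    refine Finset.filter_congr fun X _ => ?_
    constructor
    · intro h; nlinarith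
    · intro h; nlinarith
  have e2 : (F.filter fun X => 0 < (2 * φ X - (l₁ + h₁)) * (2 * (-ψ X) - (-h₂ + -l₂))) =
      (F.filter fun X => (2 * φ X - (l₁ + h₁)) * (2 * ψ X - (l₂ + h₂)) < 0) := by
    refine Finset.filter_congr fun X _ => ?_
    constructor
    · intro h; nlinarith
    · intro h; nlinarith
  simp only [e1, e2] at this
  exact this

/-- Values in a binary box. -/
theorem bin_entry {X : Mat m n} (hX : X ∈ slc lo hi r c) (i : Fin m) (j : Fin n) :
    lo i j ≤ X i j ∧ X i j ≤ hi i j := by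
  unfold slc Vale.Agent.Lib.P328Q.box at hX
  simp only [mem_filter, Fintype.mem_piFinset, mem_Icc] at hX
  exact hX.1 i j

theorem pth_step (h : Central lo hi r c) (hb : Bin lo hi) (i : Fin m) (j : Fin n) (i' : Fin m) (j' : Fin n) :
    avg (slc lo hi r c) (fun U => pth (fib (slc lo hi r c) U) U i j i' j') ≤
      (1 / 4) * pth (slc lo hi r c) (lo + hi) i j i' j' := by
  classical
  set F := slc lo hi r c with hFdef
  unfold avg pth
  rcases Nat.eq_zero_or_pos F.card with h0 | hpos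
  · rw [h0]; simp
  have hFpos : (0 : ℝ) < F.card := by exact_mod_cast hpos
  set A := (F.filter fun X => 0 < (2 * X i j - (lo + hi) i j) * (2 * X i' j' - (lo + hi) i' j')).card
    with hA
  set B := (F.filter fun X => (2 * X i j - (lo + hi) i j) * (2 * X i' j' - (lo + hi) i' j') < 0).card
    with hB
  set x : Mat m n → ℕ := fun U =>
    ((fib F U).filter fun X => 0 < (2 * X i j - U i j) * (2 * X i' j' - U i' j')).card with hx
  set y : Mat m n → ℕ := fun U =>
    ((fib F U).filter fun X => (2 * X i j - U i j) * (2 * X i' j' - U i' j') < 0).card with hy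
  have hcount1 : ∑ U ∈ F + F, (x U : ℝ) ≤ (A : ℝ) ^ 2 / 2 :=
    bin_count F (fun X => X i j) (fun X => X i' j') (fun _ _ => rfl) (fun _ _ => rfl)
      (lo i j) (hi i j) (lo i' j') (hi i' j') (hb i j) (hb i' j') (fun X hX =>
        ⟨(bin_entry hX i j).1, (bin_entry hX i j).2, (bin_entry hX i' j').1, (bin_entry hX i' j').2⟩)
  have hcount2 : ∑ U ∈ F + F, (y U : ℝ) ≤ (B : ℝ) ^ 2 / 2 :=
    bin_count_neg F (fun X => X i j) (fun X => X i' j') (fun _ _ => rfl) (fun _ _ => rfl)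
      (lo i j) (hi i j) (lo i' j') (hi i' j') (hb i j) (hb i' j') (fun X hX =>
        ⟨(bin_entry hX i j).1, (bin_entry hX i j).2, (bin_entry hX i' j').1, (bin_entry hX i' j').2⟩)
  have hxy : ∀ U, (x U : ℝ) + y U ≤ ((fib F U).card : ℝ) := by
    intro U
    have := bin_card_add_le (fib F U)
      (fun X => 0 < (2 * X i j - U i j) * (2 * X i' j' - U i' j'))
      (fun X => (2 * X i j - U i j) * (2 * X i' j' - U i' j') < 0)
      (fun X h1 h2 => absurd h1 (not_lt.mpr h2.le))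
    exact_mod_cast this
  have hnnx : ∀ U, (0 : ℝ) ≤ x U := fun U => Nat.cast_nonneg _
  have hnny : ∀ U, (0 : ℝ) ≤ y U := fun U => Nat.cast_nonneg _
  have hgoal : ∑ U ∈ F + F, ((fib F U).card : ℝ) * ((x U : ℝ) * (y U : ℝ) / ((fib F U).card : ℝ) ^ 2) ≤
      (1 / 4) * ((A : ℝ) * B) := by
    rcases Nat.eq_zero_or_pos A with hA0 | hApos
    · -- no pair of first kind
      have hx0 : ∀ U ∈ F + F, (x U : ℝ) = 0 := by
        have h1 : ∑ U ∈ F + F, (x U : ℝ) ≤ 0 := by simpa [hA0] using hcount1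
        have h2 := (Finset.sum_eq_zero_iff_of_nonneg (fun U _ => hnnx U)).mp
          (le_antisymm h1 (Finset.sum_nonneg fun U _ => hnnx U))
        exact h2
      rw [Finset.sum_eq_zero]
      · simp [hA0]
      · intro U hU
        rw [hx0 U hU]; simp
    rcases Nat.eq_zero_or_pos B with hB0 | hBpos
    · have hy0 : ∀ U ∈ F + F, (y U : ℝ) = 0 := by
        have h1 : ∑ U ∈ F + F, (y U : ℝ) ≤ 0 := by simpa [hB0] using hcount2
        have h2 := (Finset.sum_eq_zero_iff_of_nonneg (fun U _ => hnny U)).mp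
          (le_antisymm h1 (Finset.sum_nonneg fun U _ => hnny U))
        exact h2
      rw [Finset.sum_eq_zero]
      · simp [hB0]
      · intro U hU
        rw [hy0 U hU]; simp
    have hA' : (0 : ℝ) < A := by exact_mod_cast hApos
    have hB' : (0 : ℝ) < B := by exact_mod_cast hBpos
    calc ∑ U ∈ F + F, ((fib F U).card : ℝ) * ((x U : ℝ) * (y U : ℝ) / ((fib F U).card : ℝ) ^ 2)
        ≤ ∑ U ∈ F + F, (((B : ℝ) ^ 2 * x U + (A : ℝ) ^ 2 * y U) / ((A : ℝ) + B) ^ 2) :=
          Finset.sum_le_sum fun U _ => bin_ineq (hnnx U) (hnny U) (hxy U) hA' hB'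
      _ = ((B : ℝ) ^ 2 * ∑ U ∈ F + F, (x U : ℝ) + (A : ℝ) ^ 2 * ∑ U ∈ F + F, (y U : ℝ)) /
            ((A : ℝ) + B) ^ 2 := by
          rw [← Finset.sum_div, Finset.sum_add_distrib, Finset.mul_sum, Finset.mul_sum]
      _ ≤ ((B : ℝ) ^ 2 * ((A : ℝ) ^ 2 / 2) + (A : ℝ) ^ 2 * ((B : ℝ) ^ 2 / 2)) / ((A : ℝ) + B) ^ 2 := by
          gcongr
      _ ≤ (1 / 4) * ((A : ℝ) * B) := by
          rw [div_le_iff₀ (by positivity)]
          have h7 : 0 ≤ (A : ℝ) * B := by positivity
          have h8 : 4 * ((A : ℝ) * B) ≤ ((A : ℝ) + B) ^ 2 := by nlinarith [sq_nonneg ((A : ℝ) - B)]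
          nlinarith [mul_le_mul_of_nonneg_left h8 h7]
  have hF2 : (0 : ℝ) < (F.card : ℝ) ^ 2 := by positivity
  rw [div_le_iff₀ hF2]
  calc ∑ U ∈ F + F, ((fib F U).card : ℝ) * ((x U : ℝ) * (y U : ℝ) / ((fib F U).card : ℝ) ^ 2)
      ≤ (1 / 4) * ((A : ℝ) * B) := hgoal
    _ = 1 / 4 * ((A : ℝ) * B / (F.card : ℝ) ^ 2) * (F.card : ℝ) ^ 2 := by
        field_simp

/-- Two distinct ordered pairs of cells in a quadruple sum. -/
theorem bin_two_le (f : Fin m → Fin n → Fin m → Fin n → ℝ) (hf : ∀ a b c d, 0 ≤ f a b c d)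
    (i : Fin m) (j : Fin n) (i' : Fin m) (j' : Fin n) (hne : (i, j) ≠ (i', j')) :
    f i j i' j' + f i' j' i j ≤ ∑ a, ∑ b, ∑ a', ∑ b', f a b a' b' := by
  classical
  have h1 : ∑ a, ∑ b, ∑ a', ∑ b', f a b a' b' =
      ∑ p : (Fin m × Fin n) × (Fin m × Fin n), f p.1.1 p.1.2 p.2.1 p.2.2 := by
    simp only [Fintype.sum_prod_type]
  rw [h1]
  have hne' : (((i, j), (i', j')) : (Fin m × Fin n) × (Fin m × Fin n)) ≠ ((i', j'), (i, j)) := by
    intro h
    exact hne (congrArg Prod.fst h)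
  have h2 := Finset.sum_pair (f := fun p : (Fin m × Fin n) × (Fin m × Fin n) =>
    f p.1.1 p.1.2 p.2.1 p.2.2) hne'
  calc f i j i' j' + f i' j' i j = _ := h2.symm
    _ ≤ _ := Finset.sum_le_univ_sum_of_nonneg (fun p => hf _ _ _ _)

theorem pthSum_ge (h : Central lo hi r c) (hb : Bin lo hi) (h3 : 3 ≤ (slc lo hi r c).card) :
    (1 / 3 : ℝ) ≤ pthSum (slc lo hi r c) (lo + hi) := by
  classical
  set F := slc lo hi r c with hFdef
  set T := lo + hi with hT
  set N : ℝ := (F.card : ℝ) with hN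
  have hN3 : (3 : ℝ) ≤ N := by rw [hN]; exact_mod_cast h3
  -- the deviation product
  let ww : Mat m n → Fin m → Fin n → Fin m → Fin n → ℤ := fun X a b a' b' =>
    (2 * X a b - T a b) * (2 * X a' b' - T a' b')
  -- D indicator
  let D : Mat m n → Mat m n → Fin m → Fin n → Fin m → Fin n → ℝ := fun X X' a b a' b' =>
    if ww X a b a' b' * ww X' a b a' b' < 0 then 1 else 0
  have hD0 : ∀ X X' a b a' b', 0 ≤ D X X' a b a' b' := by
    intro X X' a b a' b'
    simp only [D]
    split_ifs <;> norm_num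
  set Ap : Fin m → Fin n → Fin m → Fin n → ℕ := fun a b a' b' =>
    (F.filter fun X => 0 < ww X a b a' b').card with hAp
  set Am : Fin m → Fin n → Fin m → Fin n → ℕ := fun a b a' b' =>
    (F.filter fun X => ww X a b a' b' < 0).card with hAm
  -- claim 1
  have hc1 : ∀ a b a' b', ∑ X ∈ F, ∑ X' ∈ F, D X X' a b a' b' ≤
      2 * ((Ap a b a' b' : ℝ) * Am a b a' b') := by
    intro a b a' b'
    have hsub : ((F ×ˢ F).filter fun p => ww p.1 a b a' b' * ww p.2 a b a' b' < 0) ⊆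
        ((F.filter fun X => 0 < ww X a b a' b') ×ˢ (F.filter fun X => ww X a b a' b' < 0)) ∪
        ((F.filter fun X => ww X a b a' b' < 0) ×ˢ (F.filter fun X => 0 < ww X a b a' b')) := by
      intro p hp
      have hp' := mem_filter.mp hp
      have hp2 := mem_product.mp hp'.1
      rw [mem_union, mem_product, mem_product, mem_filter, mem_filter, mem_filter, mem_filter]
      rcases neg_of_mul_neg_left hp'.2 |> fun _ => mul_neg_iff.mp hp'.2 with ⟨h4, h5⟩ | ⟨h4, h5⟩
      · exact Or.inl ⟨⟨hp2.1, h4⟩, ⟨hp2.2, h5⟩⟩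
      · exact Or.inr ⟨⟨hp2.1, h4⟩, ⟨hp2.2, h5⟩⟩
    have hcard : ((F ×ˢ F).filter fun p => ww p.1 a b a' b' * ww p.2 a b a' b' < 0).card ≤
        Ap a b a' b' * Am a b a' b' + Am a b a' b' * Ap a b a' b' := by
      calc _ ≤ _ := card_le_card hsub
        _ ≤ _ := card_union_le _ _
        _ = _ := by rw [card_product, card_product]
    have hval : ∑ X ∈ F, ∑ X' ∈ F, D X X' a b a' b' =
        (((F ×ˢ F).filter fun p => ww p.1 a b a' b' * ww p.2 a b a' b' < 0).card : ℝ) := by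
      rw [Finset.card_filter]
      push_cast
      rw [Finset.sum_product]
    rw [hval]
    have h5 : (((F ×ˢ F).filter fun p => ww p.1 a b a' b' * ww p.2 a b a' b' < 0).card : ℝ) ≤
        (Ap a b a' b' : ℝ) * Am a b a' b' + Am a b a' b' * Ap a b a' b' := by
      exact_mod_cast hcard
    linarith
  -- claim 2: two witnesses
  have hc2 : ∀ X ∈ F, ∀ X' ∈ F, X' ≠ X → X' ≠ T - X →
      2 ≤ ∑ a, ∑ b, ∑ a', ∑ b', D X X' a b a' b' := by
    intro X hX X' hX' hne1 hne2
    obtain ⟨i, j, hij⟩ : ∃ i j, X' i j ≠ X i j := by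
      by_contra hcon
      push Not at hcon
      exact hne1 (funext fun i => funext fun j => hcon i j)
    obtain ⟨i', j', hij'⟩ : ∃ i j, X' i j ≠ (T - X) i j := by
      by_contra hcon
      push Not at hcon
      exact hne2 (funext fun i => funext fun j => hcon i j)
    have e1 := bin_entry hX i j
    have e2 := bin_entry hX' i j
    have e3 := bin_entry hX i' j'
    have e4 := bin_entry hX' i' j'
    have b1 := hb i j
    have b2 := hb i' j'
    have hTa : T i j = lo i j + hi i j := rfl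
    have hTb : T i' j' = lo i' j' + hi i' j' := rfl
    have hij'' : X' i' j' ≠ lo i' j' + hi i' j' - X i' j' := by
      intro h; exact hij' (by rw [h]; rfl)
    -- values of the deviations
    have u1 : (2 * X' i j - T i j) = -(2 * X i j - T i j) := by omega
    have u2 : (2 * X' i' j' - T i' j') = (2 * X i' j' - T i' j') := by omega
    have u3 : (2 * X i j - T i j) ≠ 0 := by omega
    have u4 : (2 * X i' j' - T i' j') ≠ 0 := by omega
    have hneij : (i, j) ≠ (i', j') := by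
      intro he
      have h1 : i = i' := congrArg Prod.fst he
      have h2 : j = j' := congrArg Prod.snd he
      subst h1; subst h2
      exact u3 (by omega)
    have hneg : ww X i j i' j' * ww X' i j i' j' < 0 := by
      simp only [ww]
      rw [u1, u2]
      have h5 : 0 < (2 * X i j - T i j) ^ 2 * (2 * X i' j' - T i' j') ^ 2 :=
        mul_pos (by positivity) (by positivity)
      nlinarith
    have hneg' : ww X i' j' i j * ww X' i' j' i j < 0 := by
      simp only [ww]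
      rw [u1, u2]
      have h5 : 0 < (2 * X i j - T i j) ^ 2 * (2 * X i' j' - T i' j') ^ 2 :=
        mul_pos (by positivity) (by positivity)
      nlinarith
    have h6 := bin_two_le (D X X') (hD0 X X') i j i' j' hneij
    have h7 : D X X' i j i' j' = 1 := by simp only [D]; rw [if_pos hneg]
    have h8 : D X X' i' j' i j = 1 := by simp only [D]; rw [if_pos hneg']
    rw [h7, h8] at h6
    linarith
  -- inner count: each X has at least N - 2 good partners
  have hc3 : ∀ X ∈ F, 2 * (N - 2) ≤ ∑ X' ∈ F, ∑ a, ∑ b, ∑ a', ∑ b', D X X' a b a' b' := by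
    intro X hX
    have hnn : ∀ X' ∈ F, 0 ≤ ∑ a, ∑ b, ∑ a', ∑ b', D X X' a b a' b' := fun X' _ =>
      Finset.sum_nonneg fun a _ => Finset.sum_nonneg fun b _ => Finset.sum_nonneg fun a' _ =>
        Finset.sum_nonneg fun b' _ => hD0 _ _ _ _ _ _
    have hsub : (F.erase X).erase (T - X) ⊆ F :=
      (erase_subset _ _).trans (erase_subset _ _)
    have hcard : (F.card : ℝ) - 2 ≤ (((F.erase X).erase (T - X)).card : ℝ) := by
      have h4 := Finset.pred_card_le_card_erase (s := F.erase X) (a := T - X)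
      have h5 := Finset.pred_card_le_card_erase (s := F) (a := X)
      have h6 : F.card ≤ ((F.erase X).erase (T - X)).card + 2 := by omega
      have h7 : (F.card : ℝ) ≤ (((F.erase X).erase (T - X)).card : ℝ) + 2 := by exact_mod_cast h6
      linarith
    calc 2 * (N - 2) ≤ 2 * (((F.erase X).erase (T - X)).card : ℝ) := by
          rw [hN]; linarith
      _ = ∑ _X' ∈ (F.erase X).erase (T - X), (2 : ℝ) := by
          rw [Finset.sum_const, nsmul_eq_mul]; ring
      _ ≤ ∑ X' ∈ (F.erase X).erase (T - X), ∑ a, ∑ b, ∑ a', ∑ b', D X X' a b a' b' := by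
          refine Finset.sum_le_sum fun X' hX' => ?_
          have h4 := Finset.mem_erase.mp hX'
          have h5 := Finset.mem_erase.mp h4.2
          exact hc2 X hX X' h5.2 h5.1 h4.1
      _ ≤ ∑ X' ∈ F, ∑ a, ∑ b, ∑ a', ∑ b', D X X' a b a' b' :=
          Finset.sum_le_sum_of_subset_of_nonneg hsub fun X' hX' _ => hnn X' hX'
  -- exchange
  have hexch : ∑ X ∈ F, ∑ X' ∈ F, ∑ a, ∑ b, ∑ a', ∑ b', D X X' a b a' b' =
      ∑ a, ∑ b, ∑ a', ∑ b', ∑ X ∈ F, ∑ X' ∈ F, D X X' a b a' b' := by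
    have step : ∀ (s : Finset (Mat m n)) (G : Mat m n → Fin m → Fin n → Fin m → Fin n → ℝ),
        ∑ X ∈ s, ∑ a, ∑ b, ∑ a', ∑ b', G X a b a' b' =
          ∑ a, ∑ b, ∑ a', ∑ b', ∑ X ∈ s, G X a b a' b' := by
      intro s G
      rw [Finset.sum_comm]
      refine Finset.sum_congr rfl fun a _ => ?_
      rw [Finset.sum_comm]
      refine Finset.sum_congr rfl fun b _ => ?_
      rw [Finset.sum_comm]
      refine Finset.sum_congr rfl fun a' _ => ?_
      rw [Finset.sum_comm]
    calc ∑ X ∈ F, ∑ X' ∈ F, ∑ a, ∑ b, ∑ a', ∑ b', D X X' a b a' b'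
        = ∑ X ∈ F, ∑ a, ∑ b, ∑ a', ∑ b', ∑ X' ∈ F, D X X' a b a' b' :=
          Finset.sum_congr rfl fun X _ => step F (fun X' => D X X')
      _ = _ := step F (fun X a b a' b' => ∑ X' ∈ F, D X X' a b a' b')
  have hNpos : 0 < N := by linarith
  have hmain : 2 * (N * (N - 2)) ≤ 2 * ∑ a, ∑ b, ∑ a', ∑ b', (Ap a b a' b' : ℝ) * Am a b a' b' := by
    calc 2 * (N * (N - 2)) = ∑ _X ∈ F, 2 * (N - 2) := by
          rw [Finset.sum_const, nsmul_eq_mul]; ring
      _ ≤ ∑ X ∈ F, ∑ X' ∈ F, ∑ a, ∑ b, ∑ a', ∑ b', D X X' a b a' b' :=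
          Finset.sum_le_sum hc3
      _ = ∑ a, ∑ b, ∑ a', ∑ b', ∑ X ∈ F, ∑ X' ∈ F, D X X' a b a' b' := hexch
      _ ≤ ∑ a, ∑ b, ∑ a', ∑ b', 2 * ((Ap a b a' b' : ℝ) * Am a b a' b') :=
          Finset.sum_le_sum fun a _ => Finset.sum_le_sum fun b _ => Finset.sum_le_sum fun a' _ =>
            Finset.sum_le_sum fun b' _ => hc1 a b a' b'
      _ = _ := by simp only [Finset.mul_sum]
  have hpth : pthSum F T = (∑ a, ∑ b, ∑ a', ∑ b', (Ap a b a' b' : ℝ) * Am a b a' b') / N ^ 2 := by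
    unfold pthSum pth
    simp only [Finset.sum_div]
    rfl
  rw [hpth, le_div_iff₀ (by positivity)]
  nlinarith

end

end Vale.Agent.Lib.P328U
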