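import Vale.Agent.Lib.P328U.AnnealFinal
import Vale.Agent.Lib.P328U.FprasCore
import Vale.Agent.Lib.P328U.FprasMedian

/-!
The product estimator for the number of contingency tables: at each stage of the margin schedule,
draw `w` independent samples of the annealed sampler and record the fraction of those with a unit at
the cell which the schedule removes; the estimate is the product of the inverse fractions.
-/

namespace Vale.Agent.Lib.P328U

open Finset Vale.Agent.Lib.P328 Vale.Agent.Lib.P328Q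

noncomputable section

variable {m n : ℕ} [NeZero m] [NeZero n]

/-- The margins after `j` stages of the schedule: at each stage a unit is removed from the first
nonzero row and from the first column of largest margin. -/
def schedM (r : Fin m → ℕ) (c : Fin n → ℕ) : ℕ → (Fin m → ℕ) × (Fin n → ℕ)
  | 0 => (r, c)
  | j + 1 => (decM (schedM r c j).1 (pickR (schedM r c j).1),
      decM (schedM r c j).2 (pickC (schedM r c j).2))

/-- The tables of stage `j`. -/
def stageSet (r : Fin m → ℕ) (c : Fin n → ℕ) (N : ℕ) (j : Fin N) : Finset (Tb m (Fin n)) :=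
  Tab (schedM r c j).1 (schedM r c j).2

/-- The table has a unit at the cell which the schedule removes at stage `j`. -/
def stageHit (r : Fin m → ℕ) (c : Fin n → ℕ) (N : ℕ) (j : Fin N) (X : Tb m (Fin n)) : Prop :=
  1 ≤ X (pickR (schedM r c j).1) (pickC (schedM r c j).2)

instance (r : Fin m → ℕ) (c : Fin n → ℕ) (N : ℕ) (j : Fin N) :
    DecidablePred (stageHit r c N j) := fun X => by
  unfold stageHit
  exact inferInstance

/-- The law of a draw at stage `j`: the annealed sampler for the margins of this stage. -/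
def stageLaw (k : ℕ) (r : Fin m → ℕ) (c : Fin n → ℕ) (N : ℕ) (j : Fin N) : Tb m (Fin n) → ℝ :=
  anneal k (N - j) (schedM r c j).1 (schedM r c j).2

/-- The total of the margins along the schedule. -/
theorem schedM_sum {r : Fin m → ℕ} {c : Fin n → ℕ} {N : ℕ} (hr : ∑ i, r i = N) (hc : ∑ j, c j = N)
    (j : ℕ) (hj : j ≤ N) : ∑ i, (schedM r c j).1 i = N - j ∧ ∑ i, (schedM r c j).2 i = N - j := by
  induction j with
  | zero => exact ⟨hr, hc⟩
  | succ j ih =>
    obtain ⟨h1, h2⟩ := ih (by omega)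
    have hpos : 1 ≤ N - j := by omega
    have hr' : ∃ i, (schedM r c j).1 i ≠ 0 := by
      by_contra hcon
      have hcon : ∀ i, (schedM r c j).1 i = 0 := fun i => not_ne_iff.1 fun h => hcon ⟨i, h⟩
      simp only [hcon, sum_const_zero] at h1
      omega
    have hc' : ∃ i, (schedM r c j).2 i ≠ 0 := by
      by_contra hcon
      have hcon : ∀ i, (schedM r c j).2 i = 0 := fun i => not_ne_iff.1 fun h => hcon ⟨i, h⟩
      simp only [hcon, sum_const_zero] at h2
      omega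
    have ha := pickR_pos hr'
    have hb : 1 ≤ (schedM r c j).2 (pickC (schedM r c j).2) := by
      obtain ⟨i, hi⟩ := hc'
      have := pickC_max (schedM r c j).2 i
      omega
    have h3 := sum_decM _ ha
    have h4 := sum_decM _ hb
    constructor
    · show ∑ i, decM (schedM r c j).1 (pickR (schedM r c j).1) i = N - (j + 1)
      omega
    · show ∑ i, decM (schedM r c j).2 (pickC (schedM r c j).2) i = N - (j + 1)
      omega

/-- The facts on one stage. -/
theorem stage_facts {r' : Fin m → ℕ} {c' : Fin n → ℕ} {M : ℕ} (hM : 1 ≤ M) (h1 : ∑ i, r' i = M)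
    (h2 : ∑ i, c' i = M) :
    1 ≤ r' (pickR r') ∧ 1 ≤ c' (pickC c') ∧
      (Tab r' c').card ≤ n * (Tab (decM r' (pickR r')) (decM c' (pickC c'))).card := by
  have hr' : ∃ i, r' i ≠ 0 := by
    by_contra hcon
    have hcon : ∀ i, r' i = 0 := fun i => not_ne_iff.1 fun h => hcon ⟨i, h⟩
    simp only [hcon, sum_const_zero] at h1
    omega
  have hc' : ∃ i, c' i ≠ 0 := by
    by_contra hcon
    have hcon : ∀ i, c' i = 0 := fun i => not_ne_iff.1 fun h => hcon ⟨i, h⟩
    simp only [hcon, sum_const_zero] at h2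
    omega
  have ha := pickR_pos hr'
  have hb : 1 ≤ c' (pickC c') := by
    obtain ⟨i, hi⟩ := hc'
    have := pickC_max c' i
    omega
  exact ⟨ha, hb, card_Tab_le_mul ha (pickC_max c')⟩

omit [NeZero m] [NeZero n] in
/-- Only the zero table has zero margins. -/
theorem card_Tab_zero {r' : Fin m → ℕ} {c' : Fin n → ℕ} (h1 : ∑ i, r' i = 0) (h2 : ∑ i, c' i = 0) :
    (Tab r' c').card = 1 := by
  have hr0 : ∀ i, r' i = 0 := fun i => (sum_eq_zero_iff.1 h1) i (mem_univ _)
  have hc0 : ∀ j, c' j = 0 := fun j => (sum_eq_zero_iff.1 h2) j (mem_univ _)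
  have hTab : Tab r' c' = {fun _ _ => 0} := by
    ext X
    rw [mem_Tab, mem_singleton]
    constructor
    · rintro ⟨h3, _⟩
      funext i j
      have h4 := h3 i
      rw [hr0 i] at h4
      exact (sum_eq_zero_iff.1 h4) j (mem_univ _)
    · rintro rfl
      refine ⟨fun i => ?_, fun j => ?_⟩
      · simp [rowS, hr0 i]
      · simp [colS, hc0 j]
  rw [hTab]
  simp

/-- Telescoping of the ratios. -/
theorem prod_ratio_inv (f : ℕ → ℝ) (N : ℕ) (hf : ∀ j, j ≤ N → f j ≠ 0) :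
    ∏ j : Fin N, (f (j + 1) / f j)⁻¹ = f 0 / f N := by
  induction N with
  | zero => simp [div_self (hf 0 le_rfl)]
  | succ N ih =>
    rw [Fin.prod_univ_castSucc]
    simp only [Fin.val_castSucc, Fin.val_last]
    rw [ih fun j hj => hf j (by omega), inv_div]
    have := hf N (by omega)
    have := hf (N + 1) le_rfl
    field_simp

/-- The annealed law is a law on the tables. -/
theorem anneal_basic (hW : WeakTabForm m n) {r' : Fin m → ℕ} {c' : Fin n → ℕ} {M : ℕ}
    (h1 : ∑ i, r' i = M) (h2 : ∑ i, c' i = M) (k : ℕ) :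
    (∀ y, 0 ≤ anneal k M r' c' y) ∧ ∑ y ∈ Tab r' c', anneal k M r' c' y = 1 := by
  have hm : 1 ≤ m := Nat.one_le_iff_ne_zero.2 (NeZero.ne m)
  have hn : 1 ≤ n := Nat.one_le_iff_ne_zero.2 (NeZero.ne n)
  have hmpos : (0 : ℝ) < m := by exact_mod_cast hm
  have hnpos : (0 : ℝ) < n := by exact_mod_cast hn
  have hspec := anneal_spec
    (C := 2 ^ (0 + 0 + 1) * (m : ℝ) * ((m : ℝ) * n + 1))
    (δ := (2 : ℝ) ^ (0 + 1) * (3 / 4 * ((m : ℝ) * n) ^ 2 / 2 ^ 0) +
        2 * (2 / 3) ^ 0 * ((1 / 3) * ((m : ℝ) * n * (M : ℝ) ^ 4)))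
    (by positivity) (by positivity) M ?_ k M le_rfl r' c' h1 h2
  · exact ⟨hspec.1, hspec.2.2.1⟩
  · intro r'' c'' _ hN' g M' hM0 hM'
    exact weak_unif hW M 0 0 r'' c'' hN' g M' hM0 hM'

/-- One stage of the estimator: the annealed law gives nearly the right mass of the hit event. -/
theorem stage_close (hW : WeakTabForm m n) {r' : Fin m → ℕ} {c' : Fin n → ℕ} {M : ℕ} (hM : 1 ≤ M)
    (h1 : ∑ i, r' i = M) (h2 : ∑ i, c' i = M) {e : ℝ} (he0 : 0 < e) (he1 : e < 1) {k : ℕ}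
    (hk : 2 ^ 15 * (m : ℝ) ^ 10 * (n : ℝ) ^ 21 * (M : ℝ) ^ 28 / e ^ 12 ≤ k) :
    |∑ y ∈ (Tab r' c').filter (fun X => 1 ≤ X (pickR r') (pickC c')), anneal k M r' c' y -
      ((Tab (decM r' (pickR r')) (decM c' (pickC c'))).card : ℝ) / ((Tab r' c').card : ℝ)| ≤ e := by
  obtain ⟨ha, hb, _⟩ := stage_facts hM h1 h2
  obtain ⟨_, hq1⟩ := anneal_basic hW h1 h2 k
  have hne : (Tab r' c').Nonempty := Tab_nonempty M r' c' h1 h2
  have hN : (0 : ℝ) < ((Tab r' c').card : ℝ) := by exact_mod_cast card_pos.2 hne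
  have hu : ∑ _y ∈ Tab r' c', 1 / ((Tab r' c').card : ℝ) = 1 := by
    simp only [sum_const, nsmul_eq_mul]
    field_simp
  have hclose := mass_close (S := Tab r' c') (fun X : Tb m (Fin n) => 1 ≤ X (pickR r') (pickC c'))
    hq1 hu
  have htv := anneal_tv_final hW h1 h2 he0 he1 hk
  unfold tvUnif at htv
  have hval : ∑ _y ∈ (Tab r' c').filter (fun X => 1 ≤ X (pickR r') (pickC c')),
      1 / ((Tab r' c').card : ℝ) =
      ((Tab (decM r' (pickR r')) (decM c' (pickC c'))).card : ℝ) / ((Tab r' c').card : ℝ) := by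
    simp only [sum_const, nsmul_eq_mul]
    rw [card_filter_cell ha hb]
    ring
  rw [hval] at hclose
  exact le_trans hclose htv

/-- THE ESTIMATOR, given the weak Poincare inequality. -/
theorem fpras_of_weak (hW : WeakTabForm m n) {r : Fin m → ℕ} {c : Fin n → ℕ} {N : ℕ}
    (hr : ∑ i, r i = N) (hc : ∑ j, c j = N) {ε δ : ℝ} (hε0 : 0 < ε) (hε1 : ε < 1) (hδ0 : 0 < δ)
    (hδ1 : δ < 1) {k w : ℕ}
    (hk : 2 ^ 15 * (m : ℝ) ^ 10 * (n : ℝ) ^ 21 * (N : ℝ) ^ 28 *
      (8 * (n : ℝ) * ((N : ℝ) + 1)) ^ 12 / ε ^ 12 ≤ k)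
    (hw0 : 0 < w) (hw : 64 * (n : ℝ) * (N : ℝ) / (ε ^ 2 * δ) ≤ w) :
    1 - δ ≤ ∑ ω ∈ drawSpace (stageSet r c N) w,
      if (1 - ε) * ((Tab r c).card : ℝ) ≤ zHat (stageHit r c N) ω ∧
          zHat (stageHit r c N) ω ≤ (1 + ε) * ((Tab r c).card : ℝ) then
        drawWeight (stageLaw k r c N) ω else 0 := by
  have hn : 1 ≤ n := Nat.one_le_iff_ne_zero.2 (NeZero.ne n)
  have hm : 1 ≤ m := Nat.one_le_iff_ne_zero.2 (NeZero.ne m)
  have hn' : (1 : ℝ) ≤ n := by exact_mod_cast hn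
  have hm' : (1 : ℝ) ≤ m := by exact_mod_cast hm
  have hN1 : (0 : ℝ) < (N : ℝ) + 1 := by positivity
  have hsum := schedM_sum hr hc
  set f : ℕ → ℝ := fun j => ((Tab (schedM r c j).1 (schedM r c j).2).card : ℝ) with hf
  have hfpos : ∀ j, j ≤ N → 0 < f j := by
    intro j hj
    obtain ⟨h1, h2⟩ := hsum j hj
    have hne := Tab_nonempty (N - j) (schedM r c j).1 (schedM r c j).2 h1 h2
    simp only [hf]
    exact_mod_cast card_pos.2 hne
  set p : Fin N → ℝ := fun j => f (j + 1) / f j with hp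
  -- the two ends
  have hf0 : f 0 = ((Tab r c).card : ℝ) := rfl
  have hfN : f N = 1 := by
    obtain ⟨h1, h2⟩ := hsum N le_rfl
    simp only [Nat.sub_self] at h1 h2
    simp only [hf]
    rw [card_Tab_zero h1 h2]
    simp
  have hprod : ∏ j, (p j)⁻¹ = ((Tab r c).card : ℝ) := by
    have := prod_ratio_inv f N fun j hj => (hfpos j hj).ne'
    rw [hfN, hf0, div_one] at this
    exact this
  set e : ℝ := ε / (8 * (n : ℝ) * ((N : ℝ) + 1)) with he
  have he0 : 0 < e := by positivity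
  have he1 : e < 1 := by
    rw [he, div_lt_one (by positivity)]
    nlinarith [show (0 : ℝ) ≤ (N : ℝ) from Nat.cast_nonneg N]
  have hkM : ∀ M : ℕ, M ≤ N →
      2 ^ 15 * (m : ℝ) ^ 10 * (n : ℝ) ^ 21 * (M : ℝ) ^ 28 / e ^ 12 ≤ k := by
    intro M hM
    refine le_trans ?_ hk
    have h1 : (M : ℝ) ^ 28 ≤ (N : ℝ) ^ 28 :=
      pow_le_pow_left₀ (Nat.cast_nonneg M) (by exact_mod_cast hM) 28
    have e2 : 2 ^ 15 * (m : ℝ) ^ 10 * (n : ℝ) ^ 21 * (N : ℝ) ^ 28 *
        (8 * (n : ℝ) * ((N : ℝ) + 1)) ^ 12 / ε ^ 12 =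
        2 ^ 15 * (m : ℝ) ^ 10 * (n : ℝ) ^ 21 * (N : ℝ) ^ 28 / e ^ 12 := by
      rw [he, div_pow]
      have : (8 * (n : ℝ) * ((N : ℝ) + 1)) ≠ 0 := by positivity
      field_simp
    rw [e2]
    refine div_le_div_of_nonneg_right ?_ (by positivity)
    exact mul_le_mul_of_nonneg_left h1 (by positivity)
  have hfacts : ∀ j : Fin N, (∀ y, 0 ≤ stageLaw k r c N j y) ∧
      ∑ y ∈ stageSet r c N j, stageLaw k r c N j y = 1 := by
    intro j
    obtain ⟨h1, h2⟩ := hsum j j.2.le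
    exact anneal_basic hW h1 h2 k
  have hratio : ∀ j : Fin N, 1 / (n : ℝ) ≤ p j := by
    intro j
    obtain ⟨h1, h2⟩ := hsum j j.2.le
    have hM : 1 ≤ N - (j : ℕ) := by
      have := j.2
      omega
    obtain ⟨_, _, h3⟩ := stage_facts hM h1 h2
    have h4 : f j ≤ (n : ℝ) * f (j + 1) := by
      simp only [hf]
      exact_mod_cast h3
    have h5 := hfpos j j.2.le
    simp only [hp]
    rw [div_le_div_iff₀ (by positivity) h5]
    linarith
  have hclose : ∀ j : Fin N, |∑ y ∈ (stageSet r c N j).filter (stageHit r c N j),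
      stageLaw k r c N j y - p j| ≤ ε / (8 * (n : ℝ) * ((N : ℝ) + 1)) := by
    intro j
    obtain ⟨h1, h2⟩ := hsum j j.2.le
    have hM : 1 ≤ N - (j : ℕ) := by
      have := j.2
      omega
    exact stage_close hW hM h1 h2 he0 he1 (hkM _ (Nat.sub_le _ _))
  have key := fpras_core (S := stageSet r c N) (q := stageLaw k r c N) (w := w)
    (stageHit r c N) (fun j y _ => (hfacts j).1 y) (fun j => (hfacts j).2) p (n := (n : ℝ))
    hn' hratio hε0 hε1 hδ0 hδ1 hclose hw0 hw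
  rw [hprod] at key
  exact key

/-- The annealed law is a law on the tables, with its support there. -/
theorem anneal_facts (hW : WeakTabForm m n) {r' : Fin m → ℕ} {c' : Fin n → ℕ} {M : ℕ}
    (h1 : ∑ i, r' i = M) (h2 : ∑ i, c' i = M) (k : ℕ) :
    (∀ y, 0 ≤ anneal k M r' c' y) ∧ (∀ y, y ∉ Tab r' c' → anneal k M r' c' y = 0) ∧
      ∑ y ∈ Tab r' c', anneal k M r' c' y = 1 := by
  have hm : 1 ≤ m := Nat.one_le_iff_ne_zero.2 (NeZero.ne m)
  have hn : 1 ≤ n := Nat.one_le_iff_ne_zero.2 (NeZero.ne n)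
  have hmpos : (0 : ℝ) < m := by exact_mod_cast hm
  have hnpos : (0 : ℝ) < n := by exact_mod_cast hn
  have hspec := anneal_spec
    (C := 2 ^ (0 + 0 + 1) * (m : ℝ) * ((m : ℝ) * n + 1))
    (δ := (2 : ℝ) ^ (0 + 1) * (3 / 4 * ((m : ℝ) * n) ^ 2 / 2 ^ 0) +
        2 * (2 / 3) ^ 0 * ((1 / 3) * ((m : ℝ) * n * (M : ℝ) ^ 4)))
    (by positivity) (by positivity) M ?_ k M le_rfl r' c' h1 h2
  · exact ⟨hspec.1, hspec.2.1, hspec.2.2.1⟩
  · intro r'' c'' _ hN' g M' hM0 hM'
    exact weak_unif hW M 0 0 r'' c'' hN' g M' hM0 hM'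

/-- The draws at the stages form a law, given the weak Poincare inequality. -/
theorem stage_law_facts (hW : WeakTabForm m n) {r : Fin m → ℕ} {c : Fin n → ℕ} {N : ℕ}
    (hr : ∑ i, r i = N) (hc : ∑ j, c j = N) (k : ℕ) (j : Fin N) :
    (∀ y, 0 ≤ stageLaw k r c N j y) ∧ ∑ y ∈ stageSet r c N j, stageLaw k r c N j y = 1 := by
  obtain ⟨h1, h2⟩ := schedM_sum hr hc j j.2.le
  exact anneal_basic hW h1 h2 k

/-- THE ESTIMATOR WITH THE MEDIAN OF `T` REPETITIONS, given the weak Poincare inequality. -/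
theorem fpras_median_of_weak (hW : WeakTabForm m n) {r : Fin m → ℕ} {c : Fin n → ℕ} {N : ℕ}
    (hr : ∑ i, r i = N) (hc : ∑ j, c j = N) {ε δ : ℝ} (hε0 : 0 < ε) (hε1 : ε < 1) (hδ0 : 0 < δ)
    {k w T : ℕ}
    (hk : 2 ^ 15 * (m : ℝ) ^ 10 * (n : ℝ) ^ 21 * (N : ℝ) ^ 28 *
      (8 * (n : ℝ) * ((N : ℝ) + 1)) ^ 12 / ε ^ 12 ≤ k)
    (hw0 : 0 < w) (hw : 512 * (n : ℝ) * (N : ℝ) / ε ^ 2 ≤ w)
    (hT : 3 * Real.log (1 / δ) ≤ T) :
    1 - δ ≤ ∑ ω ∈ Fintype.piFinset (fun _ : Fin T => drawSpace (stageSet r c N) w),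
      if (1 - ε) * ((Tab r c).card : ℝ) ≤ medianOf (fun t => zHat (stageHit r c N) (ω t)) ∧
          medianOf (fun t => zHat (stageHit r c N) (ω t)) ≤ (1 + ε) * ((Tab r c).card : ℝ) then
        ∏ t, drawWeight (stageLaw k r c N) (ω t) else 0 := by
  have hfacts := stage_law_facts hW hr hc k
  have hq0 : ∀ j, ∀ y ∈ stageSet r c N j, 0 ≤ stageLaw k r c N j y := fun j y _ => (hfacts j).1 y
  have hq1 : ∀ j, ∑ y ∈ stageSet r c N j, stageLaw k r c N j y = 1 := fun j => (hfacts j).2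
  have hone := fpras_of_weak hW hr hc hε0 hε1 (δ := 1 / 8) (by norm_num) (by norm_num) hk hw0
    (by
      have e : 64 * (n : ℝ) * (N : ℝ) / (ε ^ 2 * (1 / 8)) = 512 * (n : ℝ) * (N : ℝ) / ε ^ 2 := by
        field_simp
        ring
      rw [e]
      exact hw)
  have hW0 : ∀ ω ∈ drawSpace (stageSet r c N) w, 0 ≤ drawWeight (stageLaw k r c N) ω :=
    fun ω hω => draw_nonneg hq0 hω
  have hW1 : ∑ ω ∈ drawSpace (stageSet r c N) w, drawWeight (stageLaw k r c N) ω = 1 :=
    draw_mass hq1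
  have hbad : (∑ ω ∈ drawSpace (stageSet r c N) w,
      if (1 - ε) * ((Tab r c).card : ℝ) ≤ zHat (stageHit r c N) ω ∧
          zHat (stageHit r c N) ω ≤ (1 + ε) * ((Tab r c).card : ℝ) then
        0 else drawWeight (stageLaw k r c N) ω) ≤ 1 / 8 := by
    have hsplit : ∑ ω ∈ drawSpace (stageSet r c N) w, drawWeight (stageLaw k r c N) ω =
        (∑ ω ∈ drawSpace (stageSet r c N) w,
          if (1 - ε) * ((Tab r c).card : ℝ) ≤ zHat (stageHit r c N) ω ∧
            zHat (stageHit r c N) ω ≤ (1 + ε) * ((Tab r c).card : ℝ) then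
          drawWeight (stageLaw k r c N) ω else 0) +
        ∑ ω ∈ drawSpace (stageSet r c N) w,
          if (1 - ε) * ((Tab r c).card : ℝ) ≤ zHat (stageHit r c N) ω ∧
            zHat (stageHit r c N) ω ≤ (1 + ε) * ((Tab r c).card : ℝ) then
          0 else drawWeight (stageLaw k r c N) ω := by
      rw [← sum_add_distrib]
      refine sum_congr rfl fun ω _ => ?_
      split_ifs <;> simp
    rw [hW1] at hsplit
    linarith
  have hboost := median_boost hW0 hW1 (zHat (stageHit r c N)) hbad T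
  have h23 := two_thirds_pow_le hδ0 hT
  linarith

end

end Vale.Agent.Lib.P328U
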