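import Mathlib

/-!
The product estimator: `w` independent draws at each of `N` stages, each stage giving the fraction
of its draws in an event, and the estimate being the product of the inverse fractions.
-/

namespace Vale.Agent.Lib.P328U

open Finset

noncomputable section

variable {X : Type*}

/-- All results of `w` draws at each of `N` stages, the draws of stage `j` lying in `S j`. -/
def drawSpace {N : ℕ} (S : Fin N → Finset X) (w : ℕ) : Finset (Fin N → Fin w → X) :=
  Fintype.piFinset fun j => Fintype.piFinset fun _ => S j

/-- The probability of a result when all draws are independent and a draw of stage `j`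
has law `q j`. -/
def drawWeight {N w : ℕ} (q : Fin N → X → ℝ) (ω : Fin N → Fin w → X) : ℝ :=
  ∏ j, ∏ i, q j (ω j i)

/-- The number of draws with property `A`. -/
def hitCount {w : ℕ} (A : X → Prop) [DecidablePred A] (x : Fin w → X) : ℕ :=
  (univ.filter fun i => A (x i)).card

/-- The product estimate: the product over the stages of the inverse of the fraction of draws
with the property `A j` (with the convention `w / 0 = 0`). -/
def zHat {N w : ℕ} (A : Fin N → X → Prop) [∀ j, DecidablePred (A j)] (ω : Fin N → Fin w → X) : ℝ :=
  ∏ j, (w : ℝ) / (hitCount (A j) (ω j) : ℝ)

/-- The probability of an event under independent draws. -/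
def drawProb {N w : ℕ} (S : Fin N → Finset X) (q : Fin N → X → ℝ)
    (E : (Fin N → Fin w → X) → Prop) [DecidablePred E] : ℝ :=
  ∑ ω ∈ drawSpace S w, if E ω then drawWeight q ω else 0

end

end Vale.Agent.Lib.P328U
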