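import Mathlib

/-!
The median of finitely many real numbers.
-/

namespace Vale.Agent.Lib.P328U

open Finset

/-- The median of `v 0, ..., v (T - 1)`: the smallest of these values such that more than half of
the values are at most this value. -/
noncomputable def medianOf {T : ℕ} (v : Fin T → ℝ) : ℝ :=
  sInf {x | ∃ i, x = v i ∧ T < 2 * (univ.filter fun i' => v i' ≤ v i).card}

end Vale.Agent.Lib.P328U
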