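import Vale.Agent.Lib.P328U.Basic
import Vale.Agent.Lib.P328Q.BoxSlice

namespace Vale.Agent.Lib.P328U

open Finset Vale.Agent.Lib.P328Q
open scoped Pointwise

noncomputable section

variable {m n : ℕ} {lo hi : Mat m n} {r : Fin m → ℤ} {c : Fin n → ℤ}

theorem kap_nonneg (g : Mat m n → ℝ) (a : Fin m) (b : Fin n) (V : Mat m n) : 0 ≤ kap g a b V := by
  unfold kap
  refine Finset.sum_nonneg fun i _ => Finset.sum_nonneg fun b' _ => ?_
  split_ifs
  · positivity
  · exact le_rfl

theorem DD_nonneg (g : Mat m n → ℝ) (lo hi : Mat m n) (r : Fin m → ℤ) (c : Fin n → ℤ) :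
    0 ≤ DD g lo hi r c := by
  unfold DD
  exact Finset.sum_nonneg fun a _ => Finset.sum_nonneg fun b _ => Finset.sum_nonneg fun V _ =>
    kap_nonneg g a b V

/-- one step bound of the load, general form -/
theorem sum_DD_fib_le (g : Mat m n → ℝ) {ρ : ℝ} (hρ : ∀ a b, ((nearP lo hi r c a b).card : ℝ) ≤ ρ) :
    ∑ U ∈ slc lo hi r c + slc lo hi r c, DD g (loF lo hi U) (hiF lo hi U) r c ≤ ρ * DD g lo hi r c := by
  classical
  set F := slc lo hi r c with hF
  have hK : ∀ a b, ∑ U ∈ F + F, ∑ V ∈ nearM (loF lo hi U) (hiF lo hi U) r c a b, kap g a b V ≤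
      ρ * ∑ V ∈ nearM lo hi r c a b, kap g a b V := by
    intro a b
    have hU : ∀ U ∈ F + F, ∑ V ∈ nearM (loF lo hi U) (hiF lo hi U) r c a b, kap g a b V =
        ∑ V ∈ nearM lo hi r c a b, if U - V ∈ nearP lo hi r c a b then kap g a b V else 0 := by
      intro U hU
      have hmarg : rowSum U = 2 • r ∧ colSum U = 2 • c := margins_of_mem_add hU
      rw [← Finset.sum_filter]
      refine Finset.sum_congr ?_ fun _ _ => rfl
      ext V
      rw [mem_nearM_fib hmarg, mem_filter]
    rw [Finset.sum_congr rfl hU, Finset.sum_comm, Finset.mul_sum]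
    refine Finset.sum_le_sum fun V _ => ?_
    have hk := kap_nonneg g a b V
    have hcount : ∑ U ∈ F + F, (if U - V ∈ nearP lo hi r c a b then kap g a b V else 0) ≤
        ((nearP lo hi r c a b).card : ℝ) * kap g a b V := by
      rw [← Finset.sum_filter, Finset.sum_const, nsmul_eq_mul]
      refine mul_le_mul_of_nonneg_right ?_ hk
      have : ((F + F).filter fun U => U - V ∈ nearP lo hi r c a b).card ≤
          (nearP lo hi r c a b).card := by
        refine Finset.card_le_card_of_injOn (fun U => U - V) ?_ ?_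
        · intro U hU
          exact (mem_filter.mp hU).2
        · intro x _ y _ h
          exact sub_left_injective h
      exact_mod_cast this
    exact hcount.trans (mul_le_mul_of_nonneg_right (hρ a b) hk)
  calc ∑ U ∈ F + F, DD g (loF lo hi U) (hiF lo hi U) r c
      = ∑ a, ∑ b, ∑ U ∈ F + F, ∑ V ∈ nearM (loF lo hi U) (hiF lo hi U) r c a b, kap g a b V := by
        unfold DD
        rw [Finset.sum_comm]
        refine Finset.sum_congr rfl fun a _ => ?_
        rw [Finset.sum_comm]
    _ ≤ ∑ a, ∑ b, ρ * ∑ V ∈ nearM lo hi r c a b, kap g a b V :=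
        Finset.sum_le_sum fun a _ => Finset.sum_le_sum fun b _ => hK a b
    _ = ρ * DD g lo hi r c := by
        unfold DD
        simp only [Finset.mul_sum]

/-- one step bound of the load functional on a central slice -/
theorem QQ_step (g : Mat m n → ℝ) (h : Central lo hi r c) :
    avg (slc lo hi r c) (fun U => QQ g (loF lo hi U) (hiF lo hi U) r c) ≤ QQ g lo hi r c := by
  classical
  set F := slc lo hi r c with hF
  unfold avg QQ
  rw [← hF]
  rcases Nat.eq_zero_or_pos F.card with h0 | hpos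
  · rw [h0]; simp
  have hfpos : (0 : ℝ) < F.card := by exact_mod_cast hpos
  have hterm : ∀ U ∈ F + F, ((fib F U).card : ℝ) *
      (DD g (loF lo hi U) (hiF lo hi U) r c / ((slc (loF lo hi U) (hiF lo hi U) r c).card : ℝ)) ≤
      DD g (loF lo hi U) (hiF lo hi U) r c := by
    intro U hU
    have hmarg : rowSum U = 2 • r ∧ colSum U = 2 • c := margins_of_mem_add hU
    have hfib : fib F U = slc (loF lo hi U) (hiF lo hi U) r c := fib_slc hmarg
    rw [← hfib]
    have hDD := DD_nonneg g (loF lo hi U) (hiF lo hi U) r c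
    rcases Nat.eq_zero_or_pos (fib F U).card with h0 | hpos'
    · rw [h0]; simpa using hDD
    · have hc0 : ((fib F U).card : ℝ) ≠ 0 := by
        have : (0 : ℝ) < (fib F U).card := by exact_mod_cast hpos'
        exact this.ne'
      rw [mul_div_cancel₀ _ hc0]
  have hρ : ∀ a b, ((nearP lo hi r c a b).card : ℝ) ≤ (F.card : ℝ) := by
    intro a b
    exact_mod_cast card_nearP_le h a b
  have hsum := sum_DD_fib_le g hρ
  rw [← hF] at hsum
  rw [div_le_iff₀ (by positivity)]
  calc ∑ U ∈ F + F, ((fib F U).card : ℝ) *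
        (DD g (loF lo hi U) (hiF lo hi U) r c / ((slc (loF lo hi U) (hiF lo hi U) r c).card : ℝ))
      ≤ ∑ U ∈ F + F, DD g (loF lo hi U) (hiF lo hi U) r c := Finset.sum_le_sum hterm
    _ ≤ (F.card : ℝ) * DD g lo hi r c := hsum
    _ = DD g lo hi r c / (F.card : ℝ) * (F.card : ℝ) ^ 2 := by
        field_simp

/-- restriction to a smaller box -/
theorem DD_mono (g : Mat m n → ℝ) {lo' hi' : Mat m n} (hlo : lo ≤ lo') (hhi : hi' ≤ hi) :
    DD g lo' hi' r c ≤ DD g lo hi r c := by
  classical
  unfold DD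
  refine Finset.sum_le_sum fun a _ => Finset.sum_le_sum fun b _ => ?_
  refine Finset.sum_le_sum_of_subset_of_nonneg ?_ (fun V _ _ => kap_nonneg g a b V)
  intro V hV
  unfold nearM slc Vale.Agent.Lib.P328Q.box at hV ⊢
  simp only [mem_filter, Fintype.mem_piFinset, mem_Icc] at hV ⊢
  refine ⟨fun i j => ⟨le_trans (hlo i j) (hV.1 i j).1, le_trans (hV.1 i j).2 (hhi i j)⟩, hV.2⟩

end

end Vale.Agent.Lib.P328U
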