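import Vale.Agent.Lib.P328U.Avg
import Vale.Agent.Lib.P328U.Square

/-! Wide cells die out: the moment inequality for symmetric unimodal laws on one parity class,
the contraction of the quartic functional, and the inner box of a central slice. -/

namespace Vale.Agent.Lib.P328U

open Finset Vale.Agent.Lib.P328Q
open scoped Pointwise

/-- The test polynomial. -/
private noncomputable def mq (l u : ℝ) : ℝ := 5 * u ^ 4 + 4 * u ^ 2 - 18 * l * u ^ 2 + 9 * l ^ 2

/-- The layer sum of the test polynomial. -/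
private noncomputable def mQ (l s : ℝ) : ℝ := 9 * (s + 1) * (s * (s + 2) / 3 - l) ^ 2

private theorem mQ_step (l s : ℝ) : mQ l s + 2 * mq l (s + 2) = mQ l (s + 2) := by
  unfold mQ mq; ring

private theorem mQ_nonneg (l : ℝ) (s : ℕ) : 0 ≤ mQ l (s : ℝ) := by
  unfold mQ
  have : (0:ℝ) ≤ s := Nat.cast_nonneg s
  positivity

/-- The partial sums. -/
private noncomputable def mJ (a : ℤ → ℝ) (l : ℝ) (n : ℕ) : ℝ :=
  ∑ u ∈ Finset.Icc (-(n : ℤ)) n, a u * mq l (u : ℝ)

private theorem mq_neg (l u : ℝ) : mq l (-u) = mq l u := by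
  unfold mq; ring

private theorem mJ_succ (a : ℤ → ℝ) (hsymm : ∀ u, a (-u) = a u) (l : ℝ) (n : ℕ) :
    mJ a l (n + 1) = mJ a l n + 2 * (a ((n : ℤ) + 1) * mq l ((n : ℝ) + 1)) := by
  unfold mJ
  have e : Finset.Icc (-((n + 1 : ℕ) : ℤ)) ((n + 1 : ℕ) : ℤ) =
      insert ((n : ℤ) + 1) (insert (-((n : ℤ) + 1)) (Finset.Icc (-(n : ℤ)) n)) := by
    ext x
    simp only [Finset.mem_Icc, Finset.mem_insert]
    push_cast
    omega
  have h1 : -((n : ℤ) + 1) ∉ Finset.Icc (-(n : ℤ)) n := by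
    simp only [Finset.mem_Icc]; omega
  have h2 : (n : ℤ) + 1 ∉ insert (-((n : ℤ) + 1)) (Finset.Icc (-(n : ℤ)) n) := by
    simp only [Finset.mem_insert, Finset.mem_Icc]; omega
  rw [e, Finset.sum_insert h2, Finset.sum_insert h1, hsymm]
  have e1 : ((-((n : ℤ) + 1) : ℤ) : ℝ) = -((n : ℝ) + 1) := by push_cast; ring
  have e2 : (((n : ℤ) + 1 : ℤ) : ℝ) = (n : ℝ) + 1 := by push_cast; ring
  rw [e1, e2, mq_neg]
  ring

/-- The Abel summation along a parity class. -/
private theorem mJ_layer (a : ℤ → ℝ) (hsymm : ∀ u, a (-u) = a u)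
    (hanti : ∀ u, 0 ≤ u → a (u + 2) ≤ a u) (l : ℝ) (e : ℕ)
    (hzero : ∀ τ : ℕ, a (((e + 2 * τ + 1 : ℕ) : ℤ)) = 0)
    (hbase : a (e : ℤ) * mQ l (e : ℝ) ≤ mJ a l e) (τ : ℕ) :
    a (((e + 2 * τ : ℕ) : ℤ)) * mQ l ((e + 2 * τ : ℕ) : ℝ) ≤ mJ a l (e + 2 * τ) := by
  induction τ with
  | zero => simpa using hbase
  | succ τ ih =>
    have h1 := mJ_succ a hsymm l (e + 2 * τ)
    have h2 := mJ_succ a hsymm l (e + 2 * τ + 1)
    have hz := hzero τ
    have e1 : (((e + 2 * τ : ℕ) : ℤ) + 1) = ((e + 2 * τ + 1 : ℕ) : ℤ) := by push_cast; ring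
    rw [e1, hz] at h1
    have e2 : e + 2 * (τ + 1) = e + 2 * τ + 1 + 1 := by ring
    rw [e2, h2, h1]
    have e3 : (((e + 2 * τ + 1 : ℕ) : ℤ) + 1) = ((e + 2 * τ : ℕ) : ℤ) + 2 := by push_cast; ring
    have e4 : (((e + 2 * τ + 1 + 1 : ℕ) : ℤ)) = ((e + 2 * τ : ℕ) : ℤ) + 2 := by push_cast; ring
    have e5 : (((e + 2 * τ + 1 : ℕ) : ℝ) + 1) = ((e + 2 * τ : ℕ) : ℝ) + 2 := by push_cast; ring
    have e6 : (((e + 2 * τ + 1 + 1 : ℕ) : ℝ)) = ((e + 2 * τ : ℕ) : ℝ) + 2 := by push_cast; ring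
    rw [e3, e4, e5, e6, ← mQ_step]
    have hanti' := hanti ((e + 2 * τ : ℕ) : ℤ) (by positivity)
    have hq := mQ_nonneg l (e + 2 * τ)
    have := mul_le_mul_of_nonneg_right hanti' hq
    nlinarith

/-- All partial sums are nonnegative. -/
private theorem mJ_nonneg (a : ℤ → ℝ) (hnonneg : ∀ u, 0 ≤ a u) (hsymm : ∀ u, a (-u) = a u)
    (hpar : (∀ u, a u ≠ 0 → Even u) ∨ (∀ u, a u ≠ 0 → Odd u))
    (hanti : ∀ u, 0 ≤ u → a (u + 2) ≤ a u) (l : ℝ) (K : ℕ) : 0 ≤ mJ a l K := by
  have hz : mJ a l 0 = a 0 * mq l 0 := by simp [mJ]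
  have step0 : ∀ n : ℕ, a ((n : ℤ) + 1) = 0 → 0 ≤ mJ a l n → 0 ≤ mJ a l (n + 1) := by
    intro n h0 h1
    rw [mJ_succ a hsymm, h0]
    simpa using h1
  rcases hpar with hpar | hpar
  · -- even
    have hodd : ∀ τ : ℕ, a (((0 + 2 * τ + 1 : ℕ) : ℤ)) = 0 := by
      intro τ
      by_contra hne
      have := hpar _ hne
      rw [Int.even_coe_nat] at this
      have h2 : ¬ Even (0 + 2 * τ + 1) := by simp
      exact h2 this
    have hlay := mJ_layer a hsymm hanti l 0 hodd (by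
      simp only [Nat.cast_zero]
      rw [hz]
      unfold mQ mq
      apply le_of_eq
      ring)
    have hev : ∀ τ : ℕ, 0 ≤ mJ a l (2 * τ) := by
      intro τ
      have h1 := hlay τ
      have h2 := mul_nonneg (hnonneg ((0 + 2 * τ : ℕ) : ℤ)) (mQ_nonneg l (0 + 2 * τ))
      have h3 := h2.trans h1
      simpa using h3
    rcases Nat.even_or_odd' K with ⟨τ, rfl | rfl⟩
    · exact hev τ
    · refine step0 _ ?_ (hev τ)
      have := hodd τ
      have e : ((0 + 2 * τ + 1 : ℕ) : ℤ) = ((2 * τ : ℕ) : ℤ) + 1 := by push_cast; ring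
      rwa [e] at this
  · -- odd
    have h00 : a 0 = 0 := by
      by_contra hne
      have := hpar _ hne
      simp at this
    have heven : ∀ τ : ℕ, a (((1 + 2 * τ + 1 : ℕ) : ℤ)) = 0 := by
      intro τ
      by_contra hne
      have := hpar _ hne
      rw [Int.odd_coe_nat] at this
      have h2 : ¬ Odd (1 + 2 * τ + 1) := by
        rw [Nat.not_odd_iff_even]
        exact ⟨τ + 1, by ring⟩
      exact h2 this
    have hJ0 : mJ a l 0 = 0 := by rw [hz, h00, zero_mul]
    have hlay := mJ_layer a hsymm hanti l 1 heven (by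
      have := mJ_succ a hsymm l 0
      simp only [Nat.cast_zero, zero_add] at this
      rw [this, hJ0]
      simp only [Nat.cast_one]
      unfold mQ mq
      apply le_of_eq
      ring)
    have hod : ∀ τ : ℕ, 0 ≤ mJ a l (1 + 2 * τ) := by
      intro τ
      have h1 := hlay τ
      have h2 := mul_nonneg (hnonneg ((1 + 2 * τ : ℕ) : ℤ)) (mQ_nonneg l (1 + 2 * τ))
      exact h2.trans h1
    rcases Nat.even_or_odd' K with ⟨τ, rfl | rfl⟩
    · cases τ with
      | zero => simp [hJ0]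
      | succ τ =>
        have e : 2 * (τ + 1) = (1 + 2 * τ) + 1 := by ring
        rw [e]
        refine step0 _ ?_ (hod τ)
        exact_mod_cast heven τ
    · have e : 2 * τ + 1 = 1 + 2 * τ := by ring
      rw [e]
      exact hod τ

/-- moment inequality: symmetric, on one parity class, nonincreasing away from zero -/
theorem moment_ineq (a : ℤ → ℝ) (K : ℕ) (hnonneg : ∀ u, 0 ≤ a u) (hsymm : ∀ u, a (-u) = a u)
    (hpar : (∀ u, a u ≠ 0 → Even u) ∨ (∀ u, a u ≠ 0 → Odd u))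
    (hanti : ∀ u, 0 ≤ u → a (u + 2) ≤ a u)
    (_hsupp : ∀ u, a u ≠ 0 → |u| ≤ K) :
    let S := fun (k : ℕ) => ∑ u ∈ Finset.Icc (-(K : ℤ)) K, a u * (u : ℝ) ^ k
    9 * S 2 ^ 2 ≤ S 0 * (5 * S 4 + 4 * S 2) := by
  intro S
  have hJ : ∀ l : ℝ, 0 ≤ 5 * S 4 + 4 * S 2 - 18 * l * S 2 + 9 * l ^ 2 * S 0 := by
    intro l
    have e : 5 * S 4 + 4 * S 2 - 18 * l * S 2 + 9 * l ^ 2 * S 0 = mJ a l K := by
      simp only [S, mJ, Finset.mul_sum]
      rw [← Finset.sum_add_distrib, ← Finset.sum_sub_distrib, ← Finset.sum_add_distrib]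
      refine Finset.sum_congr rfl fun u _ => ?_
      unfold mq
      ring
    rw [e]
    exact mJ_nonneg a hnonneg hsymm hpar hanti l K
  have hS0 : 0 ≤ S 0 := by
    refine Finset.sum_nonneg fun u _ => ?_
    simpa using hnonneg u
  rcases hS0.eq_or_lt with h0 | hpos
  · have h2 : S 2 = 0 := by
      by_contra hne
      have := hJ ((5 * S 4 + 4 * S 2 + 1) / (18 * S 2))
      have e : 18 * ((5 * S 4 + 4 * S 2 + 1) / (18 * S 2)) * S 2 = 5 * S 4 + 4 * S 2 + 1 := by
        field_simp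
      rw [e, ← h0] at this
      linarith
    rw [h2, ← h0]
    norm_num
  · have := hJ (S 2 / S 0)
    have e1 : 18 * (S 2 / S 0) * S 2 = 18 * (S 2 ^ 2 / S 0) := by field_simp
    have e2 : 9 * (S 2 / S 0) ^ 2 * S 0 = 9 * (S 2 ^ 2 / S 0) := by field_simp
    rw [e1, e2] at this
    have h3 : 9 * (S 2 ^ 2 / S 0) ≤ 5 * S 4 + 4 * S 2 := by linarith
    have h4 : 9 * S 2 ^ 2 = S 0 * (9 * (S 2 ^ 2 / S 0)) := by field_simp
    rw [h4]
    exact mul_le_mul_of_nonneg_left h3 hS0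

/-! ### The quartic functional -/

section Quartic

variable {m n : ℕ} {lo hi : Mat m n} {r : Fin m → ℤ} {c : Fin n → ℤ}

theorem gg_nonneg (u : ℤ) : 0 ≤ gg u := by
  unfold gg
  have h : (u : ℝ) ^ 4 - (u : ℝ) ^ 2 = (u : ℝ) ^ 2 * ((u : ℝ) ^ 2 - 1) := by ring
  rw [h]
  rcases eq_or_ne u 0 with rfl | hu
  · simp
  · have h1 : 1 ≤ u ^ 2 := by
      have := Int.one_le_abs hu
      rw [← sq_abs]
      nlinarith
    have h2 : (1 : ℝ) ≤ (u : ℝ) ^ 2 := by exact_mod_cast h1
    exact mul_nonneg (sq_nonneg _) (by linarith)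

theorem gg_ge (u : ℤ) (hu : 2 ≤ |u|) : 12 ≤ gg u := by
  unfold gg
  have h1 : 4 ≤ u ^ 2 := by
    rw [← sq_abs]
    nlinarith
  have h2 : (4 : ℝ) ≤ (u : ℝ) ^ 2 := by exact_mod_cast h1
  nlinarith

theorem Th_nonneg (F : Finset (Mat m n)) (U : Mat m n) (i : Fin m) (j : Fin n) : 0 ≤ Th F U i j := by
  unfold Th
  exact div_nonneg (Finset.sum_nonneg fun _ _ => gg_nonneg _) (Nat.cast_nonneg _)

/-- The pair form of the fibre average of the quartic functional. -/
theorem avg_Th (F : Finset (Mat m n)) (i : Fin m) (j : Fin n) :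
    avg F (fun U => Th (fib F U) U i j) =
      (∑ x ∈ F, ∑ y ∈ F, gg (x i j - y i j)) / (F.card : ℝ) ^ 2 := by
  have := avg_mean_fib F (fun U X => gg (2 * X i j - U i j))
  unfold Th
  rw [this]
  congr 1
  refine Finset.sum_congr rfl fun x _ => Finset.sum_congr rfl fun y _ => ?_
  congr 1
  simp only [Pi.add_apply]
  ring

/-- start of the quartic functional, on a set with entries in `[0, N]` -/
theorem top_Th_le (F : Finset (Mat m n)) (N : ℤ) (hbox : ∀ X ∈ F, ∀ i j, 0 ≤ X i j ∧ X i j ≤ N)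
    (i : Fin m) (j : Fin n) :
    avg F (fun U => Th (fib F U) U i j) ≤ (N : ℝ) ^ 4 := by
  rw [avg_Th]
  have hN : (0 : ℝ) ≤ (N : ℝ) ^ 4 := by positivity
  rcases F.eq_empty_or_nonempty with rfl | hne
  · simpa using hN
  have hA : (0 : ℝ) < (F.card : ℝ) := by exact_mod_cast Finset.card_pos.2 hne
  rw [div_le_iff₀ (by positivity)]
  have hterm : ∀ x ∈ F, ∀ y ∈ F, gg (x i j - y i j) ≤ (N : ℝ) ^ 4 := by
    intro x hx y hy
    obtain ⟨h1, h2⟩ := hbox x hx i j
    obtain ⟨h3, h4⟩ := hbox y hy i j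
    have h5 : |x i j - y i j| ≤ N := by
      rw [abs_le]
      constructor <;> omega
    have h6 : |((x i j - y i j : ℤ) : ℝ)| ≤ (N : ℝ) := by
      have := (Int.cast_le (R := ℝ)).2 h5
      simpa using this
    unfold gg
    have h7 : ((x i j - y i j : ℤ) : ℝ) ^ 4 ≤ (N : ℝ) ^ 4 := by
      have := pow_le_pow_left₀ (abs_nonneg _) h6 4
      rwa [pow_abs, abs_of_nonneg (by positivity)] at this
    nlinarith [sq_nonneg (((x i j - y i j : ℤ) : ℝ))]
  calc ∑ x ∈ F, ∑ y ∈ F, gg (x i j - y i j)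
      ≤ ∑ x ∈ F, ∑ y ∈ F, (N : ℝ) ^ 4 :=
        Finset.sum_le_sum fun x hx => Finset.sum_le_sum fun y hy => hterm x hx y hy
    _ = (N : ℝ) ^ 4 * (F.card : ℝ) ^ 2 := by
        simp only [Finset.sum_const, nsmul_eq_mul]
        ring

/-- Expansion of the double sum of the quartic polynomial. -/
theorem double_sum_expand {α : Type*} (F : Finset α) (p : α → ℝ) :
    ∑ x ∈ F, ∑ y ∈ F, (((p x - p y) / 2) ^ 4 - ((p x - p y) / 2) ^ 2) =
      ((F.card : ℝ) * (∑ x ∈ F, p x ^ 4) + 3 * (∑ x ∈ F, p x ^ 2) ^ 2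
        - 4 * (∑ x ∈ F, p x) * (∑ x ∈ F, p x ^ 3)) / 8
      - ((F.card : ℝ) * (∑ x ∈ F, p x ^ 2) - (∑ x ∈ F, p x) ^ 2) / 2 := by
  have key : ∀ x y, ((p x - p y) / 2) ^ 4 - ((p x - p y) / 2) ^ 2 =
      (1 / 16) * (p x ^ 4 * 1) + (1 / 16) * (1 * p y ^ 4) + (6 / 16) * (p x ^ 2 * p y ^ 2)
        - (4 / 16) * (p x ^ 3 * p y) - (4 / 16) * (p x * p y ^ 3)
        - (1 / 4) * (p x ^ 2 * 1) - (1 / 4) * (1 * p y ^ 2) + (2 / 4) * (p x * p y) := by
    intro x y
    ring
  have ds : ∀ f g : α → ℝ, ∑ x ∈ F, ∑ y ∈ F, f x * g y = (∑ x ∈ F, f x) * ∑ y ∈ F, g y :=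
    fun f g => (Finset.sum_mul_sum _ _ _ _).symm
  have ds1 : ∀ f g : α → ℝ, ∀ k : ℝ, ∑ x ∈ F, ∑ y ∈ F, k * (f x * g y) =
      k * ((∑ x ∈ F, f x) * ∑ y ∈ F, g y) := by
    intro f g k
    rw [← ds, Finset.mul_sum]
    refine Finset.sum_congr rfl fun x _ => ?_
    rw [Finset.mul_sum]
  have hone : ∑ _x ∈ F, (1 : ℝ) = (F.card : ℝ) := by simp
  simp only [key, Finset.sum_add_distrib, Finset.sum_sub_distrib]
  rw [ds1 (fun x => p x ^ 4) (fun _ => 1), ds1 (fun _ => 1) (fun y => p y ^ 4),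
    ds1 (fun x => p x ^ 2) (fun y => p y ^ 2), ds1 (fun x => p x ^ 3) (fun y => p y),
    ds1 (fun x => p x) (fun y => p y ^ 3), ds1 (fun x => p x ^ 2) (fun _ => 1),
    ds1 (fun _ => 1) (fun y => p y ^ 2), ds1 (fun x => p x) (fun y => p y)]
  rw [hone]
  ring

/-- one step contraction of the quartic functional on a central slice -/
theorem Th_step (h : Central lo hi r c) (i : Fin m) (j : Fin n) :
    avg (slc lo hi r c) (fun U => Th (fib (slc lo hi r c) U) U i j) ≤
      (1 / 3) * Th (slc lo hi r c) (lo + hi) i j := by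
  classical
  rw [avg_Th]
  set F := slc lo hi r c with hF
  set T := (lo + hi) i j with hT
  rcases F.eq_empty_or_nonempty with hemp | hne
  · rw [hemp]
    simp [Th]
  have hA : (0 : ℝ) < (F.card : ℝ) := by exact_mod_cast Finset.card_pos.2 hne
  -- the deviation
  let uz : Mat m n → ℤ := fun X => 2 * X i j - T
  let p : Mat m n → ℝ := fun X => (uz X : ℝ)
  -- the mirror
  have hmir : ∀ X ∈ F, (lo + hi) - X ∈ F := fun X hX => sq_mirror h hX
  have hmiru : ∀ X, uz ((lo + hi) - X) = - uz X := by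
    intro X
    simp only [uz, Pi.sub_apply, ← hT]
    ring
  -- the first moment vanishes
  have hM1 : ∑ x ∈ F, p x = 0 := by
    have e : ∑ x ∈ F, p x = ∑ x ∈ F, p ((lo + hi) - x) := by
      refine Finset.sum_nbij' (fun X => (lo + hi) - X) (fun X => (lo + hi) - X) hmir hmir ?_ ?_ ?_
      · intro X _; simp
      · intro X _; simp
      · intro X _; simp
    have e2 : ∑ x ∈ F, p ((lo + hi) - x) = - ∑ x ∈ F, p x := by
      rw [← Finset.sum_neg_distrib]
      refine Finset.sum_congr rfl fun x _ => ?_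
      simp only [p, hmiru]
      push_cast
      ring
    linarith
  -- the law of the deviation
  let a : ℤ → ℝ := fun u => ((F.filter fun X => uz X = u).card : ℝ)
  let K : ℕ := F.sup fun X => (uz X).natAbs
  have hmemK : ∀ X ∈ F, uz X ∈ Finset.Icc (-(K : ℤ)) K := by
    intro X hX
    have : (uz X).natAbs ≤ K := Finset.le_sup (f := fun X => (uz X).natAbs) hX
    rw [Finset.mem_Icc]
    omega
  have hS : ∀ k : ℕ, ∑ u ∈ Finset.Icc (-(K : ℤ)) K, a u * (u : ℝ) ^ k = ∑ x ∈ F, p x ^ k := by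
    intro k
    rw [← Finset.sum_fiberwise_of_maps_to hmemK]
    refine Finset.sum_congr rfl fun u _ => ?_
    have : ∀ x ∈ F.filter (fun X => uz X = u), p x ^ k = (u : ℝ) ^ k := by
      intro x hx
      simp only [p, (Finset.mem_filter.1 hx).2]
    rw [Finset.sum_congr rfl this]
    simp [a]
  -- the law is symmetric
  have ha_cnt : ∀ v : ℤ, a (2 * v - T) = (cnt F i j v : ℝ) := by
    intro v
    simp only [a, cnt, uz]
    congr 2
    ext X
    simp only [Finset.mem_filter, and_congr_right_iff]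
    intro _
    constructor <;> intro h' <;> omega
  have ha_zero : ∀ u : ℤ, ¬ Even (u + T) → a u = 0 := by
    intro u hu
    simp only [a, Nat.cast_eq_zero, Finset.card_eq_zero]
    refine Finset.filter_eq_empty_iff.2 fun X _ hX => hu ?_
    refine ⟨X i j, ?_⟩
    simp only [uz] at hX
    omega
  have hnonneg : ∀ u, 0 ≤ a u := fun u => Nat.cast_nonneg _
  have hsymm : ∀ u, a (-u) = a u := by
    intro u
    by_cases hu : Even (u + T)
    · obtain ⟨v, hv⟩ := hu
      have e1 : u = 2 * v - T := by omega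
      have e2 : -u = 2 * (T - v) - T := by omega
      rw [e2, e1, ha_cnt, ha_cnt]
      have := cnt_symm h i j v
      rw [← hT] at this
      rw [this]
    · have hu' : ¬ Even (-u + T) := by
        intro hh
        apply hu
        obtain ⟨v, hv⟩ := hh
        exact ⟨v + u, by omega⟩
      rw [ha_zero u hu, ha_zero _ hu']
  have hpar : (∀ u, a u ≠ 0 → Even u) ∨ (∀ u, a u ≠ 0 → Odd u) := by
    rcases Int.even_or_odd T with ⟨k, hk⟩ | ⟨k, hk⟩
    · left
      intro u hu
      by_contra hne'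
      apply hu
      apply ha_zero
      intro hh
      apply hne'
      obtain ⟨v, hv⟩ := hh
      exact ⟨v - k, by omega⟩
    · right
      intro u hu
      by_contra hne'
      apply hu
      apply ha_zero
      intro hh
      apply hne'
      obtain ⟨v, hv⟩ := hh
      exact ⟨v - k - 1, by omega⟩
  have hanti : ∀ u, 0 ≤ u → a (u + 2) ≤ a u := by
    intro u hu
    by_cases hev : Even (u + T)
    · obtain ⟨v, hv⟩ := hev
      have e1 : u = 2 * v - T := by omega
      have e2 : u + 2 = 2 * (v + 1) - T := by omega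
      rw [e2, ha_cnt]
      rw [e1, ha_cnt]
      have : cnt F i j (v + 1) ≤ cnt F i j v := cnt_antitone h i j (by omega)
      exact_mod_cast this
    · have hev' : ¬ Even (u + 2 + T) := by
        intro hh
        apply hev
        obtain ⟨v, hv⟩ := hh
        exact ⟨v - 1, by omega⟩
      rw [ha_zero _ hev']
      exact hnonneg u
  have hsupp : ∀ u, a u ≠ 0 → |u| ≤ K := by
    intro u hu
    simp only [a, ne_eq, Nat.cast_eq_zero, Finset.card_eq_zero] at hu
    obtain ⟨X, hX⟩ := Finset.nonempty_iff_ne_empty.2 hu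
    obtain ⟨hX1, hX2⟩ := Finset.mem_filter.1 hX
    have := hmemK X hX1
    rw [Finset.mem_Icc, hX2] at this
    exact abs_le.2 this
  have hmom := moment_ineq a K hnonneg hsymm hpar hanti hsupp
  simp only [hS] at hmom
  -- the moments
  set A : ℝ := (F.card : ℝ) with hAdef
  set V : ℝ := ∑ x ∈ F, p x ^ 2 with hV
  set W : ℝ := ∑ x ∈ F, p x ^ 4 with hW
  have h0 : ∑ x ∈ F, p x ^ 0 = A := by simp [hAdef]
  rw [h0] at hmom
  -- the double sum
  have hdouble : ∑ x ∈ F, ∑ y ∈ F, gg (x i j - y i j) = (A * W + 3 * V ^ 2) / 8 - A * V / 2 := by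
    have e : ∀ x y : Mat m n, gg (x i j - y i j) =
        ((p x - p y) / 2) ^ 4 - ((p x - p y) / 2) ^ 2 := by
      intro x y
      have e1 : (((x i j - y i j : ℤ) : ℝ)) = (p x - p y) / 2 := by
        simp only [p, uz]
        push_cast
        ring
      unfold gg
      rw [e1]
    simp only [e]
    rw [double_sum_expand, hM1]
    ring
  -- the right side
  have hright : Th F (lo + hi) i j = (W - V) / A := by
    unfold Th
    congr 1
    rw [hW, hV, ← Finset.sum_sub_distrib]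
    refine Finset.sum_congr rfl fun x _ => ?_
    rfl
  rw [hdouble, hright, div_le_iff₀ (by positivity)]
  have e3 : 1 / 3 * ((W - V) / A) * A ^ 2 = (W - V) * A / 3 := by
    field_simp
  rw [e3]
  nlinarith

end Quartic

/-! ### The inner box -/

section Inner

variable {m n : ℕ} {lo hi : Mat m n} {r : Fin m → ℤ} {c : Fin n → ℤ}

theorem inner_add (U : Mat m n) : inLo U + inHi U = U := by
  funext i j
  simp only [Pi.add_apply, inLo, inHi]
  ring

theorem inner_bin (U : Mat m n) : Bin (inLo U) (inHi U) := by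
  intro i j
  simp only [inLo, inHi]
  omega

theorem inner_central (h : Central lo hi r c) : Central (inLo (lo + hi)) (inHi (lo + hi)) r c := by
  rw [Central, inner_add]
  exact h

theorem inner_subset (hlh : ∀ i j, lo i j ≤ hi i j) :
    slc (inLo (lo + hi)) (inHi (lo + hi)) r c ⊆ slc lo hi r c := by
  intro X hX
  obtain ⟨h1, h2, h3⟩ := P328W.mem_slc.1 hX
  refine P328W.mem_slc.2 ⟨fun i j => ?_, h2, h3⟩
  have := h1 i j
  have h4 := hlh i j
  simp only [inLo, inHi, Pi.add_apply] at this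
  constructor <;> omega

/-- the points of a central slice outside the inner box are rare -/
theorem outer_le (hlh : ∀ i j, lo i j ≤ hi i j) :
    (((slc lo hi r c).card : ℝ) - (slc (inLo (lo + hi)) (inHi (lo + hi)) r c).card) /
      (slc lo hi r c).card ≤ (1 / 12) * ThSum (slc lo hi r c) (lo + hi) := by
  classical
  set F := slc lo hi r c with hF
  set I := slc (inLo (lo + hi)) (inHi (lo + hi)) r c with hI
  have hsub : I ⊆ F := inner_subset hlh
  rcases F.eq_empty_or_nonempty with hemp | hne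
  · have hIe : I = ∅ := Finset.subset_empty.1 (hemp ▸ hsub)
    simp [hemp, hIe, ThSum, Th]
  have hA : (0 : ℝ) < (F.card : ℝ) := by exact_mod_cast Finset.card_pos.2 hne
  rw [div_le_iff₀ hA]
  -- rewrite the card difference
  have hd : (F.card : ℝ) - I.card = ((F \ I).card : ℝ) := by
    rw [Finset.card_sdiff_of_subset hsub, Nat.cast_sub (Finset.card_le_card hsub)]
  rw [hd]
  -- every outer point has a wide cell
  have hout : ∀ X ∈ F \ I, 12 ≤ ∑ i, ∑ j, gg (2 * X i j - (lo + hi) i j) := by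
    intro X hX
    obtain ⟨hX1, hX2⟩ := Finset.mem_sdiff.1 hX
    obtain ⟨h1, h2, h3⟩ := P328W.mem_slc.1 hX1
    have : ∃ i j, 2 ≤ |2 * X i j - (lo + hi) i j| := by
      by_contra hh
      push Not at hh
      apply hX2
      refine P328W.mem_slc.2 ⟨fun i j => ?_, h2, h3⟩
      have h4 := hh i j
      rw [abs_lt] at h4
      simp only [inLo, inHi]
      constructor <;> omega
    obtain ⟨i0, j0, hw⟩ := this
    have e1 := gg_ge _ hw
    have e2 : gg (2 * X i0 j0 - (lo + hi) i0 j0) ≤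
        ∑ j, gg (2 * X i0 j - (lo + hi) i0 j) :=
      Finset.single_le_sum (f := fun j => gg (2 * X i0 j - (lo + hi) i0 j))
        (fun _ _ => gg_nonneg _) (Finset.mem_univ j0)
    have e3 : ∑ j, gg (2 * X i0 j - (lo + hi) i0 j) ≤
        ∑ i, ∑ j, gg (2 * X i j - (lo + hi) i j) :=
      Finset.single_le_sum (f := fun i => ∑ j, gg (2 * X i j - (lo + hi) i j))
        (fun _ _ => Finset.sum_nonneg fun _ _ => gg_nonneg _) (Finset.mem_univ i0)
    linarith
  -- sum
  have hsum : 12 * ((F \ I).card : ℝ) ≤ ∑ X ∈ F, ∑ i, ∑ j, gg (2 * X i j - (lo + hi) i j) := by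
    calc 12 * ((F \ I).card : ℝ) = ∑ _X ∈ F \ I, (12 : ℝ) := by
          simp only [Finset.sum_const, nsmul_eq_mul]
          ring
      _ ≤ ∑ X ∈ F \ I, ∑ i, ∑ j, gg (2 * X i j - (lo + hi) i j) := Finset.sum_le_sum hout
      _ ≤ ∑ X ∈ F, ∑ i, ∑ j, gg (2 * X i j - (lo + hi) i j) :=
          Finset.sum_le_sum_of_subset_of_nonneg Finset.sdiff_subset
            (fun _ _ _ => Finset.sum_nonneg fun _ _ => Finset.sum_nonneg fun _ _ => gg_nonneg _)
  have hTh : ThSum F (lo + hi) * (F.card : ℝ) = ∑ X ∈ F, ∑ i, ∑ j, gg (2 * X i j - (lo + hi) i j) := by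
    unfold ThSum Th
    rw [Finset.sum_mul]
    simp only [Finset.sum_mul, div_mul_cancel₀ _ hA.ne']
    rw [Finset.sum_comm (s := F) (t := Finset.univ)]
    refine Finset.sum_congr rfl fun i _ => ?_
    rw [Finset.sum_comm]
  nlinarith

end Inner

end Vale.Agent.Lib.P328U
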