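import Vale.Agent.Lib.P328U.Avg
import Vale.Agent.Lib.P328U.Bin
import Vale.Agent.Lib.P328U.Wide
import Vale.Agent.Lib.P328U.Load
import Vale.Agent.Lib.P328Q.BoxSlice
import Vale.Agent.Lib.P328Q.TwoPoint

/-!
The weak Poincare inequality for the `2 x 2` moves on all tables: assembly of the one step lemmas.
-/

namespace Vale.Agent.Lib.P328U

open Finset Vale.Agent.Lib.P328Q
open scoped Pointwise

noncomputable section

variable {m n : ℕ} {lo hi : Mat m n} {r : Fin m → ℤ} {c : Fin n → ℤ}

/-- Margins of a sum of two points of a slice. -/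
theorem main_margins {U : Mat m n} (hU : U ∈ slc lo hi r c + slc lo hi r c) :
    rowSum U = 2 • r ∧ colSum U = 2 • c := margins_of_mem_add hU

/-- The average of a finite sum. -/
theorem avg_sum {G : Type*} [AddCommGroup G] [DecidableEq G] {ι : Type*} (F : Finset G) (s : Finset ι)
    (φ : ι → G → ℝ) : avg F (fun U => ∑ k ∈ s, φ k U) = ∑ k ∈ s, avg F (φ k) := by
  unfold avg
  rw [← sum_div]
  congr 1
  simp only [mul_sum]
  rw [sum_comm]

/-- The average of an affine combination. -/
theorem avg_lin {G : Type*} [AddCommGroup G] [DecidableEq G] (F : Finset G) (A B C : ℝ) (hC : 0 ≤ C)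
    (φ ψ : G → ℝ) :
    avg F (fun U => A * φ U + (C + B * ψ U)) ≤ A * avg F φ + (C + B * avg F ψ) := by
  rw [avg_add F (fun U => A * φ U) (fun U => C + B * ψ U), avg_add F (fun _ => C) (fun U => B * ψ U),
    avg_const_mul F A φ, avg_const_mul F B ψ]
  linarith [avg_const_le F C hC]

/-- One step of the sum of the pair functional. -/
theorem pthSum_step (h : Central lo hi r c) (hb : Bin lo hi) :
    avg (slc lo hi r c) (fun U => pthSum (fib (slc lo hi r c) U) U) ≤
      (1 / 4) * pthSum (slc lo hi r c) (lo + hi) := by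
  unfold pthSum
  simp only [avg_sum, mul_sum]
  exact sum_le_sum fun i _ => sum_le_sum fun j _ => sum_le_sum fun i' _ => sum_le_sum fun j' _ =>
    pth_step h hb i j i' j'

/-- The sum of the pair functional is nonnegative. -/
theorem pthSum_nonneg (F : Finset (Mat m n)) (U : Mat m n) : 0 ≤ pthSum F U := by
  unfold pthSum
  exact sum_nonneg fun _ _ => sum_nonneg fun _ _ => sum_nonneg fun _ _ => sum_nonneg fun _ _ =>
    pth_nonneg _ _ _ _ _ _

/-- Upper bound for the sum of the pair functional. -/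
theorem pthSum_le (F : Finset (Mat m n)) (U : Mat m n) : pthSum F U ≤ ((m : ℝ) * n) ^ 2 / 4 := by
  unfold pthSum
  have h : ∀ i j i' j', pth F U i j i' j' ≤ 1 / 4 := fun i j i' j' => pth_le _ _ _ _ _ _
  calc _ ≤ ∑ _i : Fin m, ∑ _j : Fin n, ∑ _i' : Fin m, ∑ _j' : Fin n, (1 / 4 : ℝ) :=
        sum_le_sum fun i _ => sum_le_sum fun j _ => sum_le_sum fun i' _ => sum_le_sum fun j' _ => h i j i' j'
    _ = _ := by
        simp only [sum_const, card_univ, Fintype.card_fin, nsmul_eq_mul]
        ring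

/-- The sum of the quartic functional is nonnegative. -/
theorem ThSum_nonneg (F : Finset (Mat m n)) (U : Mat m n) : 0 ≤ ThSum F U := by
  unfold ThSum
  exact sum_nonneg fun _ _ => sum_nonneg fun _ _ => Th_nonneg _ _ _ _

/-- One step of the sum of the quartic functional. -/
theorem ThSum_step (h : Central lo hi r c) :
    avg (slc lo hi r c) (fun U => ThSum (fib (slc lo hi r c) U) U) ≤
      (1 / 3) * ThSum (slc lo hi r c) (lo + hi) := by
  unfold ThSum
  simp only [avg_sum, mul_sum]
  exact sum_le_sum fun i _ => sum_le_sum fun j _ => Th_step h i j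

/-- Slices with at most two points. -/
theorem vr_le_QQ_of_card_le_two (g : Mat m n → ℝ) (hlo : 0 ≤ lo) (hcard : (slc lo hi r c).card ≤ 2) :
    vr (slc lo hi r c) g ≤ ((m : ℝ) / 2) * QQ g lo hi r c := by
  classical
  set F := slc lo hi r c with hF
  have hQ0 : 0 ≤ QQ g lo hi r c := div_nonneg (DD_nonneg _ _ _ _ _) (Nat.cast_nonneg _)
  have hm0 : (0 : ℝ) ≤ (m : ℝ) / 2 := by positivity
  rcases Nat.lt_or_ge F.card 2 with h2 | h2
  · -- at most one point
    have hv : vr F g = 0 := by
      unfold vr wv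
      have hsub : F.card ≤ 1 := by omega
      have hzero : ∑ x ∈ F, ∑ y ∈ F, (g x - g y) ^ 2 = 0 := by
        refine Finset.sum_eq_zero fun x hx => Finset.sum_eq_zero fun y hy => ?_
        have hxy : x = y := Finset.card_le_one.1 hsub x hx y hy
        rw [hxy]
        simp
      rw [hzero]
      simp
    rw [hv]
    exact mul_nonneg hm0 hQ0
  · have h2' : F.card = 2 := le_antisymm hcard h2
    obtain ⟨Z, Z', hne, hZ⟩ := Finset.card_eq_two.1 h2'
    have hP := two_point g hlo hne (hF ▸ hZ)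
    have hv : vr F g = (g Z - g Z') ^ 2 / 4 := by
      unfold vr wv
      rw [h2', hZ, Finset.sum_pair hne, Finset.sum_pair hne, Finset.sum_pair hne]
      push_cast
      have : (g Z' - g Z) ^ 2 = (g Z - g Z') ^ 2 := by ring
      rw [this]
      simp only [sub_self]
      ring
    rw [hv]
    unfold QQ
    rw [← hF, h2']
    push_cast
    have : ((m : ℝ) / 2) * (DD g lo hi r c / 2) = (m : ℝ) * DD g lo hi r c / 4 := by ring
    rw [this]
    linarith

/-- Stage 2: binary central slices. -/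
theorem stage2 (g : Mat m n → ℝ) {M : ℝ} (hM0 : 0 ≤ M) (hM : ∀ lo hi : Mat m n, 0 ≤ lo → ∀ X ∈ slc lo hi r c, g X ^ 2 ≤ M)
    (t : ℕ) : ∀ {lo hi : Mat m n}, 0 ≤ lo → Central lo hi r c → Bin lo hi →
      vr (slc lo hi r c) g ≤ 2 ^ t * ((m : ℝ) / 2) * QQ g lo hi r c +
        3 * M / 2 ^ t * pthSum (slc lo hi r c) (lo + hi) := by
  induction t with
  | zero =>
    intro lo hi hlo hC hb
    by_cases h3 : 3 ≤ (slc lo hi r c).card
    · have h1 := pthSum_ge hC hb h3
      have h2 : vr (slc lo hi r c) g ≤ M := vr_le_of_sq_le (hM lo hi hlo) hM0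
      have h4 : 0 ≤ QQ g lo hi r c := div_nonneg (DD_nonneg _ _ _ _ _) (Nat.cast_nonneg _)
      have h5 : (0 : ℝ) ≤ (m : ℝ) / 2 := by positivity
      simp only [pow_zero, one_mul, div_one]
      nlinarith [mul_nonneg h5 h4, mul_nonneg hM0 (sub_nonneg.2 h1)]
    · have h2 := vr_le_QQ_of_card_le_two g hlo (r := r) (c := c) (hi := hi) (by omega)
      have h1 : 0 ≤ pthSum (slc lo hi r c) (lo + hi) := by
        unfold pthSum
        exact sum_nonneg fun _ _ => sum_nonneg fun _ _ => sum_nonneg fun _ _ => sum_nonneg fun _ _ =>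
          pth_nonneg _ _ _ _ _ _
      simp only [pow_zero, one_mul, div_one]
      nlinarith [mul_nonneg hM0 h1]
  | succ t ih =>
    intro lo hi hlo hC hb
    set F := slc lo hi r c with hF
    have hdbl := vr_le_two_avg F g
    have hstep : avg F (fun U => vr (fib F U) g) ≤
        avg F (fun U => 2 ^ t * ((m : ℝ) / 2) * QQ g (loF lo hi U) (hiF lo hi U) r c +
          3 * M / 2 ^ t * pthSum (fib F U) U) := by
      refine avg_mono fun U hU => ?_
      have hmarg := main_margins hU
      have hfib : fib F U = slc (loF lo hi U) (hiF lo hi U) r c := fib_slc hmarg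
      have hlo' : (0 : Mat m n) ≤ loF lo hi U := fun i j => le_trans (hlo i j) (le_max_left _ _)
      have hadd : loF lo hi U + hiF lo hi U = U := loF_add_hiF
      have := ih hlo' (central_fib hmarg) (bin_fib hb U)
      rw [hadd, ← hfib] at this
      exact this
    rw [avg_add, avg_const_mul, avg_const_mul] at hstep
    have hQ := QQ_step g hC (hi := hi)
    have hP : avg F (fun U => pthSum (fib F U) U) ≤ (1 / 4) * pthSum F (lo + hi) :=
      pthSum_step hC hb
    have h2t : (0 : ℝ) < 2 ^ t := by positivity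
    have hm : (0 : ℝ) ≤ (m : ℝ) / 2 := by positivity
    have e1 : (2 : ℝ) ^ t * ((m : ℝ) / 2) * avg F (fun U => QQ g (loF lo hi U) (hiF lo hi U) r c) ≤
        2 ^ t * ((m : ℝ) / 2) * QQ g lo hi r c :=
      mul_le_mul_of_nonneg_left hQ (by positivity)
    have e2 : 3 * M / 2 ^ t * avg F (fun U => pthSum (fib F U) U) ≤
        3 * M / 2 ^ t * ((1 / 4) * pthSum F (lo + hi)) :=
      mul_le_mul_of_nonneg_left hP (by positivity)
    have e3 : (3 * M / 2 ^ (t + 1) : ℝ) = 3 * M / 2 ^ t / 2 := by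
      rw [pow_succ]; field_simp
    rw [e3]
    rw [pow_succ]
    nlinarith

/-- Stage 1: one central slice, restriction to the inner slice. -/
theorem stage1 (g : Mat m n → ℝ) {M : ℝ} (hM0 : 0 ≤ M)
    (hM : ∀ lo hi : Mat m n, 0 ≤ lo → ∀ X ∈ slc lo hi r c, g X ^ 2 ≤ M) (t : ℕ)
    {lo hi : Mat m n} (hlo : 0 ≤ lo) (hC : Central lo hi r c) :
    vr (slc lo hi r c) g ≤ 2 ^ t * (m : ℝ) * QQ g lo hi r c +
      M * (3 / 4 * ((m : ℝ) * n) ^ 2 / 2 ^ t + (1 / 3) * ThSum (slc lo hi r c) (lo + hi)) := by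
  set F := slc lo hi r c with hF
  by_cases hne : F.Nonempty
  · obtain ⟨X0, hX0⟩ := hne
    have hlh : ∀ i j, lo i j ≤ hi i j := fun i j =>
      le_trans ((Finset.mem_filter.1 hX0).1 |> fun h => by
        have h1 := (Fintype.mem_piFinset.1 h i)
        have h2 := Finset.mem_Icc.1 (Fintype.mem_piFinset.1 h1 j)
        exact h2.1) ((Finset.mem_filter.1 hX0).1 |> fun h => by
        have h1 := (Fintype.mem_piFinset.1 h i)
        have h2 := Finset.mem_Icc.1 (Fintype.mem_piFinset.1 h1 j)
        exact h2.2)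
    set I := slc (inLo (lo + hi)) (inHi (lo + hi)) r c with hI
    have hsub : I ⊆ F := inner_subset hlh
    have hfpos : (0 : ℝ) < F.card := by exact_mod_cast card_pos.2 ⟨X0, hX0⟩
    set p : ℝ := ((F.card : ℝ) - I.card) / F.card with hp
    have hpT : p ≤ (1 / 12) * ThSum F (lo + hi) := outer_le hlh
    have hTh := ThSum_nonneg F (lo + hi)
    have hQ0 : 0 ≤ QQ g lo hi r c := div_nonneg (DD_nonneg _ _ _ _ _) (Nat.cast_nonneg _)
    have h2t : (0 : ℝ) < 2 ^ t := by positivity
    have hm : (0 : ℝ) ≤ m := Nat.cast_nonneg _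
    have hT0 : 0 ≤ 3 / 4 * ((m : ℝ) * n) ^ 2 / 2 ^ t := by positivity
    by_cases hgood : p ≤ 1 / 2
    · -- the inner slice carries at least half of the mass
      have hcard2 : (F.card : ℝ) ≤ 2 * I.card := by
        have : (F.card : ℝ) - I.card ≤ (1 / 2) * F.card := by
          rw [hp, div_le_iff₀ hfpos] at hgood
          linarith
        linarith
      have hIpos : (0 : ℝ) < I.card := by linarith
      have hIne : I.Nonempty := by
        apply card_pos.1
        exact_mod_cast hIpos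
      have h1 := vr_le_vr_sub hsub hIne g (hM lo hi hlo) hM0
      -- the inner box is central and binary, and nonnegative
      have hIC : Central (inLo (lo + hi)) (inHi (lo + hi)) r c := inner_central hC
      have hIb : Bin (inLo (lo + hi)) (inHi (lo + hi)) := inner_bin _
      have hIlo : (0 : Mat m n) ≤ inLo (lo + hi) := by
        intro i j
        have h1 : (0 : ℤ) ≤ lo i j := hlo i j
        have h2 := hlh i j
        show (0 : ℤ) ≤ (lo + hi) i j / 2
        have h3 : (lo + hi) i j = lo i j + hi i j := rfl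
        omega
      have h2 := stage2 g hM0 hM t hIlo hIC hIb
      have hadd : inLo (lo + hi) + inHi (lo + hi) = lo + hi := inner_add _
      rw [hadd] at h2
      -- comparison of the load functionals
      have hQI : QQ g (inLo (lo + hi)) (inHi (lo + hi)) r c ≤ 2 * QQ g lo hi r c := by
        have hDD : DD g (inLo (lo + hi)) (inHi (lo + hi)) r c ≤ DD g lo hi r c := by
          apply DD_mono
          · intro i j
            have h2 := hlh i j
            show lo i j ≤ (lo + hi) i j / 2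
            have h3 : (lo + hi) i j = lo i j + hi i j := rfl
            omega
          · intro i j
            have h2 := hlh i j
            show (lo + hi) i j - (lo + hi) i j / 2 ≤ hi i j
            have h3 : (lo + hi) i j = lo i j + hi i j := rfl
            omega
        have hD0 := DD_nonneg g lo hi r c
        unfold QQ
        rw [div_le_iff₀ hIpos]
        have : DD g lo hi r c / (F.card : ℝ) * (2 * (I.card : ℝ)) ≥ DD g lo hi r c := by
          rw [ge_iff_le, div_mul_eq_mul_div, le_div_iff₀ hfpos]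
          nlinarith
        calc _ ≤ DD g lo hi r c := hDD
          _ ≤ _ := by
            have e : 2 * (DD g lo hi r c / (F.card : ℝ)) * (I.card : ℝ) =
                DD g lo hi r c / (F.card : ℝ) * (2 * (I.card : ℝ)) := by ring
            rw [e]
            exact this
      have hpair := pthSum_le (m := m) (n := n) I (lo + hi)
      have e1 : (2 : ℝ) ^ t * ((m : ℝ) / 2) * QQ g (inLo (lo + hi)) (inHi (lo + hi)) r c ≤
          2 ^ t * (m : ℝ) * QQ g lo hi r c := by
        have := mul_le_mul_of_nonneg_left hQI (by positivity : (0 : ℝ) ≤ 2 ^ t * ((m : ℝ) / 2))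
        calc _ ≤ _ := this
          _ = _ := by ring
      have e2 : 3 * M / 2 ^ t * pthSum I (lo + hi) ≤ M * (3 / 4 * ((m : ℝ) * n) ^ 2 / 2 ^ t) := by
        have := mul_le_mul_of_nonneg_left hpair (by positivity : (0 : ℝ) ≤ 3 * M / 2 ^ t)
        calc _ ≤ _ := this
          _ = _ := by ring
      have e3 : 4 * M * p ≤ M * ((1 / 3) * ThSum F (lo + hi)) := by
        have := mul_le_mul_of_nonneg_left hpT hM0
        nlinarith
      nlinarith
    · -- most of the mass is outside
      have h1 : vr F g ≤ M := vr_le_of_sq_le (hM lo hi hlo) hM0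
      have hp2 : (1 / 2 : ℝ) < p := not_le.1 hgood
      have h2 : (1 : ℝ) ≤ (1 / 3) * ThSum F (lo + hi) := by linarith
      have hq : 0 ≤ 2 ^ t * (m : ℝ) * QQ g lo hi r c := by positivity
      nlinarith [mul_nonneg hM0 hT0, mul_le_mul_of_nonneg_left h2 hM0]
  · have hF0 : F = ∅ := Finset.not_nonempty_iff_eq_empty.1 hne
    have hv : vr F g = 0 := by
      simp [vr, wv, hF0]
    rw [hv]
    have hQ0 : 0 ≤ QQ g lo hi r c := div_nonneg (DD_nonneg _ _ _ _ _) (Nat.cast_nonneg _)
    have hTh := ThSum_nonneg F (lo + hi)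
    have : 0 ≤ 3 / 4 * ((m : ℝ) * n) ^ 2 / 2 ^ t := by positivity
    positivity

/-- Levels: `s` doubling steps on a central slice. -/
theorem levels (g : Mat m n → ℝ) {M : ℝ} (hM0 : 0 ≤ M)
    (hM : ∀ lo hi : Mat m n, 0 ≤ lo → ∀ X ∈ slc lo hi r c, g X ^ 2 ≤ M) (t s : ℕ) :
    ∀ {lo hi : Mat m n}, 0 ≤ lo → Central lo hi r c →
    vr (slc lo hi r c) g ≤ 2 ^ s * (2 ^ t * (m : ℝ) * QQ g lo hi r c) +
      M * (2 ^ s * (3 / 4 * ((m : ℝ) * n) ^ 2 / 2 ^ t) +
        (2 / 3) ^ s * ((1 / 3) * ThSum (slc lo hi r c) (lo + hi))) := by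
  induction s with
  | zero =>
    intro lo hi hlo hC
    have := stage1 g hM0 hM t hlo hC
    simpa using this
  | succ s ih =>
    intro lo hi hlo hC
    set F := slc lo hi r c with hF
    have hdbl := vr_le_two_avg F g
    have hstep : avg F (fun U => vr (fib F U) g) ≤
        avg F (fun U => 2 ^ s * (2 ^ t * (m : ℝ)) * QQ g (loF lo hi U) (hiF lo hi U) r c +
          (M * (2 ^ s * (3 / 4 * ((m : ℝ) * n) ^ 2 / 2 ^ t)) +
            M * ((2 / 3) ^ s * (1 / 3)) * ThSum (fib F U) U)) := by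
      refine avg_mono fun U hU => ?_
      have hmarg := main_margins hU
      have hfib : fib F U = slc (loF lo hi U) (hiF lo hi U) r c := fib_slc hmarg
      have hlo' : (0 : Mat m n) ≤ loF lo hi U := fun i j => le_trans (hlo i j) (le_max_left _ _)
      have hadd : loF lo hi U + hiF lo hi U = U := loF_add_hiF
      have := ih hlo' (central_fib hmarg)
      rw [hadd, ← hfib] at this
      calc _ ≤ _ := this
        _ = _ := by ring
    have hlin := avg_lin F (2 ^ s * (2 ^ t * (m : ℝ))) (M * ((2 / 3) ^ s * (1 / 3)))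
      (M * (2 ^ s * (3 / 4 * ((m : ℝ) * n) ^ 2 / 2 ^ t))) (by positivity)
      (fun U => QQ g (loF lo hi U) (hiF lo hi U) r c) (fun U => ThSum (fib F U) U)
    have hQ : avg F (fun U => QQ g (loF lo hi U) (hiF lo hi U) r c) ≤ QQ g lo hi r c := QQ_step g hC
    have hTh : avg F (fun U => ThSum (fib F U) U) ≤ (1 / 3) * ThSum F (lo + hi) := ThSum_step hC
    have e1 : (2 : ℝ) ^ s * (2 ^ t * (m : ℝ)) * avg F (fun U => QQ g (loF lo hi U) (hiF lo hi U) r c) ≤
        2 ^ s * (2 ^ t * (m : ℝ)) * QQ g lo hi r c :=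
      mul_le_mul_of_nonneg_left hQ (by positivity)
    have e2 : M * ((2 / 3) ^ s * (1 / 3)) * avg F (fun U => ThSum (fib F U) U) ≤
        M * ((2 / 3) ^ s * (1 / 3)) * ((1 / 3) * ThSum F (lo + hi)) :=
      mul_le_mul_of_nonneg_left hTh (by positivity)
    have hg : (2 / 3 : ℝ) ^ (s + 1) = (2 / 3) ^ s * (2 / 3) := pow_succ _ _
    have h2 : (2 : ℝ) ^ (s + 1) = 2 ^ s * 2 := pow_succ _ _
    rw [hg, h2]
    have goal1 : vr F g ≤ 2 * (2 ^ s * (2 ^ t * (m : ℝ)) * QQ g lo hi r c +
        (M * (2 ^ s * (3 / 4 * ((m : ℝ) * n) ^ 2 / 2 ^ t)) +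
          M * ((2 / 3) ^ s * (1 / 3)) * ((1 / 3) * ThSum F (lo + hi)))) := by
      linarith
    calc _ ≤ _ := goal1
      _ = _ := by ring

/-- The weak Poincare inequality on a general slice, before inserting the top level bounds. -/
theorem top_general (g : Mat m n → ℝ) {M ρ : ℝ} (hM0 : 0 ≤ M)
    (hM : ∀ lo hi : Mat m n, 0 ≤ lo → ∀ X ∈ slc lo hi r c, g X ^ 2 ≤ M) (t s : ℕ)
    {lo hi : Mat m n} (hlo : 0 ≤ lo)
    (hρ : ∀ a b, ((nearP lo hi r c a b).card : ℝ) ≤ ρ * ((slc lo hi r c).card : ℝ)) (hρ0 : 0 ≤ ρ)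
    (N : ℤ) (hbox : ∀ X ∈ slc lo hi r c, ∀ i j, 0 ≤ X i j ∧ X i j ≤ N) :
    vr (slc lo hi r c) g ≤ 2 ^ (s + t + 1) * (m : ℝ) * ρ * QQ g lo hi r c +
      M * (2 ^ (s + 1) * (3 / 4 * ((m : ℝ) * n) ^ 2 / 2 ^ t) +
        2 * (2 / 3) ^ s * ((1 / 3) * ((m : ℝ) * n * (N : ℝ) ^ 4))) := by
  set F := slc lo hi r c with hF
  have hdbl := vr_le_two_avg F g
  have hstep : avg F (fun U => vr (fib F U) g) ≤
      avg F (fun U => 2 ^ s * (2 ^ t * (m : ℝ)) * QQ g (loF lo hi U) (hiF lo hi U) r c +
        (M * (2 ^ s * (3 / 4 * ((m : ℝ) * n) ^ 2 / 2 ^ t)) +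
          M * ((2 / 3) ^ s * (1 / 3)) * ThSum (fib F U) U)) := by
    refine avg_mono fun U hU => ?_
    have hmarg := main_margins hU
    have hfib : fib F U = slc (loF lo hi U) (hiF lo hi U) r c := fib_slc hmarg
    have hlo' : (0 : Mat m n) ≤ loF lo hi U := fun i j => le_trans (hlo i j) (le_max_left _ _)
    have hadd : loF lo hi U + hiF lo hi U = U := loF_add_hiF
    have := levels g hM0 hM t s hlo' (central_fib hmarg)
    rw [hadd, ← hfib] at this
    calc _ ≤ _ := this
      _ = _ := by ring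
  have hlin := avg_lin F (2 ^ s * (2 ^ t * (m : ℝ))) (M * ((2 / 3) ^ s * (1 / 3)))
    (M * (2 ^ s * (3 / 4 * ((m : ℝ) * n) ^ 2 / 2 ^ t))) (by positivity)
    (fun U => QQ g (loF lo hi U) (hiF lo hi U) r c) (fun U => ThSum (fib F U) U)
  have hf : (0 : ℝ) ≤ (F.card : ℝ) := Nat.cast_nonneg _
  -- the load
  have hQ : avg F (fun U => QQ g (loF lo hi U) (hiF lo hi U) r c) ≤ ρ * QQ g lo hi r c := by
    by_cases hne : F.Nonempty
    · have hfpos : (0 : ℝ) < F.card := by exact_mod_cast card_pos.2 hne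
      have hsum := sum_DD_fib_le g (lo := lo) (hi := hi) (r := r) (c := c)
        (ρ := ρ * (F.card : ℝ)) hρ
      unfold avg QQ
      have hterm : ∀ U ∈ F + F, ((fib F U).card : ℝ) * (DD g (loF lo hi U) (hiF lo hi U) r c /
          ((slc (loF lo hi U) (hiF lo hi U) r c).card : ℝ)) ≤ DD g (loF lo hi U) (hiF lo hi U) r c := by
        intro U hU
        have hmarg := main_margins hU
        have hfib : fib F U = slc (loF lo hi U) (hiF lo hi U) r c := fib_slc hmarg
        rw [← hfib]
        have hD := DD_nonneg g (loF lo hi U) (hiF lo hi U) r c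
        by_cases h0 : ((fib F U).card : ℝ) = 0
        · rw [h0]; simpa using hD
        · rw [mul_div_cancel₀ _ h0]
      calc _ ≤ (∑ U ∈ F + F, DD g (loF lo hi U) (hiF lo hi U) r c) / (F.card : ℝ) ^ 2 :=
            div_le_div_of_nonneg_right (sum_le_sum hterm) (by positivity)
        _ ≤ (ρ * (F.card : ℝ) * DD g lo hi r c) / (F.card : ℝ) ^ 2 :=
            div_le_div_of_nonneg_right hsum (by positivity)
        _ = _ := by
            have hD := DD_nonneg g lo hi r c
            rw [sq]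
            field_simp
            rw [hF]
            ring
    · have hF0 : F = ∅ := Finset.not_nonempty_iff_eq_empty.1 hne
      simp [avg, hF0, QQ, ← hF]
  -- the quartic functional
  have hTh : avg F (fun U => ThSum (fib F U) U) ≤ (m : ℝ) * n * (N : ℝ) ^ 4 := by
    unfold ThSum
    simp only [avg_sum]
    calc _ ≤ ∑ _i : Fin m, ∑ _j : Fin n, (N : ℝ) ^ 4 :=
          sum_le_sum fun i _ => sum_le_sum fun j _ => top_Th_le F N hbox i j
      _ = _ := by
          simp only [sum_const, card_univ, Fintype.card_fin, nsmul_eq_mul]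
          ring
  have e1 : (2 : ℝ) ^ s * (2 ^ t * (m : ℝ)) * avg F (fun U => QQ g (loF lo hi U) (hiF lo hi U) r c) ≤
      2 ^ s * (2 ^ t * (m : ℝ)) * (ρ * QQ g lo hi r c) :=
    mul_le_mul_of_nonneg_left hQ (by positivity)
  have e2 : M * ((2 / 3) ^ s * (1 / 3)) * avg F (fun U => ThSum (fib F U) U) ≤
      M * ((2 / 3) ^ s * (1 / 3)) * ((m : ℝ) * n * (N : ℝ) ^ 4) :=
    mul_le_mul_of_nonneg_left hTh (by positivity)
  have h2 : (2 : ℝ) ^ (s + 1) = 2 ^ s * 2 := pow_succ _ _
  have h3 : (2 : ℝ) ^ (s + t + 1) = 2 ^ s * 2 ^ t * 2 := by rw [pow_succ, pow_add]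
  rw [h2, h3]
  have goal1 : vr F g ≤ 2 * (2 ^ s * (2 ^ t * (m : ℝ)) * (ρ * QQ g lo hi r c) +
      (M * (2 ^ s * (3 / 4 * ((m : ℝ) * n) ^ 2 / 2 ^ t)) +
        M * ((2 / 3) ^ s * (1 / 3)) * ((m : ℝ) * n * (N : ℝ) ^ 4))) := by
    linarith
  calc _ ≤ _ := goal1
    _ = _ := by ring

end

end Vale.Agent.Lib.P328U
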