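import Vale.Agent.Lib.P328U.Main
import Vale.Agent.Lib.P328Q.Bridge

/-!
The weak Poincare inequality on all contingency tables, in the form used for the chain.
-/

namespace Vale.Agent.Lib.P328U

open Finset Vale.Agent.Lib.P328Q Vale.Agent.Lib.P328

noncomputable section

variable {m n : ℕ}

/-- The weak Poincare inequality on integer tables with nonnegative margins. -/
theorem weak_Om (r : Fin m → ℤ) (c : Fin n → ℤ) (hr : 0 ≤ r) (hc : 0 ≤ c) (g : Mat m n → ℝ) {M : ℝ}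
    (hM0 : 0 ≤ M) (hM : ∀ X ∈ Om r c, g X ^ 2 ≤ M) (s t : ℕ) :
    vr (Om r c) g ≤ 2 ^ (s + t + 1) * (m : ℝ) * ((m : ℝ) * n + 1) * (Dir g r c / ((Om r c).card : ℝ)) +
      M * (2 ^ (s + 1) * (3 / 4 * ((m : ℝ) * n) ^ 2 / 2 ^ t) +
        2 * (2 / 3) ^ s * ((1 / 3) * ((m : ℝ) * n * ((∑ i, r i : ℤ) : ℝ) ^ 4))) := by
  have hM' : ∀ lo hi : Mat m n, 0 ≤ lo → ∀ X ∈ slc lo hi r c, g X ^ 2 ≤ M := by
    intro lo hi hlo X hX
    obtain ⟨h1, h2⟩ := top_margins_of_mem hX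
    exact hM X (top_mem_Om (fun i j => top_nonneg_of_mem hlo hX i j) h1 h2)
  have hρ : ∀ a b, ((nearP (0 : Mat m n) (bigHi r) r c a b).card : ℝ) ≤
      ((m : ℝ) * n + 1) * ((slc (0 : Mat m n) (bigHi r) r c).card : ℝ) := by
    intro a b
    have := card_nearP_big_le r c hr hc a b
    have h' : ((nearP (0 : Mat m n) (bigHi r) r c a b).card : ℝ) ≤
        (((m * n + 1) * (Om r c).card : ℕ) : ℝ) := by exact_mod_cast this
    push_cast at h'
    exact h'
  have hbox : ∀ X ∈ slc (0 : Mat m n) (bigHi r) r c, ∀ i j, 0 ≤ X i j ∧ X i j ≤ (∑ i, r i : ℤ) := by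
    intro X hX i j
    have h := entry_bound (le_refl (0 : Mat m n)) hX i j
    refine ⟨h.1, h.2.trans ((min_le_left _ _).trans ?_)⟩
    exact Finset.single_le_sum (f := fun i' => r i') (fun i' _ => hr i') (mem_univ i)
  have hmain := top_general (r := r) (c := c) g hM0 hM' t s (lo := 0) (hi := bigHi r) le_rfl hρ
    (by positivity) (∑ i, r i) hbox
  refine hmain.trans ?_
  have hQ : QQ g 0 (bigHi r) r c ≤ Dir g r c / ((Om r c).card : ℝ) := by
    unfold QQ
    exact div_le_div_of_nonneg_right (sum_kap_le_Dir g r c) (Nat.cast_nonneg _)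
  have : (2 : ℝ) ^ (s + t + 1) * (m : ℝ) * ((m : ℝ) * n + 1) * QQ g 0 (bigHi r) r c ≤
      2 ^ (s + t + 1) * (m : ℝ) * ((m : ℝ) * n + 1) * (Dir g r c / ((Om r c).card : ℝ)) :=
    mul_le_mul_of_nonneg_left hQ (by positivity)
  linarith

/-- The weak Poincare inequality on natural number tables. -/
theorem weak_tab (r : Fin m → ℕ) (c : Fin n → ℕ) (g : Tb m (Fin n) → ℝ) {M : ℝ} (hM0 : 0 ≤ M)
    (hM : ∀ x ∈ Tab r c, g x ^ 2 ≤ M) (s t : ℕ) :
    tabVar r c g ≤ 2 ^ (s + t + 1) * (m : ℝ) * ((m : ℝ) * n + 1) * tabDir r c g +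
      M * (2 ^ (s + 1) * (3 / 4 * ((m : ℝ) * n) ^ 2 / 2 ^ t) +
        2 * (2 / 3) ^ s * ((1 / 3) * ((m : ℝ) * n * ((∑ i, r i : ℕ) : ℝ) ^ 4))) := by
  classical
  have hr0 : (0 : Fin m → ℤ) ≤ brR r := fun i => by simp [brR]
  have hc0 : (0 : Fin n → ℤ) ≤ brC c := fun j => by simp [brC]
  have hM' : ∀ X ∈ Om (brR r) (brC c), (fun Y => g (brBack Y)) X ^ 2 ≤ M := by
    intro X hX
    rw [br_image] at hX
    obtain ⟨x, hx, rfl⟩ := mem_image.mp hX
    show g (brBack (brEmb x)) ^ 2 ≤ M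
    rw [brBack_emb]
    exact hM x hx
  have hW := weak_Om (brR r) (brC c) hr0 hc0 (fun Y => g (brBack Y)) hM0 hM' s t
  have hsum : ((∑ i, brR r i : ℤ) : ℝ) = ((∑ i, r i : ℕ) : ℝ) := by
    simp [brR]
  rw [hsum] at hW
  have hDir : Dir (fun Y => g (brBack Y)) (brR r) (brC c) / ((Om (brR r) (brC c)).card : ℝ) =
      tabDir r c g := by
    rw [br_Dir, br_card]
    rfl
  rw [hDir] at hW
  have hvar : vr (Om (brR r) (brC c)) (fun Y => g (brBack Y)) = tabVar r c g := by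
    unfold vr
    rw [br_wv, br_card, br_double_sum]
    unfold tabVar
    rcases Nat.eq_zero_or_pos (Tab r c).card with h0 | hpos
    · rw [h0]
      simp
    · have hN : (0 : ℝ) < (Tab r c).card := by exact_mod_cast hpos
      field_simp
  rw [hvar] at hW
  exact hW

end

end Vale.Agent.Lib.P328U
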